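import Vale.Agent.P097.H264.Chain

/-!
The Schottky chain in the two dimensional sawtooth over a set `A` of real feet: two points of the
sawtooth are joined with polynomial growth in the ratios of heights.
-/

open Complex Metric Filter Topology Set

namespace Vale.Agent.P097.H264

/-- the sawtooth over `A`: `|Im ζ| < κ Im μ`, `Im μ < h`, foot at distance `< C Im μ` from `A` -/
def Sw (κ C h : ℝ) (A : Set (ℝ × ℝ)) : Set (ℂ × ℂ) :=
  {z | 0 < z.1.im ∧ z.1.im < h ∧ |z.2.im| < κ * z.1.im ∧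
    ∃ e ∈ A, dist (z.1.re, z.2.re) e < C * z.1.im}

/-- a point of the closed inner sawtooth -/
def Pt (κ C : ℝ) (A : Set (ℝ × ℝ)) (z : ℂ × ℂ) : Prop :=
  0 < z.1.im ∧ |z.2.im| ≤ κ * z.1.im ∧ ∃ e ∈ A, dist (z.1.re, z.2.re) e ≤ C * z.1.im

theorem foot_lip (z w : ℂ × ℂ) : dist (w.1.re, w.2.re) (z.1.re, z.2.re) ≤ ‖w - z‖ := by
  rw [Prod.dist_eq, Prod.norm_def]
  refine max_le_max ?_ ?_
  · simp only [Prod.fst_sub]
    rw [Real.dist_eq, ← Complex.sub_re]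
    exact Complex.abs_re_le_norm _
  · simp only [Prod.snd_sub]
    rw [Real.dist_eq, ← Complex.sub_re]
    exact Complex.abs_re_le_norm _

theorem im_lip1 (z w : ℂ × ℂ) : |w.1.im - z.1.im| ≤ ‖w - z‖ := by
  rw [← Complex.sub_im]
  exact (Complex.abs_im_le_norm _).trans (norm_fst_le (w - z))

theorem im_lip2 (z w : ℂ × ℂ) : |w.2.im - z.2.im| ≤ ‖w - z‖ := by
  rw [← Complex.sub_im]
  exact (Complex.abs_im_le_norm _).trans (norm_snd_le (w - z))

/-- opening of the twisted cones -/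
noncomputable def opn (κ κ₁ C C₁ : ℝ) : ℝ := min (1 / 2) (min ((κ - κ₁) / (1 + κ)) ((C - C₁) / (1 + C)))

theorem opn_pos {κ κ₁ C C₁ : ℝ} (h0 : 0 ≤ κ₁) (h1 : κ₁ < κ) (h2 : 0 ≤ C₁) (h3 : C₁ < C) :
    0 < opn κ κ₁ C C₁ := by
  unfold opn
  have : 0 < (κ - κ₁) / (1 + κ) := div_pos (by linarith) (by linarith)
  have : 0 < (C - C₁) / (1 + C) := div_pos (by linarith) (by linarith)
  positivity

/-- balls in the sawtooth -/
theorem Pt.ball {κ κ₁ C C₁ h : ℝ} {A : Set (ℝ × ℝ)} (h0 : 0 ≤ κ₁) (h1 : κ₁ < κ) (h2 : 0 ≤ C₁)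
    (h3 : C₁ < C) {z : ℂ × ℂ} (hz : Pt κ₁ C₁ A z) (hh : 2 * z.1.im ≤ h) :
    ball z (opn κ κ₁ C C₁ * z.1.im) ⊆ Sw κ C h A := by
  obtain ⟨ht, hζ, e, heA, he⟩ := hz
  set c := opn κ κ₁ C C₁ with hc
  set t := z.1.im with htd
  have hc0 : 0 < c := opn_pos h0 h1 h2 h3
  have hc1 : c ≤ 1 / 2 := min_le_left _ _
  have hc2 : c * (1 + κ) ≤ κ - κ₁ := by
    have : c ≤ (κ - κ₁) / (1 + κ) := (min_le_right _ _).trans (min_le_left _ _)
    rwa [le_div_iff₀ (by linarith)] at this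
  have hc3 : c * (1 + C) ≤ C - C₁ := by
    have : c ≤ (C - C₁) / (1 + C) := (min_le_right _ _).trans (min_le_right _ _)
    rwa [le_div_iff₀ (by linarith)] at this
  intro w hw
  rw [mem_ball, dist_eq_norm] at hw
  have hct : 0 < c * t := by positivity
  have hi1 := (im_lip1 z w).trans hw.le
  have hi1' := (im_lip1 z w).trans_lt hw
  have hi2 := (im_lip2 z w).trans_lt hw
  rw [abs_lt] at hi1'
  have hlow : (1 - c) * t < w.1.im := by rw [← htd] at hi1'; linarith [hi1'.1]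
  have hup : w.1.im < (1 + c) * t := by rw [← htd] at hi1'; linarith [hi1'.2]
  refine ⟨?_, ?_, ?_, e, heA, ?_⟩
  · nlinarith
  · nlinarith
  · have h4 : |w.2.im| ≤ |w.2.im - z.2.im| + |z.2.im| := by
      have := abs_add_le (w.2.im - z.2.im) z.2.im
      rwa [sub_add_cancel] at this
    have h5 : |w.2.im| < c * t + κ₁ * t := by linarith
    have h6 : c * t + κ₁ * t ≤ κ * ((1 - c) * t) := by nlinarith
    have h7 : κ * ((1 - c) * t) ≤ κ * w.1.im := by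
      have : 0 < κ := by linarith
      gcongr
    linarith
  · have h4 := (foot_lip z w).trans_lt hw
    have h5 : dist (w.1.re, w.2.re) e < c * t + C₁ * t := by
      have := dist_triangle (w.1.re, w.2.re) (z.1.re, z.2.re) e
      linarith
    have h6 : c * t + C₁ * t ≤ C * ((1 - c) * t) := by nlinarith
    have h7 : C * ((1 - c) * t) ≤ C * w.1.im := by
      have : 0 < C := by linarith
      gcongr
    linarith

/-- the point over the foot `p` at height `t` -/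
noncomputable def pt (p : ℝ × ℝ) (t : ℝ) : ℂ × ℂ := ((p.1 : ℂ) + t * I, (p.2 : ℂ))

@[simp] theorem pt_1re (p : ℝ × ℝ) (t : ℝ) : (pt p t).1.re = p.1 := by simp [pt]
@[simp] theorem pt_1im (p : ℝ × ℝ) (t : ℝ) : (pt p t).1.im = t := by simp [pt]
@[simp] theorem pt_2re (p : ℝ × ℝ) (t : ℝ) : (pt p t).2.re = p.2 := by simp [pt]
@[simp] theorem pt_2im (p : ℝ × ℝ) (t : ℝ) : (pt p t).2.im = 0 := by simp [pt]

theorem pt_Pt {κ C : ℝ} (hκ : 0 ≤ κ) {A : Set (ℝ × ℝ)} {p : ℝ × ℝ} {t : ℝ} (ht : 0 < t)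
    (h : ∃ e ∈ A, dist p e ≤ C * t) : Pt κ C A (pt p t) := by
  refine ⟨by simpa using ht, ?_, ?_⟩
  · simp only [pt_2im, pt_1im, abs_zero]; positivity
  · simpa using h

theorem pt_sub_t (p : ℝ × ℝ) (s t : ℝ) : ‖pt p t - pt p s‖ = |t - s| := by
  have : pt p t - pt p s = (((t - s : ℝ) : ℂ) * I, 0) := by
    unfold pt
    ext
    · simp; ring_nf
    · simp
  rw [this, Prod.norm_def]
  simp only [norm_mul, Complex.norm_real, Complex.norm_I, mul_one, norm_zero, Real.norm_eq_abs]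
  exact max_eq_left (abs_nonneg _)

theorem pt_sub_p (p q : ℝ × ℝ) (t : ℝ) : ‖pt q t - pt p t‖ = dist p q := by
  have : pt q t - pt p t = (((q.1 - p.1 : ℝ) : ℂ), ((q.2 - p.2 : ℝ) : ℂ)) := by
    unfold pt
    ext <;> simp
  rw [this, Prod.norm_def, Prod.dist_eq, Complex.norm_real, Complex.norm_real, dist_comm p.1,
    dist_comm p.2, Real.dist_eq, Real.dist_eq, Real.norm_eq_abs, Real.norm_eq_abs]

/-- from a general point of the sawtooth to the point with real second coordinate -/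
theorem to_pt {κ κ₁ C C₁ h : ℝ} {A : Set (ℝ × ℝ)} (h0 : 0 ≤ κ₁) (h1 : κ₁ < κ) (h2 : 0 ≤ C₁)
    (h3 : C₁ < C) {z : ℂ × ℂ} (hz : Pt κ₁ C₁ A z) (hh : 2 * z.1.im ≤ h) :
    J (Sw κ C h A) (KS ^ (8 * κ₁ / opn κ κ₁ C C₁ + 1)) z (pt (z.1.re, z.2.re) z.1.im) ∧
    J (Sw κ C h A) (KS ^ (8 * κ₁ / opn κ κ₁ C C₁ + 1)) (pt (z.1.re, z.2.re) z.1.im) z := by
  have hc0 : 0 < opn κ κ₁ C C₁ := opn_pos h0 h1 h2 h3
  set c := opn κ κ₁ C C₁ with hc
  obtain ⟨ht, hζ, hA⟩ := hz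
  set t := z.1.im with htd
  set w := pt (z.1.re, z.2.re) t with hw
  have hwz : w - z = (0, -((z.2.im : ℂ) * I)) := by
    rw [hw]
    unfold pt
    apply Prod.ext
    · apply Complex.ext <;> simp [htd]
    · apply Complex.ext <;> simp
  have hn : ‖w - z‖ = |z.2.im| := by
    rw [hwz, Prod.norm_def]
    simp
  have hnc : 8 * ‖w - z‖ / (c * t) + 1 ≤ 8 * κ₁ / c + 1 := by
    rw [hn]
    have : 8 * |z.2.im| / (c * t) ≤ 8 * κ₁ / c := by
      rw [div_le_div_iff₀ (by positivity) hc0]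
      nlinarith
    linarith
  have hseg : ∀ s ∈ Icc (0 : ℝ) 1, Pt κ₁ C₁ A (z + (s : ℂ) • (w - z)) ∧
      (z + (s : ℂ) • (w - z)).1.im = t := by
    intro s hs
    have e1 : (z + (s : ℂ) • (w - z)).1 = z.1 := by rw [hwz]; simp
    have e2r : (z + (s : ℂ) • (w - z)).2.re = z.2.re := by rw [hwz]; simp
    have e2i : (z + (s : ℂ) • (w - z)).2.im = (1 - s) * z.2.im := by rw [hwz]; simp; ring
    refine ⟨⟨?_, ?_, ?_⟩, ?_⟩
    · rw [e1]; exact ht
    · rw [e1, e2i, abs_mul, abs_of_nonneg (by linarith [hs.2] : (0 : ℝ) ≤ 1 - s)]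
      calc (1 - s) * |z.2.im| ≤ 1 * |z.2.im| := by
            have := hs.1
            gcongr
            linarith
        _ ≤ κ₁ * t := by rw [one_mul]; exact hζ
    · rw [e1, e2r]; exact hA
    · rw [e1]
  constructor
  · refine (path_seg (U := Sw κ C h A) (z := z) (w := w) (R := c * t) (by positivity) ?_).mono
      (Real.rpow_le_rpow_of_exponent_le KS_one hnc)
    intro s hs
    obtain ⟨h4, h5⟩ := hseg s hs
    have := Pt.ball h0 h1 h2 h3 (h := h) h4 (by rw [h5]; exact hh)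
    rwa [h5] at this
  · have hn' : ‖z - w‖ = ‖w - z‖ := norm_sub_rev _ _
    refine (path_seg (U := Sw κ C h A) (z := w) (w := z) (R := c * t) (by positivity) ?_).mono
      (Real.rpow_le_rpow_of_exponent_le KS_one (by rw [hn']; exact hnc))
    intro s hs
    obtain ⟨h4, h5⟩ := hseg (1 - s) ⟨by linarith [hs.2], by linarith [hs.1]⟩
    have h6 : w + (s : ℂ) • (z - w) = z + (((1 - s : ℝ)) : ℂ) • (w - z) := by
      push_cast
      rw [sub_smul, one_smul, smul_sub, smul_sub]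
      abel
    rw [h6]
    have := Pt.ball h0 h1 h2 h3 (h := h) h4 (by rw [h5]; exact hh)
    rwa [h5] at this

/-- constants of the sawtooth -/
noncomputable def Kw (κ κ₁ C C₁ : ℝ) : ℝ :=
  KS ^ (8 * κ₁ / opn κ κ₁ C C₁ + 1) * KS * (KS ^ (8 / opn κ κ₁ C (1 + C₁) + 1)) * KS *
    KS ^ (8 * κ₁ / opn κ κ₁ C C₁ + 1)

noncomputable def pw (κ κ₁ C C₁ : ℝ) : ℝ := pS (opn κ κ₁ C C₁)

/-- **Schottky chain in the sawtooth**, relational form -/
theorem saw_join {κ κ₁ C C₁ h : ℝ} {A : Set (ℝ × ℝ)} (h0 : 0 ≤ κ₁) (h1 : κ₁ < κ) (h2 : 0 ≤ C₁)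
    (h3 : 1 + C₁ < C) {z w : ℂ × ℂ} (hz : Pt κ₁ C₁ A z) (hw : Pt κ₁ C₁ A w) {ρ : ℝ}
    (hρ : 2 * ρ ≤ h) (hzρ : z.1.im ≤ ρ) (hwρ : w.1.im ≤ ρ)
    (hd : dist (z.1.re, z.2.re) (w.1.re, w.2.re) ≤ ρ) :
    J (Sw κ C h A) (Kw κ κ₁ C C₁ * (ρ / z.1.im) ^ pw κ κ₁ C C₁ * (ρ / w.1.im) ^ pw κ κ₁ C C₁)
      z w := by
  have h3' : C₁ < C := by linarith
  have hKS := KS_one
  have hz0 := hz.1
  have hw0 := hw.1
  have hρ0 : 0 < ρ := hz0.trans_le hzρ
  set c := opn κ κ₁ C C₁ with hc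
  have hc0 : 0 < c := opn_pos h0 h1 h2 h3'
  set c' := opn κ κ₁ C (1 + C₁) with hc'
  have hc'0 : 0 < c' := opn_pos h0 h1 (by linarith) h3
  set p := (z.1.re, z.2.re) with hp
  set q := (w.1.re, w.2.re) with hq
  -- vertical moves
  have vert : ∀ (p : ℝ × ℝ) (t : ℝ), 0 < t → t ≤ ρ → (∃ e ∈ A, dist p e ≤ C₁ * t) →
      J (Sw κ C h A) (KS * (ρ / t) ^ pS c) (pt p t) (pt p ρ) ∧
      J (Sw κ C h A) (KS * (ρ / t) ^ pS c) (pt p ρ) (pt p t) := by
    intro p t ht htρ hA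
    have hb : ∀ s ∈ Icc t ρ, ball (pt p s) (c * s) ⊆ Sw κ C h A := by
      intro s hs
      have hs0 : 0 < s := ht.trans_le hs.1
      have hP : Pt κ₁ C₁ A (pt p s) := by
        refine pt_Pt h0 hs0 ?_
        obtain ⟨e, he, hde⟩ := hA
        exact ⟨e, he, hde.trans (by have := hs.1; gcongr)⟩
      have := Pt.ball h0 h1 h2 h3' (h := h) hP (by rw [pt_1im]; linarith [hs.2])
      rwa [pt_1im] at this
    exact ⟨path_up ht htρ hc0 (fun s _ t _ => (pt_sub_t p s t).le) hb,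
      path_down ht htρ hc0 (fun s _ t _ => (pt_sub_t p s t).le) hb⟩
  -- horizontal move
  have hor : J (Sw κ C h A) (KS ^ (8 / c' + 1)) (pt p ρ) (pt q ρ) := by
    have hn : ‖pt q ρ - pt p ρ‖ ≤ ρ := by rw [pt_sub_p]; exact hd
    refine (path_seg (U := Sw κ C h A) (z := pt p ρ) (w := pt q ρ) (R := c' * ρ) (by positivity)
      ?_).mono (Real.rpow_le_rpow_of_exponent_le hKS ?_)
    · intro s hs
      have e1 : pt p ρ + (s : ℂ) • (pt q ρ - pt p ρ) =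
          pt (p.1 + s * (q.1 - p.1), p.2 + s * (q.2 - p.2)) ρ := by
        unfold pt
        apply Prod.ext
        · simp
          ring
        · simp
      rw [e1]
      have hP : Pt κ₁ (1 + C₁) A (pt (p.1 + s * (q.1 - p.1), p.2 + s * (q.2 - p.2)) ρ) := by
        refine pt_Pt h0 hρ0 ?_
        obtain ⟨e, he, hde⟩ := hz.2.2
        refine ⟨e, he, ?_⟩
        have h4 : dist (p.1 + s * (q.1 - p.1), p.2 + s * (q.2 - p.2)) p ≤ dist p q := by
          rw [Prod.dist_eq, Prod.dist_eq]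
          refine max_le_max ?_ ?_
          · rw [Real.dist_eq, Real.dist_eq, add_sub_cancel_left, abs_mul, abs_of_nonneg hs.1,
              abs_sub_comm p.1]
            exact mul_le_of_le_one_left (abs_nonneg _) hs.2
          · rw [Real.dist_eq, Real.dist_eq, add_sub_cancel_left, abs_mul, abs_of_nonneg hs.1,
              abs_sub_comm p.2]
            exact mul_le_of_le_one_left (abs_nonneg _) hs.2
        have h5 := dist_triangle (p.1 + s * (q.1 - p.1), p.2 + s * (q.2 - p.2)) p e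
        have h6 : C₁ * z.1.im ≤ C₁ * ρ := by gcongr
        have h7 : dist p e ≤ C₁ * z.1.im := hde
        linarith
      have := Pt.ball h0 h1 (by linarith) h3 (h := h) hP (by rw [pt_1im]; exact hρ)
      rwa [pt_1im] at this
    · have : 8 * ‖pt q ρ - pt p ρ‖ / (c' * ρ) ≤ 8 / c' := by
        rw [div_le_div_iff₀ (by positivity) hc'0]
        nlinarith
      linarith
  have s1 := (to_pt h0 h1 h2 h3' hz (h := h) (by linarith)).1
  have s5 := (to_pt h0 h1 h2 h3' hw (h := h) (by linarith)).2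
  have s2 := (vert p z.1.im hz0 hzρ hz.2.2).1
  have s4 := (vert q w.1.im hw0 hwρ hw.2.2).2
  have hr1 : 1 ≤ (ρ / z.1.im) ^ pS c :=
    Real.one_le_rpow (by rw [le_div_iff₀ hz0]; linarith) (pS_nonneg hc0)
  have hr2 : 1 ≤ (ρ / w.1.im) ^ pS c :=
    Real.one_le_rpow (by rw [le_div_iff₀ hw0]; linarith) (pS_nonneg hc0)
  have hk1 : 1 ≤ KS ^ (8 * κ₁ / c + 1) := Real.one_le_rpow hKS (by positivity)
  have hk2 : 1 ≤ KS ^ (8 / c' + 1) := Real.one_le_rpow hKS (by positivity)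
  have hm2 : 1 ≤ KS * (ρ / w.1.im) ^ pS c := one_le_mul_of_one_le_of_one_le hKS hr2
  have hm1 : 1 ≤ KS * (ρ / z.1.im) ^ pS c := one_le_mul_of_one_le_of_one_le hKS hr1
  have := (((s1.trans s2 hm1).trans hor hk2).trans s4 hm2).trans s5 hk1
  refine this.mono (le_of_eq ?_)
  unfold Kw pw
  rw [← hc, ← hc']
  ring

/-- **Schottky chain in the sawtooth.** -/
theorem saw_chain {κ κ₁ C C₁ h : ℝ} {A : Set (ℝ × ℝ)} (h0 : 0 ≤ κ₁) (h1 : κ₁ < κ) (h2 : 0 ≤ C₁)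
    (h3 : 1 + C₁ < C) {g : ℂ × ℂ → ℂ} (hg : LogOm (Sw κ C h A) g)
    {z w : ℂ × ℂ} (hz : Pt κ₁ C₁ A z) (hw : Pt κ₁ C₁ A w) {ρ : ℝ}
    (hρ : 2 * ρ ≤ h) (hzρ : z.1.im ≤ ρ) (hwρ : w.1.im ≤ ρ)
    (hd : dist (z.1.re, z.2.re) (w.1.re, w.2.re) ≤ ρ) :
    ‖g w - g z‖ ≤ Kw κ κ₁ C C₁ * (ρ / z.1.im) ^ pw κ κ₁ C C₁ * (ρ / w.1.im) ^ pw κ κ₁ C C₁ *
        (1 + |(g z).re|) ∧
      1 + |(g w).re| ≤ Kw κ κ₁ C C₁ * (ρ / z.1.im) ^ pw κ κ₁ C C₁ *
        (ρ / w.1.im) ^ pw κ κ₁ C C₁ * (1 + |(g z).re|) := by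
  obtain ⟨h4, h5⟩ := saw_join h0 h1 h2 h3 hz hw hρ hzρ hwρ hd g hg
  refine ⟨h5.trans ?_, h4⟩
  have : 0 ≤ 1 + |(g z).re| := by positivity
  gcongr
  linarith

end Vale.Agent.P097.H264
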