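import Vale.Agent.P097.H264.Lim
import Vale.Agent.P097.H91.TLem

/-!
(A4) from the bounds at good scales.
-/

open Complex Metric Filter Topology Set MeasureTheory

namespace Vale.Agent.P097.H264

open Vale.Agent.P097.TC

/-- **bounds at good scales** (the only open row of (A4)) -/
def Gb : Prop := ∀ {Λ b : ℝ} {F q : ℂ → ℂ} {e₀ : ℝ × ℝ} {ρ k : ℝ} {al p th : ℂ × ℂ → ℂ},
  LW Λ b F q e₀ ρ k al p th → ∀ k₁ : ℝ, 0 < k₁ → k₁ < k →
  ∀ᵐ e : ℝ × ℝ, e ∈ ball e₀ ρ → ∀ x ∈ Sb b, deriv F x ≠ 0 → NT th k e x →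
    ∃ (r : ℕ → ℝ) (N : ℕ → ℤ), GB F q k₁ al p th e x r N

/-- the bounds of the T-lemma for the limit -/
theorem bd_sin {k : ℝ} (hk : 0 < k) {al₀ : ℂ × ℂ → ℂ} {c : ℂ}
    (hd : DifferentiableOn ℂ al₀ (Tc (K1 k))) (hne : ∀ z ∈ Tc (K1 k), Complex.sin (al₀ z - c) ≠ 0) :
    ∀ R : ℝ, ∃ (C : ℝ) (m : ℕ), ∀ z ∈ Tc (K1 k), ‖z‖ ≤ R →
      |Real.log ‖Complex.sin (al₀ z - c)‖| ≤ C / (k * z.1.im - |z.2.im|) ^ m := by
  intro R
  obtain ⟨C, m, -, h⟩ := hb_sin hk (δ := fun z => al₀ z - c) (hd.sub_const c) hne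
    (R := max R 0) (le_max_right _ _)
  exact ⟨C, m, fun z hz hzR => h z hz (hzR.trans (le_max_left _ _))⟩

/-- **(A4) from the bounds at good scales** -/
theorem a4_of_gb (hG : Gb) : A4 := by
  intro Λ b F q e₀ ρ k al p th L W hWc hWs
  obtain ⟨k', hk0, hkk, hWk⟩ := exists_k L.k0 L.k1 hWc hWs
  have hk1 : k' < 1 := hkk.trans L.k1
  set z₁ : ℂ × ℂ := (I, 0) with hz₁
  have hz1 : z₁ ∈ Tc (K1 k') := by simp [Tc, K1, ht, hz₁, hk0]
  have hz2 : z₁ ∈ Tc (K2 k') := by simp [Tc, K2, ht, hz₁, hk0]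
  obtain ⟨u, hu1, hu2, hu3⟩ := exists_poly (isOpen_Tc2 k') (convex_Tc (convex_K2 k')) hWc hWk
  set W' : Set (ℂ × ℂ) := convexHull ℝ (insert z₁ u) with hW'
  have c1 : IsCompact W' := (hu1.insert z₁).isCompact_convexHull ℝ
  have c2 : Convex ℝ W' := convex_convexHull ℝ _
  have c3 : W' ⊆ Tc (K2 k') :=
    convexHull_min (insert_subset hz2 hu3) (convex_Tc (convex_K2 k'))
  have c4 : z₁ ∈ W' := subset_convexHull ℝ _ (mem_insert _ _)
  have c5 : W ⊆ W' := hu2.trans (convexHull_mono (subset_insert _ _))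
  filter_upwards [hG L k' hk0 hkk] with e he heb hx
  obtain ⟨x, hx1, hx2, hx3⟩ := hx
  obtain ⟨r, N, B⟩ := he heb x hx1 hx2 hx3
  obtain ⟨φ, al₀, p₀, hφ, G, hne⟩ := gs_core L hk0 hkk heb hx1 hx2 hx3 B
  have hTU : Tc (K1 k') ⊆ Tc (K2 k') := by
    intro z hz
    have h1 : |(ht z).2| < k' * (ht z).1 := hz
    have h2 : 0 < (ht z).1 := by
      by_contra hn
      push Not at hn
      nlinarith [abs_nonneg (ht z).2]
    have h3 := abs_lt.mp h1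
    refine ⟨?_, ?_⟩
    · nlinarith
    · nlinarith
  have hS : DifferentiableOn ℂ (fun z => Complex.sin (al₀ z - F x)) (Tc (K2 k')) :=
    (G.dal.sub_const _).csin
  obtain ⟨s₀, hs₀, hfr⟩ := Vale.Agent.P097.H91.Tlem_poly hk0 hk1 hS hne
    (bd_sin hk0 (G.dal.mono hTU) hne) c1 c3
  obtain ⟨x', hx', hs'⟩ := hfr (s₀ / 2) ⟨by positivity, by linarith⟩
  have hs0 : 0 < s₀ / 2 := by positivity
  have hev := wnd0 L hk0 hkk heb hx1 hx3 G c1 c2 c3 ⟨z₁, c4, hz1⟩ hs0 hs'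
  refine ⟨s₀ / 2, hs0, ?_⟩
  have hr : Tendsto (fun n => r (φ n)) atTop (𝓝[>] 0) :=
    tendsto_nhdsWithin_iff.2 ⟨G.rt, Eventually.of_forall G.r0⟩
  refine hr.frequently (hev.frequently.mono fun n hn => ⟨e + r (φ n) • x', ?_, hn.mono c5⟩)
  have hrn : 0 < r (φ n) := G.r0 n
  rw [mem_closedBall, dist_eq_norm, add_sub_cancel_left, norm_smul, Real.norm_of_nonneg hrn.le]
  have := mem_closedBall_zero_iff.1 hx'
  nlinarith

end Vale.Agent.P097.H264
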