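import Vale.Agent.P097.H264.A4
import Vale.Agent.P097.H226.GDefs

/-!
(A4) from the row GK of `H226/GDefs`.
-/

open Complex Metric Filter Topology Set MeasureTheory

namespace Vale.Agent.P097.H264

open Vale.Agent.P097.TC

/-- the non-tangential limit is uniform on compacts -/
theorem nt_unif {f : ℂ × ℂ → ℂ} {k : ℝ} {e : ℝ × ℝ} {x : ℂ} (h : NT f k e x) {K : Set (ℂ × ℂ)}
    (hK : IsCompact K) (hKs : K ⊆ Tc (K1 k)) {V : Set ℂ} (hV : V ∈ 𝓝 x) :
    ∀ᶠ r in 𝓝[>] (0 : ℝ), ∀ z ∈ K, f (bl e r z) ∈ V := by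
  have h1 : {a : ℝ × (ℂ × ℂ) | f (bl e a.1 a.2) ∈ V} ∈ (𝓝[>] (0 : ℝ)) ×ˢ 𝓝ˢ K :=
    hK.mem_prod_nhdsSet_of_forall (fun z hz => (h z (hKs hz)).eventually hV)
  have h2 : ∀ᶠ a : ℝ × (ℂ × ℂ) in (𝓝[>] (0 : ℝ)) ×ˢ 𝓝ˢ K, f (bl e a.1 a.2) ∈ V := h1
  exact h2.curry.mono fun r hr z hz => hr.self_of_nhdsSet z hz

theorem norm_cos_im (δ : ℂ) : ‖Complex.cos δ‖ ≤ Real.exp |δ.im| := by
  rw [Complex.cos, norm_div]
  have h1 : ‖Complex.exp (δ * I)‖ ≤ Real.exp |δ.im| := by
    rw [Complex.norm_exp]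
    apply Real.exp_le_exp.mpr
    simp only [mul_re, I_re, mul_zero, I_im, mul_one, zero_sub]
    exact neg_le_abs _
  have h2 : ‖Complex.exp (-δ * I)‖ ≤ Real.exp |δ.im| := by
    rw [Complex.norm_exp]
    apply Real.exp_le_exp.mpr
    simp only [mul_re, I_re, mul_zero, I_im, mul_one, zero_sub, neg_im, neg_neg]
    exact le_abs_self _
  have h3 := norm_add_le (Complex.exp (δ * I)) (Complex.exp (-δ * I))
  have h4 : ‖(2 : ℂ)‖ = 2 := by simp
  rw [h4]
  linarith

theorem norm_sin_im (δ : ℂ) : ‖Complex.sin δ‖ ≤ Real.exp |δ.im| := by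
  rw [← Complex.cos_sub_pi_div_two]
  refine (norm_cos_im _).trans (Real.exp_le_exp.mpr ?_)
  simp

theorem sin_exp {δ : ℂ} (h : Complex.sin δ ≠ 0) : Complex.exp (2 * I * δ) ≠ 1 := by
  intro h1
  apply h
  rw [Complex.exp_eq_one_iff] at h1
  obtain ⟨n, hn⟩ := h1
  have : δ = n * Real.pi := by
    have h2 : (2 * I : ℂ) ≠ 0 := by simp
    apply mul_left_cancel₀ h2
    rw [hn]; ring
  rw [this, Complex.sin_int_mul_pi]

theorem re_two_I (δ : ℂ) : |(2 * I * δ).re| = 2 * |δ.im| := by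
  have : (2 * I * δ).re = -(2 * δ.im) := by simp
  rw [this, abs_neg, abs_mul, abs_of_pos (by norm_num : (0 : ℝ) < 2)]

/-- **transfer of the non degeneracy** between points of a convex set -/
theorem nd_transfer {E : Type*} [NormedAddCommGroup E] [NormedSpace ℂ E] {U : Set E}
    (hU : IsOpen U) (hc : Convex ℝ U) {a : ℝ} {z w : E} (h : J U a z w) (hz : z ∈ U) (hw : w ∈ U)
    {δ : E → ℂ} (hd : DifferentiableOn ℂ δ U) (hne : ∀ y ∈ U, Complex.sin (δ y) ≠ 0)
    {A c : ℝ} (hA : |(δ z).im| ≤ A) (hA' : |(δ w).im| ≤ A) (hc0 : 0 < c)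
    (hcz : c ≤ ‖Complex.sin (δ z)‖) (ha : 0 ≤ a) :
    Real.exp (-(A + a * (|Real.log c| + 2 * A + 2) + 1)) ≤ ‖Complex.sin (δ w)‖ := by
  have hg : LogOm U (fun y => 2 * I * δ y) := ⟨hd.const_mul _, fun y hy => sin_exp (hne y hy)⟩
  have h1 := h.om hU hc hz hw (f := fun y => 1 - Complex.exp (2 * I * δ y))
    (hg.hol.cexp.const_sub 1) (fun y hy => by
      refine ⟨fun h0 => hg.ne y hy (sub_eq_zero.mp h0).symm, fun h0 => ?_⟩
      have : Complex.exp (2 * I * δ y) = 0 := by linear_combination -h0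
      exact Complex.exp_ne_zero _ this)
  have hl2 : 0 ≤ Real.log 2 := Real.log_nonneg (by norm_num)
  have hl2' : Real.log 2 ≤ 1 := by
    have := Real.log_le_sub_one_of_pos (by norm_num : (0 : ℝ) < 2)
    linarith
  have hsz : 0 < ‖Complex.sin (δ z)‖ := hc0.trans_le hcz
  have hsw : 0 < ‖Complex.sin (δ w)‖ := norm_pos_iff.mpr (hne w hw)
  have e1 := log_norm_sin (hg.ne z hz)
  have e2 := log_norm_sin (hg.ne w hw)
  have hA0 : 0 ≤ A := (abs_nonneg _).trans hA
  have h2 : |Real.log ‖Complex.sin (δ z)‖| ≤ |Real.log c| + A := by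
    rw [abs_le]
    have h3 : Real.log c ≤ Real.log ‖Complex.sin (δ z)‖ := Real.log_le_log hc0 hcz
    have h4 : Real.log ‖Complex.sin (δ z)‖ ≤ A := by
      rw [Real.log_le_iff_le_exp hsz]
      exact (norm_sin_im _).trans (Real.exp_le_exp.mpr hA)
    have h5 := neg_abs_le (Real.log c)
    have h6 := abs_nonneg (Real.log c)
    constructor <;> linarith
  have h3 : |Real.log ‖1 - Complex.exp (2 * I * δ z)‖| ≤ |Real.log c| + 2 * A + 1 := by
    have e3 : Real.log ‖1 - Complex.exp (2 * I * δ z)‖ =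
        Real.log ‖Complex.sin (δ z)‖ - (δ z).im + Real.log 2 := by linarith
    rw [abs_le] at h2 hA ⊢
    rw [e3]
    constructor <;> linarith [h2.1, h2.2, hA.1, hA.2]
  have h4 : |Real.log ‖1 - Complex.exp (2 * I * δ w)‖| ≤ a * (|Real.log c| + 2 * A + 2) := by
    have : a * (1 + |Real.log ‖1 - Complex.exp (2 * I * δ z)‖|) ≤
        a * (|Real.log c| + 2 * A + 2) := mul_le_mul_of_nonneg_left (by linarith) ha
    have h5 : |Real.log ‖1 - Complex.exp (2 * I * δ w)‖| ≤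
        a * (1 + |Real.log ‖1 - Complex.exp (2 * I * δ z)‖|) := by linarith
    linarith
  rw [← Real.le_log_iff_exp_le hsw, e2]
  rw [abs_le] at h4 hA'
  linarith [h4.1, hA'.1]

/-- **from the rows of `H226.GDefs` to `GB`** -/
theorem gb_of_bdd {Λ b : ℝ} {F q : ℂ → ℂ} {e₀ : ℝ × ℝ} {ρ k : ℝ} {al p th : ℂ × ℂ → ℂ}
    (L : LW Λ b F q e₀ ρ k al p th) {k' : ℝ} (hk0 : 0 < k') (hkk : k' < k) {e : ℝ × ℝ} {x : ℂ}
    (heb : e ∈ ball e₀ ρ) (hx : x ∈ Sb b) (hF : deriv F x ≠ 0) (hNT : NT th k e x) {r : ℕ → ℝ}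
    {N : ℕ → ℤ} (B : H226.Bdd F (K2 k') k al p e x r N) : GB F q k' al p th e x r N := by
  have C := L.cv
  have hk1 := L.k1
  have hΛ : (Λ : ℂ) ≠ 0 := by exact_mod_cast C.Λ0.ne'
  refine ⟨B.r0, B.rt, ?_, ?_⟩
  · intro W hWc hWs
    obtain ⟨M₁, hM₁⟩ := B.bal W hWc hWs
    obtain ⟨M₂, hM₂⟩ := B.bp W hWc hWs
    refine ⟨max M₁ (‖deriv F x‖ * (‖q x‖ * Real.exp (M₁ + ‖F x‖) + M₂) +
      ‖deriv q x‖ * Real.exp (M₁ + ‖F x‖ + 2)), ?_⟩
    filter_upwards [hM₁, hM₂] with n h1 h2 z hz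
    refine ⟨(h1 z hz).trans (le_max_left _ _), le_trans ?_ (le_max_right _ _)⟩
    rw [← Mi_per _ _ _ (N n)]
    set a := al (bl e (r n) z) - 2 * Real.pi * N n with ha
    have h0 : ‖a - F x‖ ≤ M₁ + ‖F x‖ := (norm_sub_le _ _).trans (by linarith [h1 z hz])
    have h3 : ‖Complex.cos (a - F x)‖ ≤ Real.exp (M₁ + ‖F x‖) :=
      (norm_cos_le _).trans (Real.exp_le_exp.mpr h0)
    have h4 : ‖Complex.sin (a - F x)‖ ≤ Real.exp (M₁ + ‖F x‖ + 2) :=
      (norm_sin_le _).trans (Real.exp_le_exp.mpr (by linarith))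
    have h5 := h2 z hz
    unfold Mi
    calc ‖deriv F x * (q x * Complex.cos (a - F x) - p (bl e (r n) z)) +
          deriv q x * Complex.sin (a - F x)‖
        ≤ ‖deriv F x‖ * (‖q x‖ * ‖Complex.cos (a - F x)‖ + ‖p (bl e (r n) z)‖) +
          ‖deriv q x‖ * ‖Complex.sin (a - F x)‖ := by
          refine (norm_add_le _ _).trans ?_
          rw [norm_mul, norm_mul]
          gcongr
          refine (norm_sub_le _ _).trans ?_
          rw [norm_mul]
      _ ≤ _ := by gcongr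
  -- the non degeneracy
  obtain ⟨W, hWc, hWs, c, hc0, hc⟩ := B.nd
  choose zs hzsW hzs using hc
  set z₁ : ℂ × ℂ := (I, 0) with hz₁
  have hz1' : z₁ ∈ Tc (K1 k') := by simp [Tc, K1, ht, hz₁, hk0]
  have hz1 : z₁ ∈ Tc (K1 k) := by simp [Tc, K1, ht, hz₁, L.k0]
  have hz2 : z₁ ∈ Tc (K2 k') := by simp [Tc, K2, ht, hz₁, hk0]
  have hTo : IsOpen (Tc (K1 k)) := (isOpen_K1 k).preimage continuous_ht
  have hTc : Convex ℝ (Tc (K1 k)) := convex_Tc (convex_K1 k)
  have hTU : Tc (K1 k) ⊆ Tc (K2 k) := by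
    intro z hz
    have h1 : |(ht z).2| < k * (ht z).1 := hz
    have hk := L.k0
    have h2 : 0 < (ht z).1 := by
      by_contra hn
      push Not at hn
      nlinarith [abs_nonneg (ht z).2]
    have h3 := abs_lt.mp h1
    refine ⟨?_, ?_⟩
    · nlinarith
    · nlinarith
  obtain ⟨u, hu1, hu2, hu3⟩ := exists_poly hTo hTc hWc hWs
  set W' : Set (ℂ × ℂ) := convexHull ℝ (insert z₁ u) with hW'
  have c1 : IsCompact W' := (hu1.insert z₁).isCompact_convexHull ℝ
  have c2 : Convex ℝ W' := convex_convexHull ℝ _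
  have c3 : W' ⊆ Tc (K1 k) := convexHull_min (insert_subset hz1 hu3) hTc
  have c4 : z₁ ∈ W' := subset_convexHull ℝ _ (mem_insert _ _)
  have c5 : W ⊆ W' := hu2.trans (convexHull_mono (subset_insert _ _))
  obtain ⟨R, hR, hRT⟩ := c1.exists_cthickening_subset_open hTo c3
  set K := cthickening R W' with hKd
  have hKc : IsCompact K := c1.cthickening
  set U := thickening R W' with hUd
  have hUo : IsOpen U := isOpen_thickening
  have hUc : Convex ℝ U := c2.thickening R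
  have hUK : U ⊆ K := thickening_subset_cthickening _ _
  have hWU : W' ⊆ U := self_subset_thickening hR W'
  obtain ⟨D, hD0, hD⟩ := (c1.image (f := fun w => w - z₁) (by fun_prop)).isBounded.exists_pos_norm_le
  have hD' : ∀ w ∈ W', ‖w - z₁‖ ≤ D := fun w hw => hD _ ⟨w, hw, rfl⟩
  set a := KS ^ (8 * D / R + 1) with had
  have ha0 : 0 ≤ a := by
    have := KS_one
    rw [had]
    positivity
  have hJ : ∀ v ∈ W', ∀ w ∈ W', ‖w - v‖ ≤ D → J U a v w := by
    intro v hv w hw hvw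
    refine (path_seg hR (fun t ht' => ?_)).mono ?_
    · have h1 : v + (t : ℂ) • (w - v) ∈ W' := by
        have h2 := c2.add_smul_sub_mem hv hw ht'
        have e1 : v + (t : ℂ) • (w - v) = v + t • (w - v) := by
          rw [Complex.coe_smul]
        rw [e1]
        exact h2
      exact ball_subset_thickening h1 R
    · rw [had]
      exact Real.rpow_le_rpow_of_exponent_le KS_one (by gcongr)
  have hrt : Tendsto r atTop (𝓝[>] 0) :=
    tendsto_nhdsWithin_iff.2 ⟨B.rt, Eventually.of_forall B.r0⟩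
  obtain ⟨M₀, hM₀⟩ := B.bal {z₁} isCompact_singleton (by simpa using hz2)
  set A := a * (1 + 2 * (M₀ + ‖F x‖ + 1)) with hAd
  -- neighbourhood of x
  have hFc : ContinuousAt F x := (C.dF.differentiableAt ((isOpen_Sb b).mem_nhds hx)).continuousAt
  have hdF : DifferentiableOn ℂ (deriv F) (Sb b) := C.dF.deriv (isOpen_Sb b)
  have hF'c : ContinuousAt (deriv F) x :=
    (hdF.differentiableAt ((isOpen_Sb b).mem_nhds hx)).continuousAt
  have hFne : ∀ᶠ y in 𝓝 x, deriv F y ≠ 0 := hF'c.eventually_ne hF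
  have hFsub : Tendsto (fun y => F y - F x) (𝓝 x) (𝓝 0) := by
    have := hFc.tendsto.sub_const (F x)
    rwa [sub_self] at this
  have hF1 : ∀ᶠ y in 𝓝 x, ‖F y - F x‖ < 1 := by
    have := hFsub.norm
    rw [norm_zero] at this
    exact this.eventually_lt_const one_pos
  have hF2 : ∀ᶠ y in 𝓝 x, ‖Complex.cos (F y - F x)‖ < 2 := by
    have h1 : Tendsto (fun y => ‖Complex.cos (F y - F x)‖) (𝓝 x) (𝓝 1) := by
      have := ((Complex.continuous_cos.tendsto 0).comp hFsub).norm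
      simpa using this
    exact h1.eventually_lt_const (by norm_num)
  have hF3 : ∀ᶠ y in 𝓝 x, ‖Complex.sin (F y - F x)‖ < c / (2 * Real.exp A) := by
    have h1 : Tendsto (fun y => ‖Complex.sin (F y - F x)‖) (𝓝 x) (𝓝 0) := by
      have := ((Complex.continuous_sin.tendsto 0).comp hFsub).norm
      simpa using this
    exact h1.eventually_lt_const (by positivity)
  have hnt := hrt.eventually (nt_unif hNT hKc hRT (hFne.and (hF1.and (hF2.and hF3))))
  have hdom1 := hrt.eventually (bl_TB heb (K := K1 k) (fun _ hr _ hy => K1_smul hr hy)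
    hKc.isBounded hRT)
  have hdom2 := hrt.eventually (bl_TB heb (K := K2 k) (fun _ hr _ hy => K2_smul hr hy)
    hKc.isBounded (hRT.trans hTU))
  have hbld : ∀ n, Differentiable ℂ (bl e (r n)) := by
    intro n
    unfold bl
    fun_prop
  refine ⟨z₁, hz1', Real.exp (-(A + a * (|Real.log (c / 4)| + 2 * A + 2) + 1)), Real.exp_pos _, ?_⟩
  filter_upwards [hnt, hdom1, hdom2, hM₀] with n h1 h2 h3 h4
  set δ : ℂ × ℂ → ℂ := fun z => al (bl e (r n) z) - F (th (bl e (r n) z)) with hδ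
  have hδd : DifferentiableOn ℂ δ U := by
    intro z hz
    have hzK := hUK hz
    have hz1 := h2 z hzK
    have hz2 := h3 z hzK
    have hn1 := (isOpen_TB e₀ ρ (isOpen_K1 k)).mem_nhds hz1
    have hn2 := (isOpen_TB e₀ ρ (isOpen_K2 k)).mem_nhds hz2
    have d1 : DifferentiableAt ℂ (fun z => al (bl e (r n) z)) z :=
      DifferentiableAt.comp z (g := al) (f := bl e (r n)) (L.dal.differentiableAt hn2) (hbld n z)
    have d2 : DifferentiableAt ℂ (fun z => th (bl e (r n) z)) z :=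
      DifferentiableAt.comp z (g := th) (f := bl e (r n)) (L.dth.differentiableAt hn1) (hbld n z)
    have d3 : DifferentiableAt ℂ F (th (bl e (r n) z)) :=
      C.dF.differentiableAt ((isOpen_Sb b).mem_nhds (L.mem _ hz1))
    have d4 : DifferentiableAt ℂ (fun z => F (th (bl e (r n) z))) z :=
      DifferentiableAt.comp z (g := F) (f := fun z => th (bl e (r n) z)) d3 d2
    exact (d1.sub d4).differentiableWithinAt
  have hδne : ∀ z ∈ U, Complex.sin (δ z) ≠ 0 := by
    intro z hz h0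
    have hzK := hUK hz
    have hz1 := h2 z hzK
    have h5 := Mi_deriv C (L.mem _ hz1) (L.inc _ hz1)
    have h0' : Complex.sin (al (bl e (r n) z) - F (th (bl e (r n) z))) = 0 := h0
    rw [h0', mul_zero] at h5
    rcases mul_eq_zero.mp h5 with h6 | h6
    · exact (h1 z hzK).1 h6
    · exact L.smp _ hz1 h6
  have hLog : LogOm U (fun y => 2 * I * δ y) :=
    ⟨hδd.const_mul _, fun y hy => sin_exp (hδne y hy)⟩
  have hz1U : z₁ ∈ U := hWU c4
  have hzsW' : zs n ∈ W' := c5 (hzsW n)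
  -- the imaginary part at z₁
  have him1 : |(δ z₁).im| ≤ M₀ + ‖F x‖ + 1 := by
    have h5 := h4 z₁ rfl
    have h6 := (h1 z₁ (hUK hz1U)).2.1
    have e1 : (δ z₁).im = ((al (bl e (r n) z₁) - 2 * Real.pi * N n) - F x -
        (F (th (bl e (r n) z₁)) - F x)).im := by
      have e2 : (al (bl e (r n) z₁) - 2 * Real.pi * N n) - F x -
        (F (th (bl e (r n) z₁)) - F x) = δ z₁ - ((2 * Real.pi * N n : ℝ) : ℂ) := by
        simp only [hδ]
        push_cast
        ring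
      rw [e2, Complex.sub_im (δ z₁), Complex.ofReal_im, sub_zero]
    rw [e1]
    refine (Complex.abs_im_le_norm _).trans ?_
    refine (norm_sub_le _ _).trans ?_
    have := norm_sub_le (al (bl e (r n) z₁) - 2 * Real.pi * N n) (F x)
    linarith
  have hM0' : 0 ≤ M₀ + ‖F x‖ + 1 := (abs_nonneg _).trans him1
  have ha1 : 1 ≤ a := by
    rw [had]
    exact Real.one_le_rpow KS_one (by positivity)
  have hA1 : |(δ z₁).im| ≤ A := by
    rw [hAd]
    nlinarith
  -- the imaginary part at zs n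
  have hAs : |(δ (zs n)).im| ≤ A := by
    have h5 := (hJ z₁ c4 (zs n) hzsW' (hD' _ hzsW') _ hLog).1
    rw [re_two_I, re_two_I] at h5
    have h6 : a * (1 + 2 * |(δ z₁).im|) ≤ A := by
      rw [hAd]
      gcongr
    have := abs_nonneg (δ (zs n)).im
    linarith
  -- lower bound at zs n
  have hlow : c / 4 ≤ ‖Complex.sin (δ (zs n))‖ := by
    obtain ⟨-, -, h7, h8⟩ := h1 (zs n) (hUK (hWU hzsW'))
    have e1 : al (bl e (r n) (zs n)) - F x = δ (zs n) + (F (th (bl e (r n) (zs n))) - F x) := by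
      simp only [hδ]
      ring
    have h9 := hzs n
    rw [e1, Complex.sin_add] at h9
    have h10 := norm_add_le (Complex.sin (δ (zs n)) * Complex.cos (F (th (bl e (r n) (zs n))) - F x))
      (Complex.cos (δ (zs n)) * Complex.sin (F (th (bl e (r n) (zs n))) - F x))
    rw [norm_mul, norm_mul] at h10
    have h11 : ‖Complex.cos (δ (zs n))‖ ≤ Real.exp A :=
      (norm_cos_im _).trans (Real.exp_le_exp.mpr hAs)
    have h12 : ‖Complex.sin (δ (zs n))‖ * ‖Complex.cos (F (th (bl e (r n) (zs n))) - F x)‖ ≤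
        ‖Complex.sin (δ (zs n))‖ * 2 := by gcongr
    have h13 : ‖Complex.cos (δ (zs n))‖ * ‖Complex.sin (F (th (bl e (r n) (zs n))) - F x)‖ ≤
        Real.exp A * (c / (2 * Real.exp A)) := by gcongr
    have h14 : Real.exp A * (c / (2 * Real.exp A)) = c / 2 := by
      have := (Real.exp_pos A).ne'
      field_simp
    linarith
  have hJ' : J U a (zs n) z₁ := hJ (zs n) hzsW' z₁ c4 (by
    rw [norm_sub_rev]
    exact hD' _ hzsW')
  exact nd_transfer hUo hUc hJ' (hWU hzsW') hz1U hδd hδne hAs hA1 (by positivity) hlow ha0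

/-- **(A4) from the row GK** -/
theorem a4_of_gk (h : H226.GK) : A4 := by
  refine a4_of_gb ?_
  intro Λ b F q e₀ ρ k al p th L k₁ hk0 hkk
  filter_upwards [h L k₁ hk0 hkk] with e he heb x hx hF hNT
  obtain ⟨r, N, B⟩ := he heb x hx hF hNT
  exact ⟨r, N, gb_of_bdd L hk0 hkk heb hx hF hNT B⟩

end Vale.Agent.P097.H264
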