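import Vale.Agent.P097.H264.Core4
import Vale.Agent.P097.H264.A4K
import Vale.Agent.P097.H593.GQ
import Vale.Agent.P097.H91.Lin

/-!
(A4) is a theorem.
-/

namespace Vale.Agent.P097.H264

/-- **(A4)** -/
theorem a4 : TC.A4 := a4_of_gk (Vale.Agent.P097.H91.Lin.lin (Vale.Agent.P097.H593.GQ.gq_of core))

end Vale.Agent.P097.H264
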