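import Vale.Agent.P097.H699.Normal

/-!
The Schottky chain: growth of `g` where `exp g` omits `1`, along chains of balls and along paths
with a twisted cone neighbourhood.
-/

open Complex Metric Filter Topology Set

namespace Vale.Agent.P097.H264

open Vale.Agent.P097.H699

/-- the Schottky constant -/
noncomputable def LS : ℝ := 1 + Real.log (SB 1 (1 / 2))

theorem LS_one : 1 ≤ LS := by
  unfold LS
  linarith [Real.log_nonneg (one_le_SB 1 (1 / 2))]

theorem log_step_aux {g : ℂ → ℂ} {c : ℂ} {R : ℝ} (hR : 0 < R) (hg : DifferentiableOn ℂ g (ball c R))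
    (h1 : ∀ z ∈ ball c R, Complex.exp (g z) ≠ 1) (hc : (g c).re ≤ 0)
    {z : ℂ} (hz : ‖z - c‖ ≤ R / 8) : ‖g z - g c‖ ≤ LS * (1 + |(g c).re|) := by
  have hR2 : R / 2 < R := by linarith
  have hsub : ball c (R / 2) ⊆ ball c R := ball_subset_ball hR2.le
  have hcn : ‖Complex.exp (g c)‖ ≤ 1 := by
    rw [Complex.norm_exp]; exact Real.exp_le_one_iff.mpr hc
  set M := SB 1 (1 / 2) with hM
  have hM1 : 1 ≤ M := one_le_SB _ _
  have hlog : 0 ≤ Real.log M := Real.log_nonneg hM1
  have hre : ∀ y ∈ ball c (R / 2), (g y).re ≤ Real.log M := by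
    intro y hy
    have h2 := schottky (f := fun w => Complex.exp (g w)) hg.cexp (fun w _ => Complex.exp_ne_zero _)
      h1 hR2 hcn (ball_subset_closedBall hy)
    rw [show R / 2 / R = 1 / 2 by field_simp, Complex.norm_exp] at h2
    rw [Real.le_log_iff_exp_le (by linarith)]
    exact h2
  have habs : |(g c).re| = -(g c).re := abs_of_nonpos hc
  have hL : LS = 1 + Real.log M := rfl
  have hpos : 0 < LS * (1 + |(g c).re|) := by
    have := abs_nonneg (g c).re
    have := LS_one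
    positivity
  have hb := borel (M := LS * (1 + |(g c).re|)) hpos (hg.mono hsub) (fun y hy => by
    rw [Complex.sub_re]
    have := hre y hy
    rw [habs, hL]
    nlinarith [abs_nonneg (g c).re]) (z := z) (by rw [mem_ball, dist_eq_norm]; linarith)
  refine hb.trans ?_
  rw [div_le_iff₀ (by linarith)]
  nlinarith [norm_nonneg (z - c)]

/-- one step, one variable -/
theorem log_step {g : ℂ → ℂ} {c : ℂ} {R : ℝ} (hR : 0 < R) (hg : DifferentiableOn ℂ g (ball c R))
    (h1 : ∀ z ∈ ball c R, Complex.exp (g z) ≠ 1)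
    {z : ℂ} (hz : ‖z - c‖ ≤ R / 8) : ‖g z - g c‖ ≤ LS * (1 + |(g c).re|) := by
  rcases le_total (g c).re 0 with hc | hc
  · exact log_step_aux hR hg h1 hc hz
  · have := log_step_aux (g := fun w => -g w) hR hg.neg (fun w hw h => h1 w hw (by
      rw [Complex.exp_neg, inv_eq_one] at h
      exact h)) (by simpa using hc) hz
    rw [Complex.neg_re, abs_neg] at this
    rwa [neg_sub_neg, norm_sub_rev] at this

variable {E : Type*} [NormedAddCommGroup E] [NormedSpace ℂ E]

/-- `g` is holomorphic on `U` and never a multiple of `2 pi i` -/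
structure LogOm (U : Set E) (g : E → ℂ) : Prop where
  hol : DifferentiableOn ℂ g U
  ne : ∀ z ∈ U, Complex.exp (g z) ≠ 1

theorem LogOm.mono {U V : Set E} {g : E → ℂ} (h : LogOm U g) (hV : V ⊆ U) : LogOm V g :=
  ⟨h.hol.mono hV, fun z hz => h.ne z (hV hz)⟩

/-- one step in several variables -/
theorem LogOm.step {g : E → ℂ} {c z : E} {R : ℝ} (hR : 0 < R) (hg : LogOm (ball c R) g)
    (hz : ‖z - c‖ ≤ R / 8) : ‖g z - g c‖ ≤ LS * (1 + |(g c).re|) := by
  have hmap : MapsTo (fun t : ℂ => c + t • (z - c)) (ball 0 8) (ball c R) := by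
    intro t ht
    rw [mem_ball_zero_iff] at ht
    rw [mem_ball, dist_eq_norm, add_sub_cancel_left, norm_smul]
    rcases eq_or_lt_of_le (norm_nonneg (z - c)) with h0 | h0
    · rw [← h0, mul_zero]; exact hR
    · calc ‖t‖ * ‖z - c‖ < 8 * ‖z - c‖ := by gcongr
        _ ≤ R := by linarith
  have h1 := log_step (g := fun t : ℂ => g (c + t • (z - c))) (c := 0) (R := 8) (by norm_num)
    (hg.hol.comp (by fun_prop) hmap) (fun t ht => hg.ne _ (hmap ht)) (z := 1) (by norm_num)
  simpa using h1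

/-- growth constant of one step -/
noncomputable def KS : ℝ := 1 + LS

theorem KS_one : 1 ≤ KS := by unfold KS; linarith [LS_one]
theorem KS_two : 2 ≤ KS := by unfold KS; linarith [LS_one]

/-- **the chain** -/
theorem chain {U : Set E} {g : E → ℂ} (hg : LogOm U g) {z : ℕ → E} {R : ℕ → ℝ} {N : ℕ}
    (hR : ∀ i < N, 0 < R i) (hU : ∀ i < N, ball (z i) (R i) ⊆ U)
    (hz : ∀ i < N, ‖z (i + 1) - z i‖ ≤ R i / 8) :
    1 + |(g (z N)).re| ≤ KS ^ N * (1 + |(g (z 0)).re|) ∧
      ‖g (z N) - g (z 0)‖ ≤ (KS ^ N - 1) * (1 + |(g (z 0)).re|) := by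
  induction N with
  | zero => simp
  | succ n ih =>
    obtain ⟨h1, h2⟩ := ih (fun i hi => hR i (by omega)) (fun i hi => hU i (by omega))
      (fun i hi => hz i (by omega))
    have h3 := LogOm.step (hR n (by omega)) (hg.mono (hU n (by omega))) (hz n (by omega))
    have h4 : |(g (z (n + 1))).re| ≤ |(g (z n)).re| + ‖g (z (n + 1)) - g (z n)‖ := by
      have h5 := Complex.abs_re_le_norm (g (z (n + 1)) - g (z n))
      rw [Complex.sub_re] at h5
      have h6 := abs_sub_abs_le_abs_sub (g (z (n + 1))).re (g (z n)).re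
      linarith
    have h7 : ‖g (z (n + 1)) - g (z 0)‖ ≤ ‖g (z (n + 1)) - g (z n)‖ + ‖g (z n) - g (z 0)‖ :=
      norm_sub_le_norm_sub_add_norm_sub _ _ _
    have hLS := LS_one
    constructor
    · calc 1 + |(g (z (n + 1))).re| ≤ (1 + LS) * (1 + |(g (z n)).re|) := by linarith
        _ ≤ (1 + LS) * (KS ^ n * (1 + |(g (z 0)).re|)) := by gcongr
        _ = KS ^ (n + 1) * (1 + |(g (z 0)).re|) := by unfold KS; ring
    · have h8 : LS * (1 + |(g (z n)).re|) ≤ LS * (KS ^ n * (1 + |(g (z 0)).re|)) := by gcongr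
      calc ‖g (z (n + 1)) - g (z 0)‖
          ≤ LS * (KS ^ n * (1 + |(g (z 0)).re|)) + (KS ^ n - 1) * (1 + |(g (z 0)).re|) := by linarith
        _ = (KS ^ (n + 1) - 1) * (1 + |(g (z 0)).re|) := by
          rw [pow_succ]
          have : KS = 1 + LS := rfl
          rw [this]
          ring

/-- `z` and `w` are joined in `U` with growth `a` -/
def J (U : Set E) (a : ℝ) (z w : E) : Prop :=
  ∀ g : E → ℂ, LogOm U g → 1 + |(g w).re| ≤ a * (1 + |(g z).re|) ∧
    ‖g w - g z‖ ≤ (a - 1) * (1 + |(g z).re|)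

theorem J.refl (U : Set E) (z : E) : J U 1 z z := fun g _ => by simp

theorem J.mono {U : Set E} {a b : ℝ} {z w : E} (h : J U a z w) (hab : a ≤ b) : J U b z w := by
  intro g hg
  obtain ⟨h1, h2⟩ := h g hg
  have : 0 ≤ 1 + |(g z).re| := by positivity
  exact ⟨h1.trans (by gcongr), h2.trans (by gcongr)⟩

theorem J.mono_set {U V : Set E} {a : ℝ} {z w : E} (h : J U a z w) (hV : U ⊆ V) : J V a z w :=
  fun g hg => h g (hg.mono hV)

theorem J.trans {U : Set E} {a b : ℝ} {z w v : E} (h : J U a z w) (h' : J U b w v)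
    (hb : 1 ≤ b) : J U (a * b) z v := by
  intro g hg
  obtain ⟨h1, h2⟩ := h g hg
  obtain ⟨h3, h4⟩ := h' g hg
  have h0 : 0 ≤ 1 + |(g z).re| := by positivity
  constructor
  · calc 1 + |(g v).re| ≤ b * (1 + |(g w).re|) := h3
      _ ≤ b * (a * (1 + |(g z).re|)) := by gcongr
      _ = _ := by ring
  · have h5 : ‖g v - g z‖ ≤ ‖g v - g w‖ + ‖g w - g z‖ := norm_sub_le_norm_sub_add_norm_sub _ _ _
    have h6 : (b - 1) * (1 + |(g w).re|) ≤ (b - 1) * (a * (1 + |(g z).re|)) := by
      have : 0 ≤ b - 1 := by linarith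
      gcongr
    calc ‖g v - g z‖ ≤ (b - 1) * (a * (1 + |(g z).re|)) + (a - 1) * (1 + |(g z).re|) := by linarith
      _ = _ := by ring

theorem J.one_step {U : Set E} {z w : E} {R : ℝ} (hR : 0 < R) (hU : ball z R ⊆ U)
    (hw : ‖w - z‖ ≤ R / 8) : J U KS z w := by
  intro g hg
  have h3 := LogOm.step hR (hg.mono hU) hw
  have h4 : |(g w).re| ≤ |(g z).re| + ‖g w - g z‖ := by
    have h5 := Complex.abs_re_le_norm (g w - g z)
    rw [Complex.sub_re] at h5
    have h6 := abs_sub_abs_le_abs_sub (g w).re (g z).re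
    linarith
  have : KS = 1 + LS := rfl
  rw [this]
  constructor
  · linarith
  · linarith

/-- **paths in unit speed**: `T` units cost `KS ^ (T + 1)` -/
theorem path_unit {U : Set E} {γ : ℝ → E} {R : ℝ → ℝ} {T : ℝ} (hT : 0 ≤ T)
    (hR : ∀ s ∈ Icc 0 T, 0 < R s) (hU : ∀ s ∈ Icc 0 T, ball (γ s) (R s) ⊆ U)
    (hγ : ∀ s ∈ Icc 0 T, ∀ s' ∈ Icc s T, s' ≤ s + 1 → ‖γ s' - γ s‖ ≤ R s / 8) :
    J U (KS ^ (T + 1)) (γ 0) (γ T) := by
  have hKS := KS_one
  have key : ∀ n : ℕ, (n : ℝ) ≤ T → J U (KS ^ (n : ℝ)) (γ 0) (γ n) := by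
    intro n
    induction n with
    | zero => intro _; simpa using J.refl U (γ 0)
    | succ m ih =>
      intro hm
      push_cast at hm ⊢
      have hmT : (m : ℝ) ≤ T := by linarith
      have hmem : (m : ℝ) ∈ Icc 0 T := ⟨by positivity, hmT⟩
      have h1 := J.one_step (hR _ hmem) (hU _ hmem) (hγ m hmem (m + 1) ⟨by linarith, hm⟩ le_rfl)
      have h2 := (ih hmT).trans h1 hKS
      rwa [Real.rpow_add_one (by linarith)]
  have hn := Nat.floor_le hT
  have hmem : ((⌊T⌋₊ : ℕ) : ℝ) ∈ Icc 0 T := ⟨by positivity, hn⟩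
  have h1 := J.one_step (hR _ hmem) (hU _ hmem)
    (hγ _ hmem T ⟨hn, le_rfl⟩ (Nat.lt_floor_add_one T).le)
  have h2 := (key _ hn).trans h1 hKS
  refine h2.mono ?_
  rw [← Real.rpow_add_one (by linarith)]
  exact Real.rpow_le_rpow_of_exponent_le hKS (by linarith)

/-- the exponent of a twisted cone of opening `c` -/
noncomputable def pS (c : ℝ) : ℝ := Real.log KS / Real.log (1 + c / 8)

theorem pS_nonneg {c : ℝ} (hc : 0 < c) : 0 ≤ pS c := by
  unfold pS
  have := Real.log_nonneg KS_one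
  have : 0 < Real.log (1 + c / 8) := Real.log_pos (by linarith)
  positivity

theorem KS_pow_log {c x : ℝ} (hx : 0 < x) :
    KS ^ (Real.log x / Real.log (1 + c / 8) + 1) = KS * x ^ pS c := by
  have hK : 0 < KS := by linarith [KS_one]
  rw [Real.rpow_add_one hK.ne', mul_comm]
  congr 1
  rw [Real.rpow_def_of_pos hK, Real.rpow_def_of_pos hx]
  unfold pS
  congr 1
  ring

/-- going up -/
theorem path_up {U : Set E} {γ : ℝ → E} {a b c : ℝ} (ha : 0 < a) (hab : a ≤ b) (hc : 0 < c)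
    (hγ : ∀ s ∈ Icc a b, ∀ t ∈ Icc a b, ‖γ t - γ s‖ ≤ |t - s|)
    (hU : ∀ t ∈ Icc a b, ball (γ t) (c * t) ⊆ U) : J U (KS * (b / a) ^ pS c) (γ a) (γ b) := by
  have hq : 1 < 1 + c / 8 := by linarith
  have hlq : 0 < Real.log (1 + c / 8) := Real.log_pos hq
  have hba : 1 ≤ b / a := by rw [le_div_iff₀ ha]; linarith
  set T := Real.log (b / a) / Real.log (1 + c / 8) with hT
  have hT0 : 0 ≤ T := by
    have := Real.log_nonneg hba
    positivity
  have hqT : (1 + c / 8) ^ T = b / a := by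
    rw [Real.rpow_def_of_pos (by linarith), hT, mul_div_cancel₀ _ hlq.ne', Real.exp_log (by positivity)]
  have hmem : ∀ s ∈ Icc 0 T, a * (1 + c / 8) ^ s ∈ Icc a b := by
    intro s hs
    constructor
    · have := Real.one_le_rpow hq.le hs.1
      nlinarith
    · have h1 : (1 + c / 8) ^ s ≤ b / a := by
        rw [← hqT]; exact Real.rpow_le_rpow_of_exponent_le hq.le hs.2
      rw [le_div_iff₀ ha] at h1
      linarith
  have h := path_unit (U := U) (γ := fun s => γ (a * (1 + c / 8) ^ s))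
    (R := fun s => c * (a * (1 + c / 8) ^ s)) hT0 (fun s _ => by positivity)
    (fun s hs => hU _ (hmem s hs)) ?_
  · simp only [Real.rpow_zero, mul_one, hqT] at h
    rw [mul_div_cancel₀ _ ha.ne', hT, KS_pow_log (by positivity)] at h
    exact h
  · intro s hs s' hs' hss
    have hs'' : s' ∈ Icc 0 T := ⟨hs.1.trans hs'.1, hs'.2⟩
    refine (hγ _ (hmem s hs) _ (hmem s' hs'')).trans ?_
    have h1 : (1 + c / 8) ^ s ≤ (1 + c / 8) ^ s' := Real.rpow_le_rpow_of_exponent_le hq.le hs'.1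
    have h2 : (1 + c / 8) ^ s' ≤ (1 + c / 8) ^ s * (1 + c / 8) := by
      rw [← Real.rpow_add_one (by linarith)]
      exact Real.rpow_le_rpow_of_exponent_le hq.le hss
    have h3 : 0 < (1 + c / 8) ^ s := by positivity
    rw [← mul_sub, abs_mul, abs_of_pos ha, abs_of_nonneg (by linarith)]
    calc a * ((1 + c / 8) ^ s' - (1 + c / 8) ^ s)
        ≤ a * ((1 + c / 8) ^ s * (1 + c / 8) - (1 + c / 8) ^ s) := by gcongr
      _ = c * (a * (1 + c / 8) ^ s) / 8 := by ring

/-- going down -/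
theorem path_down {U : Set E} {γ : ℝ → E} {a b c : ℝ} (ha : 0 < a) (hab : a ≤ b) (hc : 0 < c)
    (hγ : ∀ s ∈ Icc a b, ∀ t ∈ Icc a b, ‖γ t - γ s‖ ≤ |t - s|)
    (hU : ∀ t ∈ Icc a b, ball (γ t) (c * t) ⊆ U) : J U (KS * (b / a) ^ pS c) (γ b) (γ a) := by
  have hq : 1 < 1 + c / 8 := by linarith
  have hq0 : (0 : ℝ) < 1 + c / 8 := by linarith
  have hlq : 0 < Real.log (1 + c / 8) := Real.log_pos hq
  have hb : 0 < b := by linarith
  have hba : 1 ≤ b / a := by rw [le_div_iff₀ ha]; linarith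
  set T := Real.log (b / a) / Real.log (1 + c / 8) with hT
  have hT0 : 0 ≤ T := by
    have := Real.log_nonneg hba
    positivity
  have hqT : (1 + c / 8) ^ (-T) = a / b := by
    rw [Real.rpow_neg hq0.le, Real.rpow_def_of_pos hq0, hT, mul_div_cancel₀ _ hlq.ne',
      Real.exp_log (by positivity), inv_div]
  have hmem : ∀ s ∈ Icc 0 T, b * (1 + c / 8) ^ (-s) ∈ Icc a b := by
    intro s hs
    constructor
    · have h1 : a / b ≤ (1 + c / 8) ^ (-s) := by
        rw [← hqT]; exact Real.rpow_le_rpow_of_exponent_le hq.le (by linarith [hs.2])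
      rw [div_le_iff₀ hb] at h1
      linarith
    · have h1 : (1 + c / 8) ^ (-s) ≤ 1 :=
        Real.rpow_le_one_of_one_le_of_nonpos hq.le (by linarith [hs.1])
      nlinarith
  have h := path_unit (U := U) (γ := fun s => γ (b * (1 + c / 8) ^ (-s)))
    (R := fun s => c * (b * (1 + c / 8) ^ (-s))) hT0 (fun s _ => by positivity)
    (fun s hs => hU _ (hmem s hs)) ?_
  · simp only [neg_zero, Real.rpow_zero, mul_one, hqT] at h
    rw [mul_div_cancel₀ _ hb.ne', hT, KS_pow_log (by positivity)] at h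
    exact h
  · intro s hs s' hs' hss
    have hs'' : s' ∈ Icc 0 T := ⟨hs.1.trans hs'.1, hs'.2⟩
    refine (hγ _ (hmem s hs) _ (hmem s' hs'')).trans ?_
    have h1 : (1 + c / 8) ^ (-s') ≤ (1 + c / 8) ^ (-s) :=
      Real.rpow_le_rpow_of_exponent_le hq.le (by linarith [hs'.1])
    have h2 : (1 + c / 8) ^ (-s) ≤ (1 + c / 8) ^ (-s') * (1 + c / 8) := by
      rw [← Real.rpow_add_one hq0.ne']
      exact Real.rpow_le_rpow_of_exponent_le hq.le (by linarith)
    have h3 : 0 < (1 + c / 8) ^ (-s') := by positivity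
    rw [← mul_sub, abs_mul, abs_of_pos hb, abs_of_nonpos (by linarith), neg_sub]
    have h4 : (1 + c / 8) ^ (-s) - (1 + c / 8) ^ (-s') ≤ c / 8 * (1 + c / 8) ^ (-s) := by
      nlinarith
    calc b * ((1 + c / 8) ^ (-s) - (1 + c / 8) ^ (-s'))
        ≤ b * (c / 8 * (1 + c / 8) ^ (-s)) := by gcongr
      _ = c * (b * (1 + c / 8) ^ (-s)) / 8 := by ring

/-- straight segments with a tube of radius `R` -/
theorem path_seg {U : Set E} {z w : E} {R : ℝ} (hR : 0 < R)
    (hU : ∀ t ∈ Icc (0 : ℝ) 1, ball (z + (t : ℂ) • (w - z)) R ⊆ U) :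
    J U (KS ^ (8 * ‖w - z‖ / R + 1)) z w := by
  rcases eq_or_lt_of_le (norm_nonneg (w - z)) with h0 | h0
  · have hzw : w = z := by
      rw [← sub_eq_zero]; exact norm_eq_zero.mp h0.symm
    subst hzw
    refine (J.refl U w).mono ?_
    rw [← h0]
    simp [KS_one]
  set T := 8 * ‖w - z‖ / R with hT
  have hT0 : 0 < T := by positivity
  have h := path_unit (U := U) (γ := fun s : ℝ => z + ((s / T : ℝ) : ℂ) • (w - z))
    (R := fun _ => R) hT0.le (fun _ _ => hR)
    (fun s hs => hU _ ⟨by have := hs.1; positivity, by rw [div_le_one hT0]; exact hs.2⟩) ?_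
  · simpa [hT0.ne'] using h
  · intro s hs s' hs' hss
    have h1 : z + ((s' / T : ℝ) : ℂ) • (w - z) - (z + ((s / T : ℝ) : ℂ) • (w - z)) =
        (((s' - s) / T : ℝ) : ℂ) • (w - z) := by
      rw [add_sub_add_left_eq_sub, ← sub_smul]
      congr 1
      push_cast
      ring
    rw [h1, norm_smul, Complex.norm_real, Real.norm_eq_abs, abs_of_nonneg (by
      have := hs'.1
      have : 0 ≤ s' - s := by linarith
      positivity)]
    have h2 : (s' - s) / T ≤ 1 / T := by gcongr; linarith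
    calc (s' - s) / T * ‖w - z‖ ≤ 1 / T * ‖w - z‖ := by gcongr
      _ = R / 8 := by rw [hT]; field_simp

end Vale.Agent.P097.H264
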