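import Vale.Agent.P097.H226.Targ2

/-!
`disc_exists` of `H226/Targ2` with the aperture of the boundary independent of the size `R`.
-/

open Complex Metric Set Filter Topology
open Vale.Agent.P097.H699 Vale.Agent.P097.H264 Vale.Agent.P097.H226

namespace Vale.Agent.P097.H264

/-- **discs through all targets at all small scales** -/
theorem disc_exists' {A : Set (ℝ × ℝ)} {e : ℝ × ℝ} (he : e ∈ A) {k C q s : ℝ} (hk : 0 < k)
    (hk1 : k ≤ 1) (hC : 1 ≤ C) (hq : 0 < q) (hq1 : q ≤ 1) (hs0 : 0 ≤ s) (hs1 : s < 1)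
    {ε c p : ℝ} {H : ℂ → ℂ} (hε : 0 < ε) (hε1 : ε ≤ 1) (hεC : C5 C q * ε ≤ q / 4)
    (B : Bish A e ε c p H) :
    ∃ C1 C7 b1 : ℝ, 0 ≤ C1 ∧ 1 ≤ C7 ∧ 0 < b1 ∧ b1 ≤ 1 ∧ ∀ R : ℝ, 0 < R →
      ∃ ρ δ r0 : ℝ, 0 < ρ ∧ ρ ≤ R ∧ 0 < δ ∧ 0 < r0 ∧
      ∀ r : ℝ, 0 < r → r < r0 → ∀ t : ℂ × ℂ, ‖t.1‖ ≤ C → ‖t.2‖ ≤ C → q ≤ t.1.im → q ≤ t.2.im →
        ∃ μ : ℂ → ℂ, DiscT A e k R δ ρ C1 C7 b1 s r ((e.1 : ℂ) + r * t.1, (e.2 : ℂ) + r * t.2) μ := by
  have hC0 : 0 < C := by linarith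
  have hκ0 := kap_pos hs0 hs1
  have hκ1 := kap_le_one s
  refine ⟨1 / c + 4 * (C + 1) / q + 1 / kap s + 1, C + 4, q / (8 * C) * kap s, ?_, by linarith,
    by positivity, ?_, ?_⟩
  · have := B.c0
    positivity
  · have h8 : q / (8 * C) ≤ 1 / 8 := by
      rw [div_le_div_iff₀ (by positivity) (by norm_num)]
      nlinarith
    have : q / (8 * C) * kap s ≤ 1 / 8 * 1 := by gcongr
    linarith
  intro R hR
  -- continuity of H at 0
  have hcont : ∃ ρ₁ > 0, ∀ w : ℂ, ‖w‖ < ρ₁ → 0 ≤ w.im → ‖w‖ < 1 → ‖H w - H 0‖ ≤ R / 16 := by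
    have h0 : (0 : ℂ) ∈ closure (HD 1) := mem_closure_HD (by simp) (by simp)
    have h1 := B.dc.continuousOn 0 h0
    rw [Metric.continuousWithinAt_iff] at h1
    obtain ⟨ρ₁, hρ₁, h2⟩ := h1 (R / 16) (by positivity)
    refine ⟨ρ₁, hρ₁, ?_⟩
    intro w hw hwi hw1
    have h3 := h2 (mem_closure_HD hw1 hwi) (by rw [dist_zero_right]; exact hw)
    rw [dist_eq_norm] at h3
    exact h3.le
  obtain ⟨ρ₁, hρ₁, hH⟩ := hcont
  set ρ : ℝ := min (ρ₁ / 2) (min (R / 16) (1 / 2)) with hρ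
  have hρ0 : 0 < ρ := lt_min (by linarith) (lt_min (by linarith) (by norm_num))
  have hρ1 : ρ ≤ ρ₁ / 2 := min_le_left _ _
  have hρ2 : ρ ≤ R / 16 := (min_le_right _ _).trans (min_le_left _ _)
  have hρ3 : ρ ≤ 1 / 2 := (min_le_right _ _).trans (min_le_right _ _)
  set Cq : ℝ := k / (2 * ρ) with hCq
  have hCq0 : 0 < Cq := by positivity
  have hCqρ : Cq * ρ = k / 2 := by rw [hCq]; field_simp
  have ha0 : 0 < q / (8 * C) := by positivity
  have ha1 : q / (8 * C) ≤ 1 / 8 := by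
    rw [div_le_div_iff₀ (by positivity) (by norm_num)]
    nlinarith
  set r0 : ℝ := min (min (q / (4 * C ^ 2)) (q / (4 * Cq * C ^ 2)))
    (min (min (R / (16 * (C + 1))) (ρ / (2 * C))) ρ) with hr0
  have hr0p : 0 < r0 := by
    refine lt_min (lt_min ?_ ?_) (lt_min (lt_min ?_ ?_) hρ0) <;> positivity
  refine ⟨ρ, k ^ 2 * ρ / 2, r0, hρ0, by linarith, by positivity, hr0p, ?_⟩
  intro r hr hrr t ht1 ht2 hi1 hi2
  have g1 : r < q / (4 * C ^ 2) := hrr.trans_le ((min_le_left _ _).trans (min_le_left _ _))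
  have g2 : r < q / (4 * Cq * C ^ 2) := hrr.trans_le ((min_le_left _ _).trans (min_le_right _ _))
  have g3 : r < R / (16 * (C + 1)) :=
    hrr.trans_le ((min_le_right _ _).trans ((min_le_left _ _).trans (min_le_left _ _)))
  have g4 : r < ρ / (2 * C) :=
    hrr.trans_le ((min_le_right _ _).trans ((min_le_left _ _).trans (min_le_right _ _)))
  have g5 : r < ρ := hrr.trans_le ((min_le_right _ _).trans (min_le_right _ _))
  rw [lt_div_iff₀ (by positivity)] at g1 g2 g3 g4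
  have hr1 : C ^ 2 * r / q ≤ 1 / 2 := by
    rw [div_le_div_iff₀ hq (by norm_num)]
    linarith
  have hr2 : Cq * C ^ 2 * r ≤ q / 4 := by linarith
  obtain ⟨τ, β, hτ, hβ1, hβ2, htarg⟩ := solve B hε hC hq hq1 hs0 hs1.le hCq0.le hεC hr hr1 hr2
    ht1 ht2 hi1 hi2
  have P : Par A e ε c p H k R C q s ρ Cq (q / (8 * C)) r τ β :=
    { B := B, he := he, ε0 := hε, ε1 := hε1, k0 := hk, k1 := hk1, R0 := hR, C0 := hC, q0 := hq,
      q1 := hq1, s0 := hs0, s1 := hs1, ρ0 := hρ0, ρR := hρ2, ρ1 := hρ3, Cq0 := hCq0, Cqρ := hCqρ,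
      a0 := ha0, a1 := ha1, r0 := hr, rρ := g5, rR := by linarith, τ1 := hτ, β1 := hβ1, β2 := hβ2,
      hH := fun w hw hwi => hH w (by linarith) hwi (by linarith) }
  have hrt : ‖(r : ℂ) * t.2‖ ≤ C * r := by
    rw [norm_mul, Complex.norm_real, Real.norm_eq_abs, abs_of_pos hr, mul_comm]
    gcongr
  refine ⟨mu H p τ β (q / (8 * C)) Cq r s, P.dc, ⟨r * t.2, ⟨?_, ?_⟩, ?_, ?_⟩,
    fun w hw hwi => P.ins hw hwi, fun w hw hwi => P.arc hw hwi, fun x hx => P.pt hx,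
    fun x hx => (P.foot hx).1, fun x hx => (P.foot hx).2, fun x hx => P.lo hx⟩
  · linarith
  · have : 0 < r * t.2.im := mul_pos hr (by linarith)
    simpa using this
  · have : 0 < r * 4 := by positivity
    linarith
  · rw [htarg]

end Vale.Agent.P097.H264
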