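import Vale.Agent.P097.H264.Saw2

/-!
One-sided version of the Schottky chain: the positive part of the real part.
-/

open Complex Metric Filter Topology Set

namespace Vale.Agent.P097.H264

open Vale.Agent.P097.H699

theorem log_pos_step {g : ℂ → ℂ} {c : ℂ} {R : ℝ} (hR : 0 < R) (hg : DifferentiableOn ℂ g (ball c R))
    (h1 : ∀ z ∈ ball c R, Complex.exp (g z) ≠ 1) (hc : (g c).re ≤ 0)
    {z : ℂ} (hz : ‖z - c‖ ≤ R / 2) : (g z).re ≤ LS - 1 := by
  have hR2 : R / 2 < R := by linarith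
  have hcn : ‖Complex.exp (g c)‖ ≤ 1 := by
    rw [Complex.norm_exp]; exact Real.exp_le_one_iff.mpr hc
  set M := SB 1 (1 / 2) with hM
  have hM1 : 1 ≤ M := one_le_SB _ _
  have h2 := schottky (f := fun w => Complex.exp (g w)) hg.cexp (fun w _ => Complex.exp_ne_zero _)
    h1 hR2 hcn (z := z) (by rw [mem_closedBall, dist_eq_norm]; exact hz)
  rw [show R / 2 / R = 1 / 2 by field_simp, Complex.norm_exp] at h2
  have hL : LS = 1 + Real.log M := rfl
  rw [hL, add_sub_cancel_left, Real.le_log_iff_exp_le (by linarith)]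
  exact h2

variable {E : Type*} [NormedAddCommGroup E] [NormedSpace ℂ E]

theorem LogOm.pos_step {g : E → ℂ} {c z : E} {R : ℝ} (hR : 0 < R) (hg : LogOm (ball c R) g)
    (hz : ‖z - c‖ ≤ R / 8) : 1 + max (g z).re 0 ≤ KS * (1 + max (g c).re 0) := by
  have hLS := LS_one
  have hKS : KS = 1 + LS := rfl
  rcases le_total (g c).re 0 with hc | hc
  · have hmap : MapsTo (fun t : ℂ => c + t • (z - c)) (ball 0 8) (ball c R) := by
      intro t ht
      rw [mem_ball_zero_iff] at ht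
      rw [mem_ball, dist_eq_norm, add_sub_cancel_left, norm_smul]
      rcases eq_or_lt_of_le (norm_nonneg (z - c)) with h0 | h0
      · rw [← h0, mul_zero]; exact hR
      · calc ‖t‖ * ‖z - c‖ < 8 * ‖z - c‖ := by gcongr
          _ ≤ R := by linarith
    have h1 := log_pos_step (g := fun t : ℂ => g (c + t • (z - c))) (c := 0) (R := 8) (by norm_num)
      (hg.hol.comp (by fun_prop) hmap) (fun t ht => hg.ne _ (hmap ht)) (by simpa using hc) (z := 1)
      (by norm_num)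
    have h2 : (g z).re ≤ LS - 1 := by simpa using h1
    rw [max_eq_right hc]
    have h3 : max (g z).re 0 ≤ LS - 1 := max_le h2 (by linarith)
    linarith
  · have h1 := LogOm.step hR hg hz
    rw [abs_of_nonneg hc] at h1
    rw [max_eq_left hc]
    have h2 : (g z).re ≤ (g c).re + LS * (1 + (g c).re) := by
      have h3 := Complex.re_le_norm (g z - g c)
      rw [Complex.sub_re] at h3
      linarith
    have h3 : max (g z).re 0 ≤ (g c).re + LS * (1 + (g c).re) := max_le h2 (by positivity)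
    rw [hKS]
    linarith

/-- `z` and `w` are joined in `U` with growth `a` of the positive part -/
def JP (U : Set E) (a : ℝ) (z w : E) : Prop :=
  ∀ g : E → ℂ, LogOm U g → 1 + max (g w).re 0 ≤ a * (1 + max (g z).re 0)

theorem JP.refl (U : Set E) (z : E) : JP U 1 z z := fun g _ => by simp

theorem JP.mono {U : Set E} {a b : ℝ} {z w : E} (h : JP U a z w) (hab : a ≤ b) : JP U b z w := by
  intro g hg
  have h1 := h g hg
  have : 0 ≤ 1 + max (g z).re 0 := by positivity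
  exact h1.trans (by gcongr)

theorem JP.mono_set {U V : Set E} {a : ℝ} {z w : E} (h : JP U a z w) (hV : U ⊆ V) : JP V a z w :=
  fun g hg => h g (hg.mono hV)

theorem JP.trans {U : Set E} {a b : ℝ} {z w v : E} (h : JP U a z w) (h' : JP U b w v)
    (hb : 1 ≤ b) : JP U (a * b) z v := by
  intro g hg
  have h1 := h g hg
  have h3 := h' g hg
  calc 1 + max (g v).re 0 ≤ b * (1 + max (g w).re 0) := h3
    _ ≤ b * (a * (1 + max (g z).re 0)) := by gcongr
    _ = _ := by ring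

theorem JP.one_step {U : Set E} {z w : E} {R : ℝ} (hR : 0 < R) (hU : ball z R ⊆ U)
    (hw : ‖w - z‖ ≤ R / 8) : JP U KS z w :=
  fun _ hg => LogOm.pos_step hR (hg.mono hU) hw

/-- **paths in unit speed**: `T` units cost `KS ^ (T + 1)` -/
theorem JP_path_unit {U : Set E} {γ : ℝ → E} {R : ℝ → ℝ} {T : ℝ} (hT : 0 ≤ T)
    (hR : ∀ s ∈ Icc 0 T, 0 < R s) (hU : ∀ s ∈ Icc 0 T, ball (γ s) (R s) ⊆ U)
    (hγ : ∀ s ∈ Icc 0 T, ∀ s' ∈ Icc s T, s' ≤ s + 1 → ‖γ s' - γ s‖ ≤ R s / 8) :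
    JP U (KS ^ (T + 1)) (γ 0) (γ T) := by
  have hKS := KS_one
  have key : ∀ n : ℕ, (n : ℝ) ≤ T → JP U (KS ^ (n : ℝ)) (γ 0) (γ n) := by
    intro n
    induction n with
    | zero => intro _; simpa using JP.refl U (γ 0)
    | succ m ih =>
      intro hm
      push_cast at hm ⊢
      have hmT : (m : ℝ) ≤ T := by linarith
      have hmem : (m : ℝ) ∈ Icc 0 T := ⟨by positivity, hmT⟩
      have h1 := JP.one_step (hR _ hmem) (hU _ hmem) (hγ m hmem (m + 1) ⟨by linarith, hm⟩ le_rfl)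
      have h2 := (ih hmT).trans h1 hKS
      rwa [Real.rpow_add_one (by linarith)]
  have hn := Nat.floor_le hT
  have hmem : ((⌊T⌋₊ : ℕ) : ℝ) ∈ Icc 0 T := ⟨by positivity, hn⟩
  have h1 := JP.one_step (hR _ hmem) (hU _ hmem)
    (hγ _ hmem T ⟨hn, le_rfl⟩ (Nat.lt_floor_add_one T).le)
  have h2 := (key _ hn).trans h1 hKS
  refine h2.mono ?_
  rw [← Real.rpow_add_one (by linarith)]
  exact Real.rpow_le_rpow_of_exponent_le hKS (by linarith)

/-- going up -/
theorem JP_path_up {U : Set E} {γ : ℝ → E} {a b c : ℝ} (ha : 0 < a) (hab : a ≤ b) (hc : 0 < c)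
    (hγ : ∀ s ∈ Icc a b, ∀ t ∈ Icc a b, ‖γ t - γ s‖ ≤ |t - s|)
    (hU : ∀ t ∈ Icc a b, ball (γ t) (c * t) ⊆ U) : JP U (KS * (b / a) ^ pS c) (γ a) (γ b) := by
  have hq : 1 < 1 + c / 8 := by linarith
  have hlq : 0 < Real.log (1 + c / 8) := Real.log_pos hq
  have hba : 1 ≤ b / a := by rw [le_div_iff₀ ha]; linarith
  set T := Real.log (b / a) / Real.log (1 + c / 8) with hT
  have hT0 : 0 ≤ T := by
    have := Real.log_nonneg hba
    positivity
  have hqT : (1 + c / 8) ^ T = b / a := by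
    rw [Real.rpow_def_of_pos (by linarith), hT, mul_div_cancel₀ _ hlq.ne', Real.exp_log (by positivity)]
  have hmem : ∀ s ∈ Icc 0 T, a * (1 + c / 8) ^ s ∈ Icc a b := by
    intro s hs
    constructor
    · have := Real.one_le_rpow hq.le hs.1
      nlinarith
    · have h1 : (1 + c / 8) ^ s ≤ b / a := by
        rw [← hqT]; exact Real.rpow_le_rpow_of_exponent_le hq.le hs.2
      rw [le_div_iff₀ ha] at h1
      linarith
  have h := JP_path_unit (U := U) (γ := fun s => γ (a * (1 + c / 8) ^ s))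
    (R := fun s => c * (a * (1 + c / 8) ^ s)) hT0 (fun s _ => by positivity)
    (fun s hs => hU _ (hmem s hs)) ?_
  · simp only [Real.rpow_zero, mul_one, hqT] at h
    rw [mul_div_cancel₀ _ ha.ne', hT, KS_pow_log (by positivity)] at h
    exact h
  · intro s hs s' hs' hss
    have hs'' : s' ∈ Icc 0 T := ⟨hs.1.trans hs'.1, hs'.2⟩
    refine (hγ _ (hmem s hs) _ (hmem s' hs'')).trans ?_
    have h1 : (1 + c / 8) ^ s ≤ (1 + c / 8) ^ s' := Real.rpow_le_rpow_of_exponent_le hq.le hs'.1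
    have h2 : (1 + c / 8) ^ s' ≤ (1 + c / 8) ^ s * (1 + c / 8) := by
      rw [← Real.rpow_add_one (by linarith)]
      exact Real.rpow_le_rpow_of_exponent_le hq.le hss
    have h3 : 0 < (1 + c / 8) ^ s := by positivity
    rw [← mul_sub, abs_mul, abs_of_pos ha, abs_of_nonneg (by linarith)]
    calc a * ((1 + c / 8) ^ s' - (1 + c / 8) ^ s)
        ≤ a * ((1 + c / 8) ^ s * (1 + c / 8) - (1 + c / 8) ^ s) := by gcongr
      _ = c * (a * (1 + c / 8) ^ s) / 8 := by ring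

/-- going down -/
theorem JP_path_down {U : Set E} {γ : ℝ → E} {a b c : ℝ} (ha : 0 < a) (hab : a ≤ b) (hc : 0 < c)
    (hγ : ∀ s ∈ Icc a b, ∀ t ∈ Icc a b, ‖γ t - γ s‖ ≤ |t - s|)
    (hU : ∀ t ∈ Icc a b, ball (γ t) (c * t) ⊆ U) : JP U (KS * (b / a) ^ pS c) (γ b) (γ a) := by
  have hq : 1 < 1 + c / 8 := by linarith
  have hq0 : (0 : ℝ) < 1 + c / 8 := by linarith
  have hlq : 0 < Real.log (1 + c / 8) := Real.log_pos hq
  have hb : 0 < b := by linarith
  have hba : 1 ≤ b / a := by rw [le_div_iff₀ ha]; linarith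
  set T := Real.log (b / a) / Real.log (1 + c / 8) with hT
  have hT0 : 0 ≤ T := by
    have := Real.log_nonneg hba
    positivity
  have hqT : (1 + c / 8) ^ (-T) = a / b := by
    rw [Real.rpow_neg hq0.le, Real.rpow_def_of_pos hq0, hT, mul_div_cancel₀ _ hlq.ne',
      Real.exp_log (by positivity), inv_div]
  have hmem : ∀ s ∈ Icc 0 T, b * (1 + c / 8) ^ (-s) ∈ Icc a b := by
    intro s hs
    constructor
    · have h1 : a / b ≤ (1 + c / 8) ^ (-s) := by
        rw [← hqT]; exact Real.rpow_le_rpow_of_exponent_le hq.le (by linarith [hs.2])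
      rw [div_le_iff₀ hb] at h1
      linarith
    · have h1 : (1 + c / 8) ^ (-s) ≤ 1 :=
        Real.rpow_le_one_of_one_le_of_nonpos hq.le (by linarith [hs.1])
      nlinarith
  have h := JP_path_unit (U := U) (γ := fun s => γ (b * (1 + c / 8) ^ (-s)))
    (R := fun s => c * (b * (1 + c / 8) ^ (-s))) hT0 (fun s _ => by positivity)
    (fun s hs => hU _ (hmem s hs)) ?_
  · simp only [neg_zero, Real.rpow_zero, mul_one, hqT] at h
    rw [mul_div_cancel₀ _ hb.ne', hT, KS_pow_log (by positivity)] at h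
    exact h
  · intro s hs s' hs' hss
    have hs'' : s' ∈ Icc 0 T := ⟨hs.1.trans hs'.1, hs'.2⟩
    refine (hγ _ (hmem s hs) _ (hmem s' hs'')).trans ?_
    have h1 : (1 + c / 8) ^ (-s') ≤ (1 + c / 8) ^ (-s) :=
      Real.rpow_le_rpow_of_exponent_le hq.le (by linarith [hs'.1])
    have h2 : (1 + c / 8) ^ (-s) ≤ (1 + c / 8) ^ (-s') * (1 + c / 8) := by
      rw [← Real.rpow_add_one hq0.ne']
      exact Real.rpow_le_rpow_of_exponent_le hq.le (by linarith)
    have h3 : 0 < (1 + c / 8) ^ (-s') := by positivity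
    rw [← mul_sub, abs_mul, abs_of_pos hb, abs_of_nonpos (by linarith), neg_sub]
    have h4 : (1 + c / 8) ^ (-s) - (1 + c / 8) ^ (-s') ≤ c / 8 * (1 + c / 8) ^ (-s) := by
      nlinarith
    calc b * ((1 + c / 8) ^ (-s) - (1 + c / 8) ^ (-s'))
        ≤ b * (c / 8 * (1 + c / 8) ^ (-s)) := by gcongr
      _ = c * (b * (1 + c / 8) ^ (-s)) / 8 := by ring

/-- straight segments with a tube of radius `R` -/
theorem JP_path_seg {U : Set E} {z w : E} {R : ℝ} (hR : 0 < R)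
    (hU : ∀ t ∈ Icc (0 : ℝ) 1, ball (z + (t : ℂ) • (w - z)) R ⊆ U) :
    JP U (KS ^ (8 * ‖w - z‖ / R + 1)) z w := by
  rcases eq_or_lt_of_le (norm_nonneg (w - z)) with h0 | h0
  · have hzw : w = z := by
      rw [← sub_eq_zero]; exact norm_eq_zero.mp h0.symm
    subst hzw
    refine (JP.refl U w).mono ?_
    rw [← h0]
    simp [KS_one]
  set T := 8 * ‖w - z‖ / R with hT
  have hT0 : 0 < T := by positivity
  have h := JP_path_unit (U := U) (γ := fun s : ℝ => z + ((s / T : ℝ) : ℂ) • (w - z))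
    (R := fun _ => R) hT0.le (fun _ _ => hR)
    (fun s hs => hU _ ⟨by have := hs.1; positivity, by rw [div_le_one hT0]; exact hs.2⟩) ?_
  · simpa [hT0.ne'] using h
  · intro s hs s' hs' hss
    have h1 : z + ((s' / T : ℝ) : ℂ) • (w - z) - (z + ((s / T : ℝ) : ℂ) • (w - z)) =
        (((s' - s) / T : ℝ) : ℂ) • (w - z) := by
      rw [add_sub_add_left_eq_sub, ← sub_smul]
      congr 1
      push_cast
      ring
    rw [h1, norm_smul, Complex.norm_real, Real.norm_eq_abs, abs_of_nonneg (by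
      have := hs'.1
      have : 0 ≤ s' - s := by linarith
      positivity)]
    have h2 : (s' - s) / T ≤ 1 / T := by gcongr; linarith
    calc (s' - s) / T * ‖w - z‖ ≤ 1 / T * ‖w - z‖ := by gcongr
      _ = R / 8 := by rw [hT]; field_simp

/-- from a general point of the sawtooth to the point with real second coordinate -/
theorem JP_to_pt {κ κ₁ C C₁ h : ℝ} {A : Set (ℝ × ℝ)} (h0 : 0 ≤ κ₁) (h1 : κ₁ < κ) (h2 : 0 ≤ C₁)
    (h3 : C₁ < C) {z : ℂ × ℂ} (hz : Pt κ₁ C₁ A z) (hh : 2 * z.1.im ≤ h) :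
    JP (Sw κ C h A) (KS ^ (8 * κ₁ / opn κ κ₁ C C₁ + 1)) z (pt (z.1.re, z.2.re) z.1.im) ∧
    JP (Sw κ C h A) (KS ^ (8 * κ₁ / opn κ κ₁ C C₁ + 1)) (pt (z.1.re, z.2.re) z.1.im) z := by
  have hc0 : 0 < opn κ κ₁ C C₁ := opn_pos h0 h1 h2 h3
  set c := opn κ κ₁ C C₁ with hc
  obtain ⟨ht, hζ, hA⟩ := hz
  set t := z.1.im with htd
  set w := pt (z.1.re, z.2.re) t with hw
  have hwz : w - z = (0, -((z.2.im : ℂ) * I)) := by
    rw [hw]
    unfold pt
    apply Prod.ext
    · apply Complex.ext <;> simp [htd]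
    · apply Complex.ext <;> simp
  have hn : ‖w - z‖ = |z.2.im| := by
    rw [hwz, Prod.norm_def]
    simp
  have hnc : 8 * ‖w - z‖ / (c * t) + 1 ≤ 8 * κ₁ / c + 1 := by
    rw [hn]
    have : 8 * |z.2.im| / (c * t) ≤ 8 * κ₁ / c := by
      rw [div_le_div_iff₀ (by positivity) hc0]
      nlinarith
    linarith
  have hseg : ∀ s ∈ Icc (0 : ℝ) 1, Pt κ₁ C₁ A (z + (s : ℂ) • (w - z)) ∧
      (z + (s : ℂ) • (w - z)).1.im = t := by
    intro s hs
    have e1 : (z + (s : ℂ) • (w - z)).1 = z.1 := by rw [hwz]; simp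
    have e2r : (z + (s : ℂ) • (w - z)).2.re = z.2.re := by rw [hwz]; simp
    have e2i : (z + (s : ℂ) • (w - z)).2.im = (1 - s) * z.2.im := by rw [hwz]; simp; ring
    refine ⟨⟨?_, ?_, ?_⟩, ?_⟩
    · rw [e1]; exact ht
    · rw [e1, e2i, abs_mul, abs_of_nonneg (by linarith [hs.2] : (0 : ℝ) ≤ 1 - s)]
      calc (1 - s) * |z.2.im| ≤ 1 * |z.2.im| := by
            have := hs.1
            gcongr
            linarith
        _ ≤ κ₁ * t := by rw [one_mul]; exact hζ
    · rw [e1, e2r]; exact hA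
    · rw [e1]
  constructor
  · refine (JP_path_seg (U := Sw κ C h A) (z := z) (w := w) (R := c * t) (by positivity) ?_).mono
      (Real.rpow_le_rpow_of_exponent_le KS_one hnc)
    intro s hs
    obtain ⟨h4, h5⟩ := hseg s hs
    have := Pt.ball h0 h1 h2 h3 (h := h) h4 (by rw [h5]; exact hh)
    rwa [h5] at this
  · have hn' : ‖z - w‖ = ‖w - z‖ := norm_sub_rev _ _
    refine (JP_path_seg (U := Sw κ C h A) (z := w) (w := z) (R := c * t) (by positivity) ?_).mono
      (Real.rpow_le_rpow_of_exponent_le KS_one (by rw [hn']; exact hnc))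
    intro s hs
    obtain ⟨h4, h5⟩ := hseg (1 - s) ⟨by linarith [hs.2], by linarith [hs.1]⟩
    have h6 : w + (s : ℂ) • (z - w) = z + (((1 - s : ℝ)) : ℂ) • (w - z) := by
      push_cast
      rw [sub_smul, one_smul, smul_sub, smul_sub]
      abel
    rw [h6]
    have := Pt.ball h0 h1 h2 h3 (h := h) h4 (by rw [h5]; exact hh)
    rwa [h5] at this

/-- **Schottky chain in the sawtooth**, relational form -/
theorem JP_saw_join {κ κ₁ C C₁ h : ℝ} {A : Set (ℝ × ℝ)} (h0 : 0 ≤ κ₁) (h1 : κ₁ < κ) (h2 : 0 ≤ C₁)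
    (h3 : 1 + C₁ < C) {z w : ℂ × ℂ} (hz : Pt κ₁ C₁ A z) (hw : Pt κ₁ C₁ A w) {ρ : ℝ}
    (hρ : 2 * ρ ≤ h) (hzρ : z.1.im ≤ ρ) (hwρ : w.1.im ≤ ρ)
    (hd : dist (z.1.re, z.2.re) (w.1.re, w.2.re) ≤ ρ) :
    JP (Sw κ C h A) (Kw κ κ₁ C C₁ * (ρ / z.1.im) ^ pw κ κ₁ C C₁ * (ρ / w.1.im) ^ pw κ κ₁ C C₁)
      z w := by
  have h3' : C₁ < C := by linarith
  have hKS := KS_one
  have hz0 := hz.1
  have hw0 := hw.1
  have hρ0 : 0 < ρ := hz0.trans_le hzρ
  set c := opn κ κ₁ C C₁ with hc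
  have hc0 : 0 < c := opn_pos h0 h1 h2 h3'
  set c' := opn κ κ₁ C (1 + C₁) with hc'
  have hc'0 : 0 < c' := opn_pos h0 h1 (by linarith) h3
  set p := (z.1.re, z.2.re) with hp
  set q := (w.1.re, w.2.re) with hq
  -- vertical moves
  have vert : ∀ (p : ℝ × ℝ) (t : ℝ), 0 < t → t ≤ ρ → (∃ e ∈ A, dist p e ≤ C₁ * t) →
      JP (Sw κ C h A) (KS * (ρ / t) ^ pS c) (pt p t) (pt p ρ) ∧
      JP (Sw κ C h A) (KS * (ρ / t) ^ pS c) (pt p ρ) (pt p t) := by
    intro p t ht htρ hA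
    have hb : ∀ s ∈ Icc t ρ, ball (pt p s) (c * s) ⊆ Sw κ C h A := by
      intro s hs
      have hs0 : 0 < s := ht.trans_le hs.1
      have hP : Pt κ₁ C₁ A (pt p s) := by
        refine pt_Pt h0 hs0 ?_
        obtain ⟨e, he, hde⟩ := hA
        exact ⟨e, he, hde.trans (by have := hs.1; gcongr)⟩
      have := Pt.ball h0 h1 h2 h3' (h := h) hP (by rw [pt_1im]; linarith [hs.2])
      rwa [pt_1im] at this
    exact ⟨JP_path_up ht htρ hc0 (fun s _ t _ => (pt_sub_t p s t).le) hb,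
      JP_path_down ht htρ hc0 (fun s _ t _ => (pt_sub_t p s t).le) hb⟩
  -- horizontal move
  have hor : JP (Sw κ C h A) (KS ^ (8 / c' + 1)) (pt p ρ) (pt q ρ) := by
    have hn : ‖pt q ρ - pt p ρ‖ ≤ ρ := by rw [pt_sub_p]; exact hd
    refine (JP_path_seg (U := Sw κ C h A) (z := pt p ρ) (w := pt q ρ) (R := c' * ρ) (by positivity)
      ?_).mono (Real.rpow_le_rpow_of_exponent_le hKS ?_)
    · intro s hs
      have e1 : pt p ρ + (s : ℂ) • (pt q ρ - pt p ρ) =
          pt (p.1 + s * (q.1 - p.1), p.2 + s * (q.2 - p.2)) ρ := by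
        unfold pt
        apply Prod.ext
        · simp
          ring
        · simp
      rw [e1]
      have hP : Pt κ₁ (1 + C₁) A (pt (p.1 + s * (q.1 - p.1), p.2 + s * (q.2 - p.2)) ρ) := by
        refine pt_Pt h0 hρ0 ?_
        obtain ⟨e, he, hde⟩ := hz.2.2
        refine ⟨e, he, ?_⟩
        have h4 : dist (p.1 + s * (q.1 - p.1), p.2 + s * (q.2 - p.2)) p ≤ dist p q := by
          rw [Prod.dist_eq, Prod.dist_eq]
          refine max_le_max ?_ ?_
          · rw [Real.dist_eq, Real.dist_eq, add_sub_cancel_left, abs_mul, abs_of_nonneg hs.1,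
              abs_sub_comm p.1]
            exact mul_le_of_le_one_left (abs_nonneg _) hs.2
          · rw [Real.dist_eq, Real.dist_eq, add_sub_cancel_left, abs_mul, abs_of_nonneg hs.1,
              abs_sub_comm p.2]
            exact mul_le_of_le_one_left (abs_nonneg _) hs.2
        have h5 := dist_triangle (p.1 + s * (q.1 - p.1), p.2 + s * (q.2 - p.2)) p e
        have h6 : C₁ * z.1.im ≤ C₁ * ρ := by gcongr
        have h7 : dist p e ≤ C₁ * z.1.im := hde
        linarith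
      have := Pt.ball h0 h1 (by linarith) h3 (h := h) hP (by rw [pt_1im]; exact hρ)
      rwa [pt_1im] at this
    · have : 8 * ‖pt q ρ - pt p ρ‖ / (c' * ρ) ≤ 8 / c' := by
        rw [div_le_div_iff₀ (by positivity) hc'0]
        nlinarith
      linarith
  have s1 := (JP_to_pt h0 h1 h2 h3' hz (h := h) (by linarith)).1
  have s5 := (JP_to_pt h0 h1 h2 h3' hw (h := h) (by linarith)).2
  have s2 := (vert p z.1.im hz0 hzρ hz.2.2).1
  have s4 := (vert q w.1.im hw0 hwρ hw.2.2).2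
  have hr1 : 1 ≤ (ρ / z.1.im) ^ pS c :=
    Real.one_le_rpow (by rw [le_div_iff₀ hz0]; linarith) (pS_nonneg hc0)
  have hr2 : 1 ≤ (ρ / w.1.im) ^ pS c :=
    Real.one_le_rpow (by rw [le_div_iff₀ hw0]; linarith) (pS_nonneg hc0)
  have hk1 : 1 ≤ KS ^ (8 * κ₁ / c + 1) := Real.one_le_rpow hKS (by positivity)
  have hk2 : 1 ≤ KS ^ (8 / c' + 1) := Real.one_le_rpow hKS (by positivity)
  have hm2 : 1 ≤ KS * (ρ / w.1.im) ^ pS c := one_le_mul_of_one_le_of_one_le hKS hr2
  have hm1 : 1 ≤ KS * (ρ / z.1.im) ^ pS c := one_le_mul_of_one_le_of_one_le hKS hr1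
  have := (((s1.trans s2 hm1).trans hor hk2).trans s4 hm2).trans s5 hk1
  refine this.mono (le_of_eq ?_)
  unfold Kw pw
  rw [← hc, ← hc']
  ring

/-- **Schottky chain in the sawtooth**, positive part -/
theorem saw_pos {κ κ₁ C C₁ h : ℝ} {A : Set (ℝ × ℝ)} (h0 : 0 ≤ κ₁) (h1 : κ₁ < κ) (h2 : 0 ≤ C₁)
    (h3 : 1 + C₁ < C) {g : ℂ × ℂ → ℂ} (hg : LogOm (Sw κ C h A) g)
    {z w : ℂ × ℂ} (hz : Pt κ₁ C₁ A z) (hw : Pt κ₁ C₁ A w) {ρ : ℝ}
    (hρ : 2 * ρ ≤ h) (hzρ : z.1.im ≤ ρ) (hwρ : w.1.im ≤ ρ)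
    (hd : dist (z.1.re, z.2.re) (w.1.re, w.2.re) ≤ ρ) :
    1 + max (g w).re 0 ≤ Kw κ κ₁ C C₁ * (ρ / z.1.im) ^ pw κ κ₁ C C₁ *
        (ρ / w.1.im) ^ pw κ κ₁ C C₁ * (1 + max (g z).re 0) :=
  JP_saw_join h0 h1 h2 h3 hz hw hρ hzρ hwρ hd g hg

end Vale.Agent.P097.H264
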