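import Vale.Agent.P097.H264.GQDefs
import Vale.Agent.P097.H264.JP
import Vale.Agent.P097.H264.Disc

/-!
The core of GQ, part 1: octave bounds on the boundary of the discs.
-/

open Complex Metric Filter Topology Set Finset
open Vale.Agent.P097.TC

namespace Vale.Agent.P097.H264

noncomputable def bet : ℝ := 2 ^ ((1 : ℝ) / 9)
noncomputable def tht : ℝ := H226.Dc⁻¹ ^ (3 * 2)

theorem bet_pow : bet ^ 9 = 2 := by
  unfold bet
  rw [← Real.rpow_natCast, ← Real.rpow_mul (by norm_num)]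
  norm_num

theorem bet_pos : 0 < bet := by unfold bet; positivity

theorem bet_one : 1 ≤ bet := Real.one_le_rpow (by norm_num) (by norm_num)

theorem Dc_pos : 0 < H226.Dc := by linarith [H226.one_lt_Dc]

theorem tht_pos : 0 < tht := by
  unfold tht
  have := Dc_pos
  positivity

theorem tht_le_one : tht ≤ 1 := by
  unfold tht
  have := H226.one_lt_Dc
  exact pow_le_one₀ (by have := Dc_pos; positivity) (inv_le_one_of_one_le₀ this.le)

theorem Dc_54 : H226.Dc ^ 54 ≤ 256 := by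
  have h1 : (H226.Dc ^ 54) ^ 7 = (2.03 : ℝ) ^ 54 := by
    have h2 := H226.Dc_pow
    norm_num at h2
    rw [← pow_mul, show 54 * 7 = 7 * 54 by norm_num, pow_mul, h2]
    norm_num
  have h2 : (H226.Dc ^ 54) ^ 7 ≤ (256 : ℝ) ^ 7 := by
    rw [h1]
    norm_num
  have h3 := Dc_pos
  exact le_of_pow_le_pow_left₀ (by norm_num) (by norm_num) h2

theorem bet_tht : bet / 2 ≤ tht := by
  have hD := Dc_pos
  have hb := bet_pos
  have h1 : bet * H226.Dc ^ 6 ≤ 2 := by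
    have h2 : (bet * H226.Dc ^ 6) ^ 9 ≤ (2 : ℝ) ^ 9 := by
      rw [mul_pow, bet_pow, ← pow_mul]
      have := Dc_54
      norm_num
      linarith
    exact le_of_pow_le_pow_left₀ (by norm_num) (by norm_num) h2
  have e1 : tht = 1 / H226.Dc ^ 6 := by
    unfold tht
    rw [inv_pow, one_div]
  rw [e1, div_le_div_iff₀ (by norm_num) (by positivity)]
  linarith

theorem bet_third : bet / 2 ≤ 2 / 3 := by
  have h2 : bet ^ 9 ≤ (4 / 3 : ℝ) ^ 9 := by
    rw [bet_pow]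
    norm_num
  have := le_of_pow_le_pow_left₀ (by norm_num) (by norm_num) h2
  linarith

theorem geom3 {x : ℝ} (h0 : 0 ≤ x) (h1 : x ≤ 2 / 3) (N : ℕ) : ∑ k ∈ range N, x ^ k ≤ 3 := by
  have key : ∑ k ∈ range N, x ^ k ≤ 3 * (1 - x ^ N) := by
    induction N with
    | zero => simp
    | succ m ih =>
      rw [Finset.sum_range_succ, pow_succ]
      have := pow_nonneg h0 m
      nlinarith
  have := pow_nonneg h0 N
  linarith

theorem lin4 (N : ℕ) : ∑ k ∈ range N, ((k : ℝ) + 1) * (1 / 2) ^ k ≤ 4 := by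
  have key : ∑ k ∈ range N, ((k : ℝ) + 1) * (1 / 2) ^ k ≤ 4 - (2 * N + 4) * (1 / 2) ^ N := by
    induction N with
    | zero => simp
    | succ m ih =>
      rw [Finset.sum_range_succ, pow_succ]
      push_cast
      linarith
  have : 0 ≤ (2 * (N : ℝ) + 4) * (1 / 2) ^ N := by positivity
  linarith

theorem LogOm.neg {E : Type*} [NormedAddCommGroup E] [NormedSpace ℂ E] {U : Set E} {g : E → ℂ}
    (h : LogOm U g) : LogOm U (fun z => -g z) := by
  refine ⟨h.hol.neg, fun z hz h1 => h.ne z hz ?_⟩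
  rw [Complex.exp_neg, inv_eq_one] at h1
  exact h1

theorem opn_eq {kap C1 : ℝ} (hC : 0 ≤ C1) : opn kap 0 (2 * C1 + 3) C1 = min (1 / 2) (kap / (1 + kap)) := by
  unfold opn
  have h1 : (1 / 2 : ℝ) ≤ (2 * C1 + 3 - C1) / (1 + (2 * C1 + 3)) := by
    rw [div_le_div_iff₀ (by norm_num) (by linarith)]
    linarith
  rw [sub_zero]
  apply le_antisymm
  · exact le_min (min_le_left _ _) ((min_le_right _ _).trans (min_le_left _ _))
  · exact le_min (min_le_left _ _) (le_min (min_le_right _ _) ((min_le_left _ _).trans h1))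

/-- the constants of one disc family -/
structure Ctx (A : Set (ℝ × ℝ)) (e : ℝ × ℝ) (g : ℂ × ℂ → ℂ) (kap C1 C7 b1 s h h₀ ρd : ℝ) (c1 : ℕ) :
    Prop where
  he : e ∈ A
  kap0 : 0 < kap
  C10 : 0 ≤ C1
  C71 : 1 ≤ C7
  b10 : 0 < b1
  s0 : 0 ≤ s
  s1 : s < 1
  sp : (1 - s) * pw kap 0 (2 * C1 + 3) C1 ≤ 1 / 9
  hc1 : 4 * C7 ≤ 2 ^ c1
  h0 : 0 < h₀
  ρd0 : 0 < ρd
  ρh : 2 ^ c1 * ρd ≤ h / 2
  ρh₀ : 2 ^ c1 * ρd ≤ h₀
  log : LogOm (Sw kap (2 * C1 + 3) h A) g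

theorem Ctx.pw0 {A : Set (ℝ × ℝ)} {e : ℝ × ℝ} {g : ℂ × ℂ → ℂ} {kap C1 C7 b1 s h h₀ ρd : ℝ} {c1 : ℕ}
    (X : Ctx A e g kap C1 C7 b1 s h h₀ ρd c1) : 0 ≤ pw kap 0 (2 * C1 + 3) C1 := by
  unfold pw
  apply pS_nonneg
  have h1 := X.kap0
  have h2 := X.C10
  exact opn_pos le_rfl h1 h2 (by linarith)

theorem Kw_one {κ κ₁ C C₁ : ℝ} (h0 : 0 ≤ κ₁) (h1 : κ₁ < κ) (h2 : 0 ≤ C₁) (h3 : 1 + C₁ < C) :
    1 ≤ Kw κ κ₁ C C₁ := by
  have hKS := KS_one
  have hc0 : 0 < opn κ κ₁ C C₁ := opn_pos h0 h1 h2 (by linarith)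
  have hc1 : 0 < opn κ κ₁ C (1 + C₁) := opn_pos h0 h1 (by linarith) h3
  unfold Kw
  have a1 : 1 ≤ KS ^ (8 * κ₁ / opn κ κ₁ C C₁ + 1) := Real.one_le_rpow hKS (by positivity)
  have a2 : 1 ≤ KS ^ (8 / opn κ κ₁ C (1 + C₁) + 1) := Real.one_le_rpow hKS (by positivity)
  have b1 := one_le_mul_of_one_le_of_one_le a1 hKS
  have b2 := one_le_mul_of_one_le_of_one_le b1 a2
  have b3 := one_le_mul_of_one_le_of_one_le b2 hKS
  exact one_le_mul_of_one_le_of_one_le b3 a1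

/-- the constant of the boundary bounds -/
noncomputable def BB (kap C1 b1 : ℝ) (c1 : ℕ) : ℝ :=
  Kw kap 0 (2 * C1 + 3) C1 * (2 ^ c1 / b1) ^ pw kap 0 (2 * C1 + 3) C1

section
variable {A : Set (ℝ × ℝ)} {e : ℝ × ℝ} {g : ℂ × ℂ → ℂ} {kap C1 C7 b1 s h h₀ ρd : ℝ} {c1 : ℕ}

theorem Ctx.BB0 (X : Ctx A e g kap C1 C7 b1 s h h₀ ρd c1) : 0 ≤ BB kap C1 b1 c1 := by
  have h1 := Kw_one (κ := kap) (κ₁ := 0) (C := 2 * C1 + 3) (C₁ := C1) le_rfl X.kap0 X.C10
    (by linarith [X.C10])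
  have h2 := X.b10
  unfold BB
  positivity

theorem Ctx.hpos (X : Ctx A e g kap C1 C7 b1 s h h₀ ρd c1) : 0 < h := by
  have h1 := X.ρh
  have h2 := X.ρd0
  have : 0 < (2 : ℝ) ^ c1 * ρd := by positivity
  linarith

/-- **boundary points** -/
theorem Ctx.bd (X : Ctx A e g kap C1 C7 b1 s h h₀ ρd c1) {k R δ r : ℝ} {n : ℕ} {z : ℂ × ℂ}
    {μ : ℂ → ℂ} (hr : r = h₀ / 2 ^ n) (D : H226.DiscT A e k R δ ρd C1 C7 b1 s r z μ)
    (hrρ : r ≤ ρd) {x : ℝ} (hx : |x| ≤ ρd) :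
    ∃ l : ℕ, (l = 0 ∨ 2 ^ l * r ≤ |x|) ∧ l + c1 ≤ n ∧
      (μ x, (e.2 : ℂ) + x) ∈ Sw kap (2 * C1 + 3) h A ∧
      (∀ σ : ℝ, σ = 1 ∨ σ = -1 → 1 + max (σ * (g (μ x, (e.2 : ℂ) + x)).re) 0 ≤
        BB kap C1 b1 c1 * bet ^ l * (1 + max (σ * (g (pt e (h₀ / 2 ^ (n - (l + c1))))).re) 0)) ∧
      ‖g (μ x, (e.2 : ℂ) + x) - g (pt e r)‖ ≤
        BB kap C1 b1 c1 * (2 ^ c1) ^ pw kap 0 (2 * C1 + 3) C1 *
          (2 ^ pw kap 0 (2 * C1 + 3) C1 * bet) ^ l * (1 + |(g (pt e r)).re|) := by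
  have hh₀ := X.h0
  have hr0 : 0 < r := by rw [hr]; positivity
  have hC7 := X.C71
  have hC1 := X.C10
  have hb1 := X.b10
  have hs0 := X.s0
  have hs1 := X.s1
  have hh := X.hpos
  set p0 := pw kap 0 (2 * C1 + 3) C1 with hp0
  have hp0n : 0 ≤ p0 := X.pw0
  set X₀ := max r |x| with hX₀
  have hX₀r : r ≤ X₀ := le_max_left _ _
  have hX₀x : |x| ≤ X₀ := le_max_right _ _
  have hX₀ρ : X₀ ≤ ρd := max_le hrρ hx
  obtain ⟨l, hl1, hl2⟩ := exists_nat_pow_near (x := X₀ / r) (y := (2 : ℝ))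
    (by rw [le_div_iff₀ hr0]; linarith) one_lt_two
  rw [le_div_iff₀ hr0] at hl1
  rw [div_lt_iff₀ hr0] at hl2
  set ρ' : ℝ := 2 ^ (l + c1) * r with hρ'
  have hρ'0 : 0 < ρ' := by positivity
  have e1 : ρ' = 2 ^ c1 * (2 ^ l * r) := by rw [hρ', pow_add]; ring
  have f3 : r + |x| ≤ 4 * (2 ^ l * r) := by
    rw [pow_succ] at hl2
    linarith
  have f4 : C7 * (r + |x|) ≤ ρ' := by
    rw [e1]
    calc C7 * (r + |x|) ≤ C7 * (4 * (2 ^ l * r)) := by gcongr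
      _ = 4 * C7 * (2 ^ l * r) := by ring
      _ ≤ 2 ^ c1 * (2 ^ l * r) := by
        have := X.hc1
        gcongr
  have f5 : ρ' ≤ 2 ^ c1 * ρd := by
    rw [e1]
    gcongr
    linarith
  have f5a : 2 * ρ' ≤ h := by linarith [X.ρh]
  have f5b : ρ' ≤ h₀ := f5.trans X.ρh₀
  have hrn : h₀ = 2 ^ n * r := by rw [hr]; field_simp
  have f7 : l + c1 ≤ n := by
    rw [hrn, hρ'] at f5b
    have h1 : (2 : ℝ) ^ (l + c1) ≤ 2 ^ n := le_of_mul_le_mul_right f5b hr0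
    exact (pow_le_pow_iff_right₀ one_lt_two).mp h1
  have f6 : ρ' = h₀ / 2 ^ (n - (l + c1)) := by
    rw [eq_div_iff (by positivity), hρ', hrn, mul_assoc, mul_comm r, ← mul_assoc, ← pow_add]
    congr 2
    omega
  -- the boundary point
  set zb : ℂ × ℂ := (μ x, (e.2 : ℂ) + x) with hzb
  have hP : Pt 0 C1 A zb := D.pt x hx
  have hup := D.up x hx
  have hlo := D.lo x hx
  have hft := D.foot x hx
  have htb0 : 0 < zb.1.im := hP.1
  have hup' : zb.1.im ≤ ρ' := hup.trans f4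
  have hrr' : r ≤ ρ' := by
    have h1 : 1 * r ≤ C7 * (r + |x|) := by
      have := abs_nonneg x
      gcongr
      linarith
    linarith
  have hx' : |x| ≤ ρ' := by
    have h1 : 1 * |x| ≤ C7 * (r + |x|) := by
      gcongr
      linarith
    linarith
  have hdist : ∀ t : ℝ, dist ((pt e t).1.re, (pt e t).2.re) (zb.1.re, zb.2.re) ≤ ρ' := by
    intro t
    rw [Prod.dist_eq]
    apply max_le
    · simp only [pt_1re, Real.dist_eq]
      rw [abs_sub_comm]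
      exact hft.trans f4
    · simp only [pt_2re, Real.dist_eq, hzb, add_re, ofReal_re]
      rw [abs_sub_comm, add_sub_cancel_left]
      exact hx'
  have hax : ∀ t : ℝ, 0 < t → Pt 0 C1 A (pt e t) := by
    intro t ht
    exact pt_Pt le_rfl ht ⟨e, X.he, by rw [dist_self]; positivity⟩
  -- the ratio
  have hratio : ρ' / zb.1.im ≤ 2 ^ c1 / b1 * ((2 : ℝ) ^ l) ^ (1 - s) := by
    have h1 : b1 * (r ^ (1 - s) * (2 ^ l * r) ^ s) ≤ zb.1.im := by
      refine le_trans ?_ hlo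
      gcongr
    have h2 : r ^ (1 - s) * (2 ^ l * r) ^ s = ((2 : ℝ) ^ l) ^ s * r := by
      rw [Real.mul_rpow (by positivity) hr0.le]
      have : r ^ (1 - s) * r ^ s = r := by
        rw [← Real.rpow_add hr0, sub_add_cancel, Real.rpow_one]
      calc r ^ (1 - s) * (((2 : ℝ) ^ l) ^ s * r ^ s) = ((2 : ℝ) ^ l) ^ s * (r ^ (1 - s) * r ^ s) := by
            ring
        _ = _ := by rw [this]
    rw [h2] at h1
    have h3 : ((2 : ℝ) ^ l) ^ (1 - s) * ((2 : ℝ) ^ l) ^ s = 2 ^ l := by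
      rw [← Real.rpow_add (by positivity), sub_add_cancel, Real.rpow_one]
    rw [div_le_iff₀ htb0]
    calc ρ' = 2 ^ c1 / b1 * ((2 : ℝ) ^ l) ^ (1 - s) * (b1 * (((2 : ℝ) ^ l) ^ s * r)) := by
          rw [e1]
          have : 2 ^ c1 / b1 * ((2 : ℝ) ^ l) ^ (1 - s) * (b1 * (((2 : ℝ) ^ l) ^ s * r)) =
            2 ^ c1 * (b1 / b1) * (((2 : ℝ) ^ l) ^ (1 - s) * ((2 : ℝ) ^ l) ^ s) * r := by ring
          rw [this, h3, div_self hb1.ne']
          ring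
      _ ≤ _ := by gcongr
  have hpow : (ρ' / zb.1.im) ^ p0 ≤ (2 ^ c1 / b1) ^ p0 * bet ^ l := by
    calc (ρ' / zb.1.im) ^ p0 ≤ (2 ^ c1 / b1 * ((2 : ℝ) ^ l) ^ (1 - s)) ^ p0 := by gcongr
      _ = (2 ^ c1 / b1) ^ p0 * ((2 : ℝ) ^ l) ^ ((1 - s) * p0) := by
        rw [Real.mul_rpow (by positivity) (by positivity), ← Real.rpow_mul (by positivity)]
      _ ≤ (2 ^ c1 / b1) ^ p0 * ((2 : ℝ) ^ l) ^ ((1 : ℝ) / 9) := by
        have h1 : (1 : ℝ) ≤ 2 ^ l := one_le_pow₀ (by norm_num)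
        have h2 := X.sp
        gcongr
      _ = (2 ^ c1 / b1) ^ p0 * bet ^ l := by
        congr 1
        unfold bet
        rw [← Real.rpow_natCast, ← Real.rpow_natCast, ← Real.rpow_mul (by norm_num),
          ← Real.rpow_mul (by norm_num), mul_comm]
  have hKw := Kw_one (κ := kap) (κ₁ := 0) (C := 2 * C1 + 3) (C₁ := C1) le_rfl X.kap0 X.C10
    (by linarith [X.C10])
  refine ⟨l, ?_, f7, ?_, ?_, ?_⟩
  · rcases le_or_gt r |x| with h1 | h1
    · right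
      rwa [hX₀, max_eq_right h1] at hl1
    · left
      rw [hX₀, max_eq_left h1.le] at hl1
      have h2 : (2 : ℝ) ^ l ≤ 2 ^ 0 := by
        have : (2 : ℝ) ^ l * r ≤ 1 * r := by linarith
        simpa using le_of_mul_le_mul_right this hr0
      have := (pow_le_pow_iff_right₀ (one_lt_two (α := ℝ))).mp h2
      omega
  · obtain ⟨e', he', hde'⟩ := hP.2.2
    refine ⟨htb0, by linarith, ?_, e', he', ?_⟩
    · have h1 : zb.2.im = 0 := by simp [hzb]
      rw [h1, abs_zero]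
      exact mul_pos X.kap0 htb0
    · refine hde'.trans_lt ?_
      have : C1 * zb.1.im + (C1 + 3) * zb.1.im = (2 * C1 + 3) * zb.1.im := by ring
      have : 0 < (C1 + 3) * zb.1.im := by positivity
      linarith
  · have key : ∀ g' : ℂ × ℂ → ℂ, LogOm (Sw kap (2 * C1 + 3) h A) g' →
        1 + max (g' zb).re 0 ≤ BB kap C1 b1 c1 * bet ^ l * (1 + max (g' (pt e ρ')).re 0) := by
      intro g' hg'
      have h1 := saw_pos (κ := kap) (κ₁ := 0) (C := 2 * C1 + 3) (C₁ := C1) le_rfl X.kap0 X.C10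
        (by linarith) hg' (hax ρ' hρ'0) hP (ρ := ρ') f5a (by simp) hup' (hdist ρ')
      rw [pt_1im, div_self hρ'0.ne', Real.one_rpow, mul_one] at h1
      refine h1.trans ?_
      have h2 : Kw kap 0 (2 * C1 + 3) C1 * (ρ' / zb.1.im) ^ p0 ≤ BB kap C1 b1 c1 * bet ^ l := by
        unfold BB
        rw [mul_assoc]
        gcongr
      gcongr
    intro σ hσ
    rw [← f6]
    rcases hσ with rfl | rfl
    · simpa only [one_mul] using key g X.log
    · have := key _ X.log.neg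
      simpa only [neg_mul, one_mul, neg_re] using this
  · have h1 := (saw_chain (κ := kap) (κ₁ := 0) (C := 2 * C1 + 3) (C₁ := C1) le_rfl X.kap0 X.C10
      (by linarith) X.log (hax r hr0) hP (ρ := ρ') f5a (by simpa using hrr') hup' (hdist r)).1
    refine h1.trans ?_
    rw [pt_1im]
    have h2 : ρ' / r = 2 ^ c1 * 2 ^ l := by
      rw [e1]
      field_simp
    rw [h2, Real.mul_rpow (by positivity) (by positivity)]
    have h3 : ((2 : ℝ) ^ l) ^ p0 = (2 ^ p0) ^ l := by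
      rw [← Real.rpow_natCast, ← Real.rpow_natCast, ← Real.rpow_mul (by norm_num),
          ← Real.rpow_mul (by norm_num), mul_comm]
    rw [h3]
    have h4 : Kw kap 0 (2 * C1 + 3) C1 * ((2 ^ c1) ^ p0 * (2 ^ p0) ^ l) * (ρ' / zb.1.im) ^ p0 ≤
        BB kap C1 b1 c1 * (2 ^ c1) ^ p0 * (2 ^ p0 * bet) ^ l := by
      calc Kw kap 0 (2 * C1 + 3) C1 * ((2 ^ c1) ^ p0 * (2 ^ p0) ^ l) * (ρ' / zb.1.im) ^ p0
          ≤ Kw kap 0 (2 * C1 + 3) C1 * ((2 ^ c1) ^ p0 * (2 ^ p0) ^ l) *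
            ((2 ^ c1 / b1) ^ p0 * bet ^ l) := by gcongr
        _ = _ := by
          unfold BB
          rw [mul_pow]
          ring
    gcongr

end

end Vale.Agent.P097.H264
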