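import Vale.Agent.P097.H264.Core1

/-!
The core of GQ, part 2: bounds at the targets.
-/

open Complex Metric Filter Topology Set Finset
open Vale.Agent.P097.TC

namespace Vale.Agent.P097.H264

/-- composition with a disc -/
theorem comp_dc {φ : ℂ × ℂ → ℂ} {O : Set (ℂ × ℂ)} (hO : IsOpen O) (hφ : DifferentiableOn ℂ φ O)
    {μ : ℂ → ℂ} {ρd : ℝ} (hμ : DiffContOnCl ℂ μ (H226.HD ρd)) {c : ℂ}
    (h : ∀ w : ℂ, ‖w‖ ≤ ρd → 0 ≤ w.im → (μ w, c + w) ∈ O) :
    DiffContOnCl ℂ (fun w => φ (μ w, c + w)) (H226.HD ρd) := by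
  refine ⟨?_, ?_⟩
  · intro w hw
    have h1 : DifferentiableAt ℂ μ w := hμ.differentiableAt H226.HD_open hw
    have h2 : DifferentiableAt ℂ (fun w : ℂ => (μ w, c + w)) w :=
      h1.prodMk ((differentiableAt_const c).add differentiableAt_id)
    have h3 : DifferentiableAt ℂ φ (μ w, c + w) :=
      hφ.differentiableAt (hO.mem_nhds (h w hw.1.le hw.2.le))
    exact (DifferentiableAt.comp w (g := φ) (f := fun w : ℂ => (μ w, c + w)) h3
      h2).differentiableWithinAt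
  · refine hφ.continuousOn.comp (hμ.continuousOn.prodMk (by fun_prop)) ?_
    intro w hw
    obtain ⟨h1, h2⟩ := H226.HD_closure hw
    exact h w h1 h2

theorem frontier_cases {ρd : ℝ} {ζ : ℂ} (h : ζ ∈ frontier (H226.HD ρd)) :
    (∃ x : ℝ, |x| ≤ ρd ∧ ζ = (x : ℂ)) ∨ (‖ζ‖ = ρd ∧ 0 ≤ ζ.im) := by
  obtain ⟨h1, h2, h3⟩ := H226.HD_frontier h
  rcases h3 with h3 | h3
  · left
    have e1 : ζ = (ζ.re : ℂ) := by
      apply Complex.ext <;> simp [h3]
    refine ⟨ζ.re, ?_, e1⟩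
    rw [e1, Complex.norm_real, Real.norm_eq_abs] at h1
    exact h1
  · exact Or.inr ⟨h3, h2⟩

/-- constants of a compact set of the quadrant tube -/
theorem cpt_Qd {W : Set (ℂ × ℂ)} (hWc : IsCompact W) (hWs : W ⊆ Tc H226.Qd) :
    ∃ C q : ℝ, 1 ≤ C ∧ 0 < q ∧ q ≤ 1 ∧ ∀ z ∈ W, ‖z.1‖ ≤ C ∧ ‖z.2‖ ≤ C ∧ q ≤ z.1.im ∧ q ≤ z.2.im := by
  obtain ⟨C, hC0, hC⟩ := hWc.isBounded.exists_pos_norm_le
  rcases W.eq_empty_or_nonempty with he | hne
  · exact ⟨1, 1, le_rfl, one_pos, le_rfl, by rw [he]; simp⟩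
  have hc : ContinuousOn (fun z : ℂ × ℂ => min z.1.im z.2.im) W := by fun_prop
  obtain ⟨z₀, hz₀, hmin⟩ := hWc.exists_isMinOn hne hc
  have h0 := hWs hz₀
  have hpos : 0 < min z₀.1.im z₀.2.im := lt_min h0.1 h0.2
  refine ⟨max C 1, min (min z₀.1.im z₀.2.im) 1, le_max_right _ _, lt_min hpos one_pos,
    min_le_right _ _, fun z hz => ?_⟩
  have h1 : min z₀.1.im z₀.2.im ≤ min z.1.im z.2.im := hmin hz
  have h2 := hC z hz
  refine ⟨((norm_fst_le z).trans h2).trans (le_max_left _ _),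
    ((norm_snd_le z).trans h2).trans (le_max_left _ _), ?_, ?_⟩
  · exact (min_le_left _ _).trans (h1.trans (min_le_left _ _))
  · exact (min_le_left _ _).trans (h1.trans (min_le_right _ _))

/-- the sum of one sign, shifted -/
theorem sg_shift {V : ℕ → ℝ} {σ : ℝ} {n c1 : ℕ} (hc : c1 ≤ n) :
    ∑ j ∈ range (n + 1 - c1), tht ^ (j + c1) * max (σ * V (n - (j + c1))) 0 ≤ Sg V σ n := by
  have ht := tht_pos
  have e1 : Sg V σ n = ∑ i ∈ range (n + 1), tht ^ i * max (σ * V (n - i)) 0 := by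
    unfold Sg
    rw [← Finset.sum_range_reflect]
    apply Finset.sum_congr rfl
    intro i hi
    have hi' : i ≤ n := by
      have := Finset.mem_range.mp hi
      omega
    have e2 : n + 1 - 1 - i = n - i := by omega
    have e3 : n - (n - i) = i := by omega
    rw [e2, e3]
    rfl
  rw [e1]
  have e4 : ∑ j ∈ range (n + 1 - c1), tht ^ (j + c1) * max (σ * V (n - (j + c1))) 0 =
      ∑ i ∈ Finset.Ico c1 (n + 1), tht ^ i * max (σ * V (n - i)) 0 := by
    rw [Finset.sum_Ico_eq_sum_range]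
    apply Finset.sum_congr rfl
    intro j _
    rw [add_comm j c1]
  rw [e4]
  apply Finset.sum_le_sum_of_subset_of_nonneg
  · intro i hi
    rw [Finset.mem_Ico] at hi
    exact Finset.mem_range.mpr hi.2
  · intro i _ _
    positivity

theorem sg_term {V : ℕ → ℝ} {σ K : ℝ} {n c1 : ℕ} (hc : c1 ≤ n) (h : Sg V σ n ≤ K) :
    max (σ * V (n - c1)) 0 ≤ K / tht ^ c1 := by
  have ht := tht_pos
  rw [le_div_iff₀ (by positivity), mul_comm]
  refine le_trans ?_ ((sg_shift (V := V) (σ := σ) hc).trans h)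
  have h1 : 0 ∈ range (n + 1 - c1) := Finset.mem_range.mpr (by omega)
  have := Finset.single_le_sum (f := fun j => tht ^ (j + c1) * max (σ * V (n - (j + c1))) 0)
    (fun j _ => by positivity) h1
  simpa using this

/-- the sum of the majorant -/
theorem sg_sum {V : ℕ → ℝ} {σ K B : ℝ} {n c1 : ℕ} (hc : c1 ≤ n) (h : Sg V σ n ≤ K) (hB : 0 ≤ B) :
    ∑ j ∈ range (n + 1 - c1), (B * bet ^ j * (1 + max (σ * V (n - (j + c1))) 0)) * (1 / 2) ^ j ≤
      B * (3 + K / tht ^ c1) := by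
  have ht := tht_pos
  have hb := bet_pos
  have e1 : ∀ j, (B * bet ^ j * (1 + max (σ * V (n - (j + c1))) 0)) * (1 / 2) ^ j =
      B * ((bet / 2) ^ j + (bet / 2) ^ j * max (σ * V (n - (j + c1))) 0) := by
    intro j
    rw [div_pow, div_pow, one_pow]
    ring
  simp_rw [e1]
  rw [← Finset.mul_sum, Finset.sum_add_distrib]
  gcongr
  · exact geom3 (by positivity) bet_third _
  · rw [le_div_iff₀ (by positivity), Finset.sum_mul]
    refine le_trans (Finset.sum_le_sum fun j _ => ?_) ((sg_shift (V := V) (σ := σ) hc).trans h)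
    have h1 : (bet / 2) ^ j ≤ tht ^ j := pow_le_pow_left₀ (by positivity) bet_tht j
    have h2 : 0 ≤ max (σ * V (n - (j + c1))) 0 := le_max_right _ _
    calc (bet / 2) ^ j * max (σ * V (n - (j + c1))) 0 * tht ^ c1
        ≤ tht ^ j * max (σ * V (n - (j + c1))) 0 * tht ^ c1 := by gcongr
      _ = _ := by rw [pow_add]; ring

end Vale.Agent.P097.H264
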