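import Vale.Agent.P097.H264.Core2

/-!
The core of GQ, part 3: the theorem.
-/

open Complex Metric Filter Topology Set Finset
open Vale.Agent.P097.TC

namespace Vale.Agent.P097.H264

theorem pow_kk {P Q : ℝ} (hP : 0 ≤ P) (hQ : 2 ^ P ≤ Q) (m kk : ℕ) {x : ℝ} (hx0 : 0 ≤ x)
    (hx : x ≤ 2 ^ m * 2 ^ kk) : x ^ P ≤ ((2 : ℝ) ^ m) ^ P * Q ^ kk := by
  calc x ^ P ≤ ((2 : ℝ) ^ m * 2 ^ kk) ^ P := by gcongr
    _ = ((2 : ℝ) ^ m) ^ P * ((2 : ℝ) ^ P) ^ kk := by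
      rw [Real.mul_rpow (by positivity) (by positivity)]
      congr 1
      rw [← Real.rpow_natCast, ← Real.rpow_natCast, ← Real.rpow_mul (by norm_num),
        ← Real.rpow_mul (by norm_num), mul_comm]
    _ ≤ ((2 : ℝ) ^ m) ^ P * Q ^ kk := by gcongr

theorem exp_form {BA Q : ℝ} (hBA : 1 ≤ BA) (hQ : 1 ≤ Q) (j : ℕ) :
    BA * Q ^ j ≤ Real.exp (Real.log BA + ((j : ℝ) + 1) * Real.log Q) := by
  have hlogQ : 0 ≤ Real.log Q := Real.log_nonneg hQ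
  rw [Real.exp_add, Real.exp_log (by linarith)]
  have : Q ^ j ≤ Real.exp (((j : ℝ) + 1) * Real.log Q) := by
    calc Q ^ j = Real.exp ((j : ℝ) * Real.log Q) := by
          rw [mul_comm, ← Real.rpow_def_of_pos (by linarith), Real.rpow_natCast]
      _ ≤ _ := Real.exp_le_exp.mpr (by nlinarith)
  gcongr

/-- polynomial growth at the boundary gives a bound at the centre -/
theorem disc_poly {f : ℂ → ℂ} {ρ r BA Q C7 : ℝ} (hr : 0 < r) (hf : DiffContOnCl ℂ f (H226.HD ρ))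
    (hBA : 1 ≤ BA) (hQ : 1 ≤ Q) {n : ℕ}
    (hb : ∀ ζ ∈ frontier (H226.HD ρ), ∃ k ≤ n, (k = 0 ∨ 2 ^ k * r ≤ ‖ζ‖) ∧ ‖f ζ‖ ≤ BA * Q ^ k)
    {w : ℂ} (hw : w ∈ closure (H226.HD ρ)) (hwr : ‖w‖ ≤ C7 * r) :
    ‖f w‖ ≤ Real.exp (Real.log BA + 2 * C7 * (4 * Real.log Q)) := by
  have hlogQ : 0 ≤ Real.log Q := Real.log_nonneg hQ
  have hlogB : 0 ≤ Real.log BA := Real.log_nonneg hBA
  set a : ℕ → ℝ := fun i => if i = 0 then Real.log BA else i * Real.log Q with ha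
  have ha0 : a 0 = Real.log BA := by simp [ha]
  have ha1 : ∀ j : ℕ, a (j + 1) = ((j : ℝ) + 1) * Real.log Q := by
    intro j
    simp [ha]
  have han : ∀ i, 0 ≤ a i := by
    intro i
    rcases Nat.eq_zero_or_pos i with rfl | hi
    · rw [ha0]; exact hlogB
    · obtain ⟨j, rfl⟩ : ∃ j, i = j + 1 := ⟨i - 1, by omega⟩
      rw [ha1]
      positivity
  have hmain := H226.disc_major hr hf han (n := n + 1) (fun ζ hζ => by
    obtain ⟨k, hk, hk2, hk3⟩ := hb ζ hζ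
    rcases hk2 with rfl | hk2
    · left
      rw [pow_zero, mul_one] at hk3
      rw [ha0, Real.exp_log (by linarith)]
      exact hk3
    · right
      refine ⟨k, by omega, hk2, ?_⟩
      rw [ha0, ha1]
      exact hk3.trans (exp_form hBA hQ k)) hw
  refine hmain.trans (Real.exp_le_exp.mpr ?_)
  rw [ha0]
  have h1 : ∑ k ∈ range (n + 1), a (k + 1) * (1 / 2) ^ k ≤ 4 * Real.log Q := by
    have h2 : ∑ k ∈ range (n + 1), a (k + 1) * (1 / 2) ^ k =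
        (∑ k ∈ range (n + 1), ((k : ℝ) + 1) * (1 / 2) ^ k) * Real.log Q := by
      rw [Finset.sum_mul]
      apply Finset.sum_congr rfl
      intro k _
      rw [ha1]
      ring
    rw [h2]
    have := lin4 (n + 1)
    gcongr
  have h2 : ‖w‖ / r ≤ C7 := by rw [div_le_iff₀ hr]; exact hwr
  have h3 : 0 ≤ ∑ k ∈ range (n + 1), a (k + 1) * (1 / 2) ^ k :=
    Finset.sum_nonneg fun k _ => mul_nonneg (han _) (by positivity)
  have h4 : 0 ≤ ‖w‖ / r := by positivity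
  have h6 : 0 ≤ C7 := h4.trans h2
  have h5 : 2 * (‖w‖ / r) * ∑ k ∈ range (n + 1), a (k + 1) * (1 / 2) ^ k ≤
      2 * C7 * (4 * Real.log Q) := by gcongr
  linarith

section
variable {F : ℂ → ℂ} {al p th : ℂ × ℂ → ℂ} {A : Set (ℝ × ℝ)} {e : ℝ × ℝ}
  {kap C1 C7 b1 s h h₀ ρd : ℝ} {c1 : ℕ} {M : ℝ}

/-- the direction in terms of `g` -/
theorem al_g {z z' : ℂ × ℂ} (h1 : ‖F (th z)‖ ≤ M) (h2 : ‖F (th z')‖ ≤ M) :
    ‖al z - al z'‖ ≤ ‖2 * I * (al z - F (th z)) - 2 * I * (al z' - F (th z'))‖ / 2 + 2 * M := by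
  have e1 : al z - al z' = (2 * I * (al z - F (th z)) - 2 * I * (al z' - F (th z'))) / (2 * I) +
      (F (th z) - F (th z')) := by
    have : (2 * I : ℂ) ≠ 0 := by simp
    field_simp
    ring
  rw [e1]
  refine (norm_add_le _ _).trans ?_
  rw [norm_div]
  have e2 : ‖(2 * I : ℂ)‖ = 2 := by simp
  rw [e2]
  have := norm_sub_le (F (th z)) (F (th z'))
  linarith

theorem re_g (z : ℂ × ℂ) : (2 * I * (al z - F (th z))).re = 2 * ((F (th z)).im - (al z).im) := by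
  simp
  ring

/-- the constants of the exponential growth -/
noncomputable def QQ (kap C1 : ℝ) : ℝ := 2 ^ pw kap 0 (2 * C1 + 3) C1 * bet

/-- axis points are in the sawtooth -/
theorem Ctx.ax {g : ℂ × ℂ → ℂ} (X : Ctx A e g kap C1 C7 b1 s h h₀ ρd c1) {t : ℝ} (ht : 0 < t)
    (hth : t < h) : pt e t ∈ Sw kap (2 * C1 + 3) h A := by
  have hC1 := X.C10
  refine ⟨by simpa using ht, by simpa using hth, ?_, e, X.he, ?_⟩
  · simp only [pt_2im, pt_1im, abs_zero]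
    exact mul_pos X.kap0 ht
  · simp only [pt_1re, pt_2re, pt_1im, Prod.mk.eta, dist_self]
    positivity

theorem Ctx.axP {g : ℂ × ℂ → ℂ} (X : Ctx A e g kap C1 C7 b1 s h h₀ ρd c1) {t : ℝ} (ht : 0 < t) :
    Pt 0 C1 A (pt e t) := by
  have hC1 := X.C10
  exact pt_Pt le_rfl ht ⟨e, X.he, by rw [dist_self]; positivity⟩

theorem Ctx.QQ1 {g : ℂ × ℂ → ℂ} (X : Ctx A e g kap C1 C7 b1 s h h₀ ρd c1) : 1 ≤ QQ kap C1 := by
  unfold QQ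
  exact one_le_mul_of_one_le_of_one_le (Real.one_le_rpow (by norm_num) X.pw0) bet_one

theorem QQ2 (kap C1 : ℝ) : 2 ^ pw kap 0 (2 * C1 + 3) C1 ≤ QQ kap C1 := by
  unfold QQ
  have : (0 : ℝ) < 2 ^ pw kap 0 (2 * C1 + 3) C1 := by positivity
  nlinarith [bet_one]

theorem Ctx.Kc1 {g : ℂ × ℂ → ℂ} (X : Ctx A e g kap C1 C7 b1 s h h₀ ρd c1) :
    1 ≤ Kw kap 0 (2 * C1 + 3) C1 :=
  Kw_one le_rfl X.kap0 X.C10 (by linarith [X.C10])

/-- the constant of `al_bd` -/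
noncomputable def BA (al : ℂ × ℂ → ℂ) (e : ℝ × ℝ) (kap C1 b1 ρd M Ma K' : ℝ) (c1 : ℕ) : ℝ :=
  1 + BB kap C1 b1 c1 * (2 ^ c1) ^ pw kap 0 (2 * C1 + 3) C1 * (1 + K') + 2 * M + |Ma| +
    ‖al (pt e (2 ^ c1 * ρd))‖ + 2 * M +
    Kw kap 0 (2 * C1 + 3) C1 * (2 ^ (c1 + 1)) ^ pw kap 0 (2 * C1 + 3) C1 * (1 + K')

theorem al_real (X : Ctx A e (fun z => 2 * I * (al z - F (th z))) kap C1 C7 b1 s h h₀ ρd c1)
    {k R δ : ℝ} (hM0 : 0 ≤ M)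
    (hM : ∀ z ∈ Sw kap (2 * C1 + 3) h A, ‖F (th z)‖ ≤ M) {Ma : ℝ}
    {K' : ℝ} (hK' : 0 ≤ K') {n : ℕ} (hn : h₀ / 2 ^ n ≤ ρd) (hrh : h₀ / 2 ^ n < h)
    (hVn : |Vx F al th e h₀ n| ≤ K') {z : ℂ × ℂ} {μ : ℂ → ℂ}
    (D : H226.DiscT A e k R δ ρd C1 C7 b1 s (h₀ / 2 ^ n) z μ) {x : ℝ} (hx : |x| ≤ ρd) :
    ∃ l ≤ n, (l = 0 ∨ 2 ^ l * (h₀ / 2 ^ n) ≤ |x|) ∧
      ‖al (μ x, (e.2 : ℂ) + x) - al (pt e (h₀ / 2 ^ n))‖ ≤
        BA al e kap C1 b1 ρd M Ma K' c1 * QQ kap C1 ^ l := by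
  obtain ⟨l, hl, hln, hSw, -, hg2⟩ := X.bd rfl D hn hx
  refine ⟨l, by omega, hl, ?_⟩
  have hr0 : 0 < h₀ / 2 ^ n := by have := X.h0; positivity
  have hrS := X.ax hr0 hrh
  have hQ1 := X.QQ1
  have hBB := X.BB0
  have hVn' : |(2 * I * (al (pt e (h₀ / 2 ^ n)) - F (th (pt e (h₀ / 2 ^ n))))).re| ≤ K' := hVn
  have hKc := X.Kc1
  have h4 := al_g (al := al) (hM _ hSw) (hM _ hrS)
  set P := pw kap 0 (2 * C1 + 3) C1 with hP
  set Q := QQ kap C1 with hQ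
  set T := BB kap C1 b1 c1 * (2 ^ c1) ^ P * (1 + K') with hT
  have hT0 : 0 ≤ T := by positivity
  have hQl : 1 ≤ Q ^ l := one_le_pow₀ hQ1
  have h5 : ‖2 * I * (al (μ x, (e.2 : ℂ) + x) - F (th (μ x, (e.2 : ℂ) + x))) -
      2 * I * (al (pt e (h₀ / 2 ^ n)) - F (th (pt e (h₀ / 2 ^ n))))‖ ≤ T * Q ^ l := by
    refine hg2.trans ?_
    have e1 : T * Q ^ l = BB kap C1 b1 c1 * (2 ^ c1) ^ P * Q ^ l * (1 + K') := by rw [hT]; ring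
    rw [e1]
    have e2 : (2 ^ P * bet) ^ l = Q ^ l := rfl
    rw [e2]
    gcongr
  have t2 : 0 ≤ Kw kap 0 (2 * C1 + 3) C1 * ((2 : ℝ) ^ (c1 + 1)) ^ P * (1 + K') := by positivity
  have t3 := norm_nonneg (al (pt e (2 ^ c1 * ρd)))
  have t4 := abs_nonneg Ma
  have h7 : T + 2 * M ≤ BA al e kap C1 b1 ρd M Ma K' c1 := by
    unfold BA
    rw [← hP, ← hT]
    linarith
  have h8 : 0 ≤ T * Q ^ l := by positivity
  calc ‖al (μ x, (e.2 : ℂ) + x) - al (pt e (h₀ / 2 ^ n))‖ ≤ T * Q ^ l / 2 + 2 * M := by linarith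
    _ ≤ T * Q ^ l + 2 * M * Q ^ l := by nlinarith
    _ = (T + 2 * M) * Q ^ l := by ring
    _ ≤ _ := by gcongr

theorem al_arc (X : Ctx A e (fun z => 2 * I * (al z - F (th z))) kap C1 C7 b1 s h h₀ ρd c1)
    (hM0 : 0 ≤ M) (hM : ∀ z ∈ Sw kap (2 * C1 + 3) h A, ‖F (th z)‖ ≤ M) {Ma : ℝ}
    {K' : ℝ} (hK' : 0 ≤ K') {n : ℕ} (hn : h₀ / 2 ^ n ≤ ρd) (hrh : h₀ / 2 ^ n < h)
    (hVn : |Vx F al th e h₀ n| ≤ K') {y : ℂ} (hy : ‖y‖ ≤ Ma) :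
    ∃ l ≤ n, 2 ^ l * (h₀ / 2 ^ n) ≤ ρd ∧
      ‖y - al (pt e (h₀ / 2 ^ n))‖ ≤ BA al e kap C1 b1 ρd M Ma K' c1 * QQ kap C1 ^ l := by
  have hh₀ := X.h0
  have hρd := X.ρd0
  set r := h₀ / 2 ^ n with hr
  have hr0 : 0 < r := by positivity
  have hrn : h₀ = 2 ^ n * r := by rw [hr]; field_simp
  have hc11 : (1 : ℝ) ≤ 2 ^ c1 := one_le_pow₀ (by norm_num)
  have hρ0 : ρd ≤ h₀ := by
    refine le_trans ?_ X.ρh₀
    nlinarith
  have hrS := X.ax hr0 hrh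
  have hQ1 := X.QQ1
  have hBB := X.BB0
  have hVn' : |(2 * I * (al (pt e r) - F (th (pt e r)))).re| ≤ K' := hVn
  have hKc := X.Kc1
  obtain ⟨kk, hk1, hk2⟩ := exists_nat_pow_near (x := ρd / r) (y := (2 : ℝ))
    (by rw [le_div_iff₀ hr0]; linarith) one_lt_two
  rw [le_div_iff₀ hr0] at hk1
  rw [div_lt_iff₀ hr0] at hk2
  refine ⟨kk, ?_, hk1, ?_⟩
  · have h3 : (2 : ℝ) ^ kk ≤ 2 ^ n := by
      have : (2 : ℝ) ^ kk * r ≤ 2 ^ n * r := by rw [← hrn]; linarith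
      exact le_of_mul_le_mul_right this hr0
    exact (pow_le_pow_iff_right₀ (one_lt_two (α := ℝ))).mp h3
  set h₂ := 2 ^ c1 * ρd with hh₂
  have hh₂0 : 0 < h₂ := by positivity
  have hrh₂ : r ≤ h₂ := by
    rw [hh₂]
    nlinarith
  have hρh := X.ρh
  have hhp := X.hpos
  have h3 := (saw_chain (κ := kap) (κ₁ := 0) (C := 2 * C1 + 3) (C₁ := C1) le_rfl X.kap0 X.C10
    (by linarith [X.C10]) X.log (X.axP hr0) (X.axP hh₂0) (ρ := h₂) (by linarith)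
    (by simpa using hrh₂) (by simp) (by simpa using hh₂0.le)).1
  rw [pt_1im, pt_1im, div_self hh₂0.ne', Real.one_rpow, mul_one] at h3
  have h6 := al_g (al := al) (hM _ (X.ax hh₂0 (by linarith))) (hM _ hrS)
  set P := pw kap 0 (2 * C1 + 3) C1 with hP
  set Q := QQ kap C1 with hQ
  have h4 : h₂ / r ≤ 2 ^ (c1 + 1) * 2 ^ kk := by
    rw [div_le_iff₀ hr0, hh₂, pow_succ]
    rw [pow_succ] at hk2
    have h5 : ρd ≤ 2 ^ kk * 2 * r := hk2.le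
    calc 2 ^ c1 * ρd ≤ 2 ^ c1 * (2 ^ kk * 2 * r) := by gcongr
      _ = _ := by ring
  have h5 := pow_kk X.pw0 (QQ2 kap C1) (c1 + 1) kk (x := h₂ / r) (by positivity) h4
  rw [← hP, ← hQ] at h5
  have h7 : ‖2 * I * (al (pt e h₂) - F (th (pt e h₂))) - 2 * I * (al (pt e r) - F (th (pt e r)))‖ ≤
      Kw kap 0 (2 * C1 + 3) C1 * (2 ^ (c1 + 1)) ^ P * (1 + K') * Q ^ kk := by
    refine h3.trans ?_
    calc Kw kap 0 (2 * C1 + 3) C1 * (h₂ / r) ^ P * (1 + |(2 * I * (al (pt e r) -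
          F (th (pt e r)))).re|)
        ≤ Kw kap 0 (2 * C1 + 3) C1 * (((2 : ℝ) ^ (c1 + 1)) ^ P * Q ^ kk) * (1 + K') := by gcongr
      _ = _ := by ring
  have hQl : 1 ≤ Q ^ kk := one_le_pow₀ hQ1
  have h8 : ‖al (pt e r)‖ ≤ ‖al (pt e h₂)‖ + ‖al (pt e h₂) - al (pt e r)‖ := by
    have := norm_sub_le (al (pt e h₂)) (al (pt e h₂) - al (pt e r))
    rwa [sub_sub_cancel] at this
  set T := Kw kap 0 (2 * C1 + 3) C1 * (2 ^ (c1 + 1)) ^ P * (1 + K') with hT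
  have hT0 : 0 ≤ T := by positivity
  have h9 : ‖y - al (pt e r)‖ ≤ |Ma| + (‖al (pt e h₂)‖ + (T * Q ^ kk / 2 + 2 * M)) := by
    refine (norm_sub_le _ _).trans (add_le_add (hy.trans (le_abs_self _)) ?_)
    linarith
  have h10 : 0 ≤ T * Q ^ kk := by positivity
  have t1 : 0 ≤ BB kap C1 b1 c1 * (2 ^ c1) ^ P * (1 + K') := by positivity
  have h12 : |Ma| + ‖al (pt e h₂)‖ + 2 * M + T ≤ BA al e kap C1 b1 ρd M Ma K' c1 := by
    unfold BA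
    rw [← hP, ← hT, ← hh₂]
    linarith
  have h11 : 0 ≤ |Ma| + ‖al (pt e h₂)‖ + 2 * M := by positivity
  calc ‖y - al (pt e r)‖ ≤ (|Ma| + ‖al (pt e h₂)‖ + 2 * M) * 1 + T * Q ^ kk := by linarith
    _ ≤ (|Ma| + ‖al (pt e h₂)‖ + 2 * M) * Q ^ kk + T * Q ^ kk := by gcongr
    _ = (|Ma| + ‖al (pt e h₂)‖ + 2 * M + T) * Q ^ kk := by ring
    _ ≤ _ := by gcongr

/-- **bound of the direction at the targets** -/
theorem al_bd (X : Ctx A e (fun z => 2 * I * (al z - F (th z))) kap C1 C7 b1 s h h₀ ρd c1)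
    {O : Set (ℂ × ℂ)} (hO : IsOpen O) (hal : DifferentiableOn ℂ al O) {k R δ : ℝ}
    (hT2 : H226.T2 k R e ⊆ O)
    (hM : ∀ z ∈ Sw kap (2 * C1 + 3) h A, ‖F (th z)‖ ≤ M) {Ma : ℝ}
    (hMa : ∀ z ∈ H226.T2c k (R / 2) δ e, ‖al z‖ ≤ Ma) {K' : ℝ} (hK' : 0 ≤ K') :
    ∃ M' : ℝ, 0 ≤ M' ∧ ∀ n : ℕ, h₀ / 2 ^ n ≤ ρd → |Vx F al th e h₀ n| ≤ K' →
      ∀ (z : ℂ × ℂ) (μ : ℂ → ℂ), H226.DiscT A e k R δ ρd C1 C7 b1 s (h₀ / 2 ^ n) z μ →
        ‖al z - al (pt e (h₀ / 2 ^ n))‖ ≤ M' := by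
  have hhp := X.hpos
  have hρd := X.ρd0
  have hM0 : 0 ≤ M := (norm_nonneg _).trans (hM _ (X.ax (t := h / 2) (by linarith) (by linarith)))
  have hQ1 := X.QQ1
  have hBB := X.BB0
  have hKc := X.Kc1
  have hBA1 : 1 ≤ BA al e kap C1 b1 ρd M Ma K' c1 := by
    unfold BA
    have t1 : 0 ≤ BB kap C1 b1 c1 * (2 ^ c1) ^ pw kap 0 (2 * C1 + 3) C1 * (1 + K') := by positivity
    have t2 : 0 ≤ Kw kap 0 (2 * C1 + 3) C1 * ((2 : ℝ) ^ (c1 + 1)) ^ pw kap 0 (2 * C1 + 3) C1 *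
      (1 + K') := by positivity
    have t3 := norm_nonneg (al (pt e (2 ^ c1 * ρd)))
    have t4 := abs_nonneg Ma
    linarith
  refine ⟨Real.exp (Real.log (BA al e kap C1 b1 ρd M Ma K' c1) + 2 * C7 *
    (4 * Real.log (QQ kap C1))), (Real.exp_pos _).le, ?_⟩
  intro n hn hVn z μ D
  have hr0 : 0 < h₀ / 2 ^ n := by have := X.h0; positivity
  have hrh : h₀ / 2 ^ n < h := by
    have h1 := X.ρh
    have : (1 : ℝ) ≤ 2 ^ c1 := one_le_pow₀ (by norm_num)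
    nlinarith
  have hfd : DiffContOnCl ℂ (fun w => al (μ w, (e.2 : ℂ) + w) - al (pt e (h₀ / 2 ^ n)))
      (H226.HD ρd) :=
    (comp_dc hO hal D.dc (fun w h1 h2 => hT2 (D.ins w h1 h2))).sub_const _
  obtain ⟨w, hw, hwr, hwz⟩ := D.tg
  have hmain := disc_poly (n := n) hr0 hfd hBA1 hQ1 (fun ζ hζ => by
    rcases frontier_cases hζ with ⟨x, hx, rfl⟩ | ⟨h1, h2⟩
    · obtain ⟨l, hl1, hl2, hl3⟩ := al_real X hM0 hM (Ma := Ma) hK' hn hrh hVn D hx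
      refine ⟨l, hl1, ?_, hl3⟩
      rw [Complex.norm_real, Real.norm_eq_abs]
      exact hl2
    · obtain ⟨l, hl1, hl2, hl3⟩ := al_arc X hM0 hM hK' hn hrh hVn (hMa _ (D.arc ζ h1 h2))
      exact ⟨l, hl1, Or.inr (by rw [h1]; exact hl2), hl3⟩) (subset_closure hw) hwr
  rwa [hwz] at hmain

end

end Vale.Agent.P097.H264
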