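import Vale.Agent.P097.H407.Hol

/-!
The implicit function theorem with a compact set of parameters and one fixed centre.
-/

open Complex Metric Filter Topology Set

namespace Vale.Agent.P097.H264

/-- local form: uniqueness in a product of balls, existence in smaller balls -/
theorem impl_local {G : ℂ × (ℂ × ℂ) → ℂ} {x₀ : ℂ} {k₀ : ℂ × ℂ} (hG : AnalyticAt ℂ G (x₀, k₀))
    (h0 : G (x₀, k₀) = 0) (hd : deriv (fun x => G (x, k₀)) x₀ ≠ 0) :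
    ∃ ρ > 0, (∀ k ∈ ball k₀ ρ, ∀ x ∈ ball x₀ ρ, ∀ y ∈ ball x₀ ρ, G (x, k) = G (y, k) → x = y) ∧
      (∀ k ∈ ball k₀ ρ, ∀ x ∈ ball x₀ ρ, deriv (fun x => G (x, k)) x ≠ 0) ∧
      ∀ ρ' > 0, ∃ δ > 0, ∃ ξ : ℂ × ℂ → ℂ, DifferentiableOn ℂ ξ (ball k₀ δ) ∧
        ∀ k ∈ ball k₀ δ, ξ k ∈ ball x₀ ρ' ∧ G (ξ k, k) = 0 := by
  set F : ℂ × (ℂ × ℂ) → ℂ × (ℂ × ℂ) := fun p => (G p, p.2) with hF
  have hFa : AnalyticAt ℂ F (x₀, k₀) := hG.prod analyticAt_snd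
  -- partial derivative
  have hpd : ∀ p : ℂ × (ℂ × ℂ), AnalyticAt ℂ G p →
      deriv (fun x => G (x, p.2)) p.1 = fderiv ℂ G p (1, 0) := by
    intro p hp
    have h1 : HasFDerivAt G (fderiv ℂ G p) (p.1, p.2) := hp.differentiableAt.hasFDerivAt
    have h2 : HasDerivAt (fun t : ℂ => (t, p.2)) ((1 : ℂ), (0 : ℂ × ℂ)) p.1 :=
      (hasDerivAt_id p.1).prodMk (hasDerivAt_const p.1 p.2)
    exact (HasFDerivAt.comp_hasDerivAt p.1 (f := fun t : ℂ => (t, p.2)) h1 h2).deriv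
  set T := fderiv ℂ G (x₀, k₀) with hT
  have hT1 : T (1, 0) ≠ 0 := by
    rw [hT, ← hpd _ hG]
    exact hd
  set M : ℂ × (ℂ × ℂ) →L[ℂ] ℂ × (ℂ × ℂ) := T.prod (ContinuousLinearMap.snd ℂ ℂ (ℂ × ℂ)) with hM
  have hinj : Function.Injective (M : ℂ × (ℂ × ℂ) →ₗ[ℂ] ℂ × (ℂ × ℂ)) := by
    rw [injective_iff_map_eq_zero]
    rintro ⟨a, b⟩ hab
    have h1 : T (a, b) = 0 := congrArg Prod.fst hab
    have h2 : b = 0 := congrArg Prod.snd hab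
    subst h2
    have hdec : ((a, 0) : ℂ × (ℂ × ℂ)) = a • ((1, 0) : ℂ × (ℂ × ℂ)) := by simp
    rw [hdec, map_smul, smul_eq_mul] at h1
    rw [(mul_eq_zero.1 h1).resolve_right hT1]
    rfl
  set L : (ℂ × (ℂ × ℂ)) ≃L[ℂ] (ℂ × (ℂ × ℂ)) :=
    (LinearEquiv.ofInjectiveEndo (M : ℂ × (ℂ × ℂ) →ₗ[ℂ] ℂ × (ℂ × ℂ)) hinj).toContinuousLinearEquiv
    with hL
  have hLM : (L : ℂ × (ℂ × ℂ) →L[ℂ] ℂ × (ℂ × ℂ)) = M := by
    ext <;> rfl
  have hFd : HasFDerivAt F (L : ℂ × (ℂ × ℂ) →L[ℂ] ℂ × (ℂ × ℂ)) (x₀, k₀) := by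
    rw [hLM]
    exact hG.differentiableAt.hasFDerivAt.prodMk hasFDerivAt_snd
  have hn : (⊤ : WithTop ℕ∞) ≠ 0 := by simp
  have hFc : ContDiffAt ℂ (⊤ : WithTop ℕ∞) F (x₀, k₀) := hFa.contDiffAt
  have hst : HasStrictFDerivAt F (L : ℂ × (ℂ × ℂ) →L[ℂ] ℂ × (ℂ × ℂ)) (x₀, k₀) :=
    hFc.hasStrictFDerivAt' hFd hn
  set Gi := hst.localInverse F L (x₀, k₀) with hGi
  have hGa : AnalyticAt ℂ Gi (F (x₀, k₀)) := (hFc.to_localInverse hFd hn).analyticAt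
  have hG0 : Gi (F (x₀, k₀)) = (x₀, k₀) := hst.localInverse_apply_image
  have hr : ∀ᶠ l in 𝓝 (F (x₀, k₀)), F (Gi l) = l := hst.eventually_right_inverse
  have hl : ∀ᶠ p in 𝓝 (x₀, k₀), Gi (F p) = p := hst.eventually_left_inverse
  have hF0 : F (x₀, k₀) = (0, k₀) := by simp [hF, h0]
  -- uniqueness
  have hder : ∀ᶠ p in 𝓝 (x₀, k₀), deriv (fun x => G (x, p.2)) p.1 ≠ 0 := by
    have h1 : ContinuousAt (fun p => fderiv ℂ G p (1, 0)) (x₀, k₀) := by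
      have := hG.fderiv.continuousAt
      exact this.clm_apply continuousAt_const
    have h2 : ∀ᶠ p in 𝓝 (x₀, k₀), fderiv ℂ G p (1, 0) ≠ 0 := h1.eventually_ne hT1
    filter_upwards [h2, hG.eventually_analyticAt] with p hp1 hp2
    rwa [hpd p hp2]
  obtain ⟨ρ, hρ, hball⟩ := Metric.eventually_nhds_iff_ball.mp (hl.and hder)
  have hmem : ∀ k ∈ ball k₀ ρ, ∀ x ∈ ball x₀ ρ, ((x, k) : ℂ × (ℂ × ℂ)) ∈ ball (x₀, k₀) ρ := by
    intro k hk x hx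
    rw [← ball_prod_same]
    exact ⟨hx, hk⟩
  refine ⟨ρ, hρ, ?_, ?_, ?_⟩
  · intro k hk x hx y hy hxy
    have h1 := (hball _ (hmem k hk x hx)).1
    have h2 := (hball _ (hmem k hk y hy)).1
    have h3 : F (x, k) = F (y, k) := by simp [hF, hxy]
    rw [h3, h2] at h1
    exact (congrArg Prod.fst h1).symm
  · intro k hk x hx
    exact (hball _ (hmem k hk x hx)).2
  · intro ρ' hρ'
    have hk : AnalyticAt ℂ (fun k : ℂ × ℂ => ((0 : ℂ), k)) k₀ := analyticAt_const.prod analyticAt_id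
    have hGk : AnalyticAt ℂ (fun k : ℂ × ℂ => (Gi (0, k)).1) k₀ := by
      have h1 : AnalyticAt ℂ (fun k : ℂ × ℂ => Gi (0, k)) k₀ := by
        have : AnalyticAt ℂ Gi ((fun k : ℂ × ℂ => ((0 : ℂ), k)) k₀) := by
          simpa [hF0] using hGa
        exact this.comp hk
      exact analyticAt_fst.comp h1
    have hval : (Gi (0, k₀)).1 = x₀ := by
      rw [← hF0, hG0]
    have e1 : ∀ᶠ k in 𝓝 k₀, (Gi (0, k)).1 ∈ ball x₀ ρ' := by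
      refine hGk.continuousAt.eventually ?_
      simp only
      rw [hval]
      exact ball_mem_nhds _ hρ'
    have e2 : ∀ᶠ k in 𝓝 k₀, F (Gi (0, k)) = (0, k) := by
      have : Tendsto (fun k : ℂ × ℂ => ((0 : ℂ), k)) (𝓝 k₀) (𝓝 (F (x₀, k₀))) := by
        rw [hF0]; exact hk.continuousAt.tendsto
      exact this.eventually hr
    obtain ⟨δ, hδ, hd'⟩ := Metric.eventually_nhds_iff_ball.mp
      (e1.and (e2.and hGk.eventually_analyticAt))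
    refine ⟨δ, hδ, fun k => (Gi (0, k)).1, fun k hk => ?_, fun k hk => ?_⟩
    · exact (hd' k hk).2.2.differentiableAt.differentiableWithinAt
    · obtain ⟨h1, h2, -⟩ := hd' k hk
      refine ⟨h1, ?_⟩
      have b1 : G (Gi (0, k)) = 0 := congrArg Prod.fst h2
      have b2 : (Gi (0, k)).2 = k := congrArg Prod.snd h2
      have b3 : ((Gi (0, k)).1, k) = Gi (0, k) := Prod.ext rfl b2.symm
      simp only
      rw [b3]
      exact b1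

/-- **compact form**: one ball round the fixed root `x₀`, one holomorphic simple root on a
neighbourhood of the compact set of parameters, unique in the ball -/
theorem impl_compact {G : ℂ × (ℂ × ℂ) → ℂ} {x₀ : ℂ} {K : Set (ℂ × ℂ)} (hK : IsCompact K)
    (hG : ∀ k ∈ K, AnalyticAt ℂ G (x₀, k)) (h0 : ∀ k ∈ K, G (x₀, k) = 0)
    (hd : ∀ k ∈ K, deriv (fun x => G (x, k)) x₀ ≠ 0) {r : ℝ} (hr : 0 < r) :
    ∃ N : Set (ℂ × ℂ), IsOpen N ∧ K ⊆ N ∧ ∃ ρ > 0, ρ ≤ r ∧ ∃ ξ : ℂ × ℂ → ℂ,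
      DifferentiableOn ℂ ξ N ∧ ∀ k ∈ N, ξ k ∈ ball x₀ ρ ∧ G (ξ k, k) = 0 ∧
        deriv (fun x => G (x, k)) (ξ k) ≠ 0 ∧ ∀ x ∈ ball x₀ ρ, G (x, k) = 0 → x = ξ k := by
  choose! ρ hρ hu hdr hex using fun k hk => impl_local (hG k hk) (h0 k hk) (hd k hk)
  obtain ⟨t, htK, hcov⟩ := hK.elim_nhds_subcover (fun k => ball k (ρ k))
    (fun k hk => ball_mem_nhds k (hρ k hk))
  -- a common radius
  obtain ⟨ρ₀, hρ₀, hρr, hρt⟩ : ∃ ρ₀ > 0, ρ₀ ≤ r ∧ ∀ k ∈ t, ρ₀ ≤ ρ k := by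
    rcases t.eq_empty_or_nonempty with he | hne
    · exact ⟨r, hr, le_rfl, by simp [he]⟩
    · refine ⟨min r (t.inf' hne ρ), ?_, min_le_left _ _, fun k hk =>
        (min_le_right _ _).trans (Finset.inf'_le _ hk)⟩
      refine lt_min hr ?_
      rw [Finset.lt_inf'_iff]
      exact fun k hk => hρ k (htK k hk)
  set N₁ : Set (ℂ × ℂ) := ⋃ k ∈ t, ball k (ρ k) with hN₁
  have hN₁o : IsOpen N₁ := isOpen_biUnion fun k _ => isOpen_ball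
  have hu' : ∀ k ∈ N₁, ∀ x ∈ ball x₀ ρ₀, ∀ y ∈ ball x₀ ρ₀, G (x, k) = G (y, k) → x = y := by
    intro k hk x hx y hy hxy
    obtain ⟨k', hk', hkk⟩ := mem_iUnion₂.mp hk
    exact hu k' (htK k' hk') k hkk x (ball_subset_ball (hρt k' hk') hx) y
      (ball_subset_ball (hρt k' hk') hy) hxy
  have hdr' : ∀ k ∈ N₁, ∀ x ∈ ball x₀ ρ₀, deriv (fun x => G (x, k)) x ≠ 0 := by
    intro k hk x hx
    obtain ⟨k', hk', hkk⟩ := mem_iUnion₂.mp hk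
    exact hdr k' (htK k' hk') k hkk x (ball_subset_ball (hρt k' hk') hx)
  -- existence near each point of K
  have hex' : ∀ k ∈ K, ∃ δ > 0, ball k δ ⊆ N₁ ∧ ∃ ξ : ℂ × ℂ → ℂ, DifferentiableOn ℂ ξ (ball k δ) ∧
      ∀ k' ∈ ball k δ, ξ k' ∈ ball x₀ ρ₀ ∧ G (ξ k', k') = 0 := by
    intro k hk
    obtain ⟨δ, hδ, ξ, hξ, hξ2⟩ := hex k hk ρ₀ hρ₀
    obtain ⟨δ', hδ', hsub⟩ := Metric.isOpen_iff.mp hN₁o k (hcov hk)
    have hm : 0 < min δ δ' := lt_min hδ hδ'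
    have hs1 : ball k (min δ δ') ⊆ ball k δ := ball_subset_ball (min_le_left _ _)
    have hs2 : ball k (min δ δ') ⊆ ball k δ' := ball_subset_ball (min_le_right _ _)
    exact ⟨min δ δ', hm, hs2.trans hsub, ξ, hξ.mono hs1, fun k' hk' => hξ2 k' (hs1 hk')⟩
  choose! δ hδ hδN Ξ hΞ hΞ2 using hex'
  set N : Set (ℂ × ℂ) := ⋃ k ∈ K, ball k (δ k) with hN
  have hNN : N ⊆ N₁ := iUnion₂_subset fun k hk => hδN k hk
  have hroot : ∀ k : ℂ × ℂ, ∃ x : ℂ, k ∈ N → x ∈ ball x₀ ρ₀ ∧ G (x, k) = 0 := by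
    intro k
    by_cases hk : k ∈ N
    · obtain ⟨k', hk', hkk⟩ := mem_iUnion₂.mp hk
      exact ⟨Ξ k' k, fun _ => hΞ2 k' hk' k hkk⟩
    · exact ⟨0, fun h => absurd h hk⟩
  choose ξ hξ using hroot
  refine ⟨N, isOpen_biUnion fun k _ => isOpen_ball, fun k hk => mem_iUnion₂.mpr
    ⟨k, hk, mem_ball_self (hδ k hk)⟩, ρ₀, hρ₀, hρr, ξ, ?_, ?_⟩
  · intro k hk
    obtain ⟨k', hk', hkk⟩ := mem_iUnion₂.mp hk
    have h1 : ξ =ᶠ[𝓝 k] Ξ k' := by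
      filter_upwards [isOpen_ball.mem_nhds hkk] with y hy
      have hyN : y ∈ N := mem_iUnion₂.mpr ⟨k', hk', hy⟩
      obtain ⟨a1, a2⟩ := hξ y hyN
      obtain ⟨b1, b2⟩ := hΞ2 k' hk' y hy
      exact hu' y (hNN hyN) _ a1 _ b1 (a2.trans b2.symm)
    exact (((hΞ k' hk').differentiableAt (isOpen_ball.mem_nhds hkk)).congr_of_eventuallyEq
      h1).differentiableWithinAt
  · intro k hk
    obtain ⟨a1, a2⟩ := hξ k hk
    exact ⟨a1, a2, hdr' k (hNN hk) _ a1, fun x hx hx0 =>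
      hu' k (hNN hk) x hx _ a1 (hx0.trans a2.symm)⟩

end Vale.Agent.P097.H264
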