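import Vale.Agent.P097.TC.Defs
import Vale.Agent.P097.H264.Impl

/-!
Row A4.6: a window without zeros of `sin (al₀ - F x)` is regular (the Prop `TC.Wnd`).
-/

open Complex Metric Filter Topology Set

namespace Vale.Agent.P097.H264

open Vale.Agent.P097.TC

variable {Λ b : ℝ} {F q : ℂ → ℂ}

theorem isOpen_Sb (b : ℝ) : IsOpen (Sb b) := isOpen_lt (by fun_prop) (by fun_prop)

/-- the incidence as a function of `(x, (a, p))` -/
noncomputable def GG (F q : ℂ → ℂ) (v : ℂ × (ℂ × ℂ)) : ℂ := Mi F q v.2.1 v.2.2 v.1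

theorem an_GG (C : Cv Λ b F q) {x : ℂ} (hx : x ∈ Sb b) (k : ℂ × ℂ) :
    AnalyticAt ℂ (GG F q) (x, k) := by
  have hn := (isOpen_Sb b).mem_nhds hx
  have aF : AnalyticAt ℂ F x := C.dF.analyticAt hn
  have aq : AnalyticAt ℂ q x := C.dq.analyticAt hn
  have f1 : AnalyticAt ℂ (fun v : ℂ × (ℂ × ℂ) => v.1) (x, k) := analyticAt_fst
  have f2 : AnalyticAt ℂ (fun v : ℂ × (ℂ × ℂ) => v.2.1) (x, k) :=
    AnalyticAt.comp (g := Prod.fst) (f := Prod.snd) analyticAt_fst analyticAt_snd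
  have f3 : AnalyticAt ℂ (fun v : ℂ × (ℂ × ℂ) => v.2.2) (x, k) :=
    AnalyticAt.comp (g := Prod.snd) (f := Prod.snd) analyticAt_snd analyticAt_snd
  have gF : AnalyticAt ℂ (fun v : ℂ × (ℂ × ℂ) => F v.1) (x, k) :=
    AnalyticAt.comp (g := F) (f := fun v : ℂ × (ℂ × ℂ) => v.1) aF f1
  have gq : AnalyticAt ℂ (fun v : ℂ × (ℂ × ℂ) => q v.1) (x, k) :=
    AnalyticAt.comp (g := q) (f := fun v : ℂ × (ℂ × ℂ) => v.1) aq f1
  have gF' : AnalyticAt ℂ (fun v : ℂ × (ℂ × ℂ) => deriv F v.1) (x, k) :=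
    AnalyticAt.comp (g := deriv F) (f := fun v : ℂ × (ℂ × ℂ) => v.1) aF.deriv f1
  have gq' : AnalyticAt ℂ (fun v : ℂ × (ℂ × ℂ) => deriv q v.1) (x, k) :=
    AnalyticAt.comp (g := deriv q) (f := fun v : ℂ × (ℂ × ℂ) => v.1) aq.deriv f1
  have hc : AnalyticAt ℂ (fun v : ℂ × (ℂ × ℂ) => Complex.cos (v.2.1 - F v.1)) (x, k) :=
    AnalyticAt.comp (g := Complex.cos) (f := fun v : ℂ × (ℂ × ℂ) => v.2.1 - F v.1)
      Complex.analyticAt_cos (f2.sub gF)
  have hs : AnalyticAt ℂ (fun v : ℂ × (ℂ × ℂ) => Complex.sin (v.2.1 - F v.1)) (x, k) :=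
    AnalyticAt.comp (g := Complex.sin) (f := fun v : ℂ × (ℂ × ℂ) => v.2.1 - F v.1)
      Complex.analyticAt_sin (f2.sub gF)
  exact (gF'.mul ((gq.mul hc).sub f3)).add (gq'.mul hs)

/-- at a root of the incidence, the derivative is the sine up to a factor -/
theorem Mi_deriv (C : Cv Λ b F q) {x a p : ℂ} (hx : x ∈ Sb b) (h0 : Mi F q a p x = 0) :
    deriv F x * deriv (Mi F q a p) x = (Λ : ℂ) ^ 3 * Complex.sin (a - F x) := by
  have hn := (isOpen_Sb b).mem_nhds hx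
  have aF : AnalyticAt ℂ F x := C.dF.analyticAt hn
  have aq : AnalyticAt ℂ q x := C.dq.analyticAt hn
  have dF := aF.differentiableAt.hasDerivAt
  have dq := aq.differentiableAt.hasDerivAt
  have dF' := aF.deriv.differentiableAt.hasDerivAt
  have dq' := aq.deriv.differentiableAt.hasDerivAt
  have h5 : HasDerivAt (fun y => Complex.cos (a - F y)) (-Complex.sin (a - F x) * (0 - deriv F x)) x :=
    ((hasDerivAt_const x a).sub dF).ccos
  have h6 : HasDerivAt (fun y => Complex.sin (a - F y)) (Complex.cos (a - F x) * (0 - deriv F x)) x :=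
    ((hasDerivAt_const x a).sub dF).csin
  have h7 : HasDerivAt (Mi F q a p) _ x :=
    (dF'.mul ((dq.mul h5).sub (hasDerivAt_const x p))).add (dq'.mul h6)
  rw [h7.deriv]
  simp only [Pi.sub_apply, Pi.mul_apply]
  have hw := C.wr x hx
  unfold Mi at h0
  linear_combination (deriv (deriv F) x) * h0 + Complex.sin (a - F x) * hw

theorem Mi_per (a p x : ℂ) (N : ℤ) : Mi F q (a - 2 * Real.pi * N) p x = Mi F q a p x := by
  unfold Mi
  have e : a - 2 * Real.pi * N - F x = (a - F x) - N * (2 * Real.pi) := by ring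
  rw [e, Complex.cos_sub_int_mul_two_pi, Complex.sin_sub_int_mul_two_pi]

theorem continuous_bl (e : ℝ × ℝ) (r : ℝ) : Continuous (bl e r) := by
  unfold bl
  fun_prop

theorem ht_bl (e : ℝ × ℝ) (r : ℝ) (z : ℂ × ℂ) : ht (bl e r z) = r • ht z := by
  ext <;> simp [ht, bl]

theorem ft_bl (e : ℝ × ℝ) (r : ℝ) (z : ℂ × ℂ) : ft (bl e r z) = e + r • ft z := by
  ext <;> simp [ft, bl]

theorem K1_smul {k r : ℝ} (hr : 0 < r) {y : ℝ × ℝ} (hy : y ∈ K1 k) : r • y ∈ K1 k := by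
  have h : |y.2| < k * y.1 := hy
  show |(r • y).2| < k * (r • y).1
  simp only [Prod.smul_snd, Prod.smul_fst, smul_eq_mul, abs_mul, abs_of_pos hr]
  nlinarith

theorem K2_smul {k r : ℝ} (hr : 0 < r) {y : ℝ × ℝ} (hy : y ∈ K2 k) : r • y ∈ K2 k := by
  obtain ⟨h1, h2⟩ := hy
  refine ⟨?_, ?_⟩
  · have : (r • y).1 + k * (r • y).2 = r * (y.1 + k * y.2) := by
      simp only [Prod.smul_snd, Prod.smul_fst, smul_eq_mul]; ring
    rw [this]; positivity
  · have : (r • y).2 + k * (r • y).1 = r * (y.2 + k * y.1) := by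
      simp only [Prod.smul_snd, Prod.smul_fst, smul_eq_mul]; ring
    rw [this]; positivity

theorem K1_mono {k k' : ℝ} (h0 : 0 < k') (h : k' ≤ k) : K1 k' ⊆ K1 k := by
  intro y hy
  have h1 : |y.2| < k' * y.1 := hy
  have h2 : 0 < y.1 := by
    by_contra hn
    push Not at hn
    nlinarith [abs_nonneg y.2]
  show |y.2| < k * y.1
  nlinarith

theorem isOpen_K1 (k : ℝ) : IsOpen (K1 k) := isOpen_lt (by fun_prop) (by fun_prop)

theorem convex_K1 (k : ℝ) : Convex ℝ (K1 k) := by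
  intro z hz w hw a c ha hc hac
  have hz' : |z.2| < k * z.1 := hz
  have hw' : |w.2| < k * w.1 := hw
  show |(a • z + c • w).2| < k * (a • z + c • w).1
  simp only [Prod.snd_add, Prod.smul_snd, smul_eq_mul, Prod.fst_add, Prod.smul_fst]
  have h1 : |a * z.2 + c * w.2| ≤ a * |z.2| + c * |w.2| := by
    refine (abs_add_le _ _).trans ?_
    rw [abs_mul, abs_mul, abs_of_nonneg ha, abs_of_nonneg hc]
  rcases eq_or_lt_of_le ha with ha0 | ha0
  · have hb1 : c = 1 := by linarith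
    subst hb1
    rw [← ha0] at h1 ⊢
    linarith
  · have h2 : a * |z.2| < a * (k * z.1) := by gcongr
    have h3 : c * |w.2| ≤ c * (k * w.1) := by gcongr
    linarith

theorem continuous_ft : Continuous ft := by
  unfold ft
  fun_prop

theorem isOpen_TB (e : ℝ × ℝ) (ρ : ℝ) {K : Set (ℝ × ℝ)} (hK : IsOpen K) : IsOpen (TB e ρ K) := by
  have h1 : IsOpen {z : ℂ × ℂ | ft z ∈ ball e ρ} := isOpen_ball.preimage continuous_ft
  have h2 : IsOpen {z : ℂ × ℂ | ‖ht z‖ < ρ} := isOpen_lt continuous_ht.norm continuous_const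
  have h3 : IsOpen {z : ℂ × ℂ | ht z ∈ K} := hK.preimage continuous_ht
  exact h1.inter (h2.inter h3)

theorem convex_TB (e : ℝ × ℝ) (ρ : ℝ) {K : Set (ℝ × ℝ)} (hK : Convex ℝ K) :
    Convex ℝ (TB e ρ K) := by
  intro z hz w hw a c ha hc hac
  have e1 : ft (a • z + c • w) = a • ft z + c • ft w := by ext <;> simp [ft]
  have e2 : ht (a • z + c • w) = a • ht z + c • ht w := by ext <;> simp [ht]
  refine ⟨?_, ?_, ?_⟩
  · rw [e1]; exact convex_ball e ρ hz.1 hw.1 ha hc hac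
  · rw [e2]
    have hz2 : ht z ∈ ball (0 : ℝ × ℝ) ρ := mem_ball_zero_iff.mpr hz.2.1
    have hw2 : ht w ∈ ball (0 : ℝ × ℝ) ρ := mem_ball_zero_iff.mpr hw.2.1
    exact mem_ball_zero_iff.mp (convex_ball (0 : ℝ × ℝ) ρ hz2 hw2 ha hc hac)
  · rw [e2]; exact hK hz.2.2 hw.2.2 ha hc hac

/-- inverse of the blow up -/
noncomputable def ib (e : ℝ × ℝ) (r : ℝ) (w : ℂ × ℂ) : ℂ × ℂ := ((w.1 - e.1) / r, (w.2 - e.2) / r)

theorem continuous_ib (e : ℝ × ℝ) (r : ℝ) : Continuous (ib e r) := by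
  unfold ib
  simp only [div_eq_mul_inv]
  fun_prop

theorem ib_bl (e : ℝ × ℝ) {r : ℝ} (hr : r ≠ 0) (z : ℂ × ℂ) : ib e r (bl e r z) = z := by
  have hr' : (r : ℂ) ≠ 0 := by exact_mod_cast hr
  ext
  · simp [ib, bl, hr']
  · simp [ib, bl, hr']

theorem bl_ib (e : ℝ × ℝ) {r : ℝ} (hr : r ≠ 0) (z : ℂ × ℂ) : bl e r (ib e r z) = z := by
  have hr' : (r : ℂ) ≠ 0 := by exact_mod_cast hr
  unfold ib bl
  apply Prod.ext
  · simp only
    field_simp
    ring
  · simp only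
    field_simp
    ring

theorem ib_convex (e : ℝ × ℝ) (r : ℝ) {V : Set (ℂ × ℂ)} (hV : Convex ℝ V) :
    Convex ℝ (ib e r ⁻¹' V) := by
  intro z hz w hw a c ha hc hac
  have e1 : ib e r (a • z + c • w) = a • ib e r z + c • ib e r w := by
    have hac' : (a : ℂ) + c = 1 := by exact_mod_cast hac
    unfold ib
    apply Prod.ext
    · simp only [Prod.fst_add, Prod.smul_fst, Complex.real_smul]
      rw [← mul_div_assoc, ← mul_div_assoc, ← add_div]
      congr 1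
      linear_combination ((e.1 : ℝ) : ℂ) * hac'
    · simp only [Prod.snd_add, Prod.smul_snd, Complex.real_smul]
      rw [← mul_div_assoc, ← mul_div_assoc, ← add_div]
      congr 1
      linear_combination ((e.2 : ℝ) : ℂ) * hac'
  show ib e r (a • z + c • w) ∈ V
  rw [e1]
  exact hV hz hw ha hc hac

theorem bl_convex (e : ℝ × ℝ) (r : ℝ) {V : Set (ℂ × ℂ)} (hV : Convex ℝ V) :
    Convex ℝ (bl e r '' V) := by
  rintro _ ⟨z, hz, rfl⟩ _ ⟨w, hw, rfl⟩ a c ha hc hac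
  refine ⟨a • z + c • w, hV hz hw ha hc hac, ?_⟩
  have hac' : (a : ℂ) + c = 1 := by exact_mod_cast hac
  unfold bl
  apply Prod.ext
  · simp only [Prod.fst_add, Prod.smul_fst, Complex.real_smul]
    linear_combination -((e.1 : ℝ) : ℂ) * hac'
  · simp only [Prod.snd_add, Prod.smul_snd, Complex.real_smul]
    linear_combination -((e.2 : ℝ) : ℂ) * hac'

/-- blown up bounded sets are in the local tube for all small scales -/
theorem bl_TB {e e₀ : ℝ × ℝ} {ρ : ℝ} (he : e ∈ ball e₀ ρ) {K : Set (ℝ × ℝ)}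
    (hK : ∀ r : ℝ, 0 < r → ∀ y ∈ K, r • y ∈ K) {B : Set (ℂ × ℂ)} (hB : Bornology.IsBounded B)
    (hBK : B ⊆ Tc K) : ∀ᶠ r : ℝ in 𝓝[>] 0, ∀ z ∈ B, bl e r z ∈ TB e₀ ρ K := by
  obtain ⟨M, hM0, hM⟩ := hB.exists_pos_norm_le
  have hfz : ∀ z ∈ B, ‖ft z‖ ≤ M := by
    intro z hz
    refine le_trans ?_ (hM z hz)
    rw [Prod.norm_def, Prod.norm_def]
    exact max_le_max (Complex.abs_re_le_norm _) (Complex.abs_re_le_norm _)
  have hhz : ∀ z ∈ B, ‖ht z‖ ≤ M := by
    intro z hz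
    refine le_trans ?_ (hM z hz)
    rw [Prod.norm_def, Prod.norm_def]
    exact max_le_max (Complex.abs_im_le_norm _) (Complex.abs_im_le_norm _)
  have hρ : 0 < ρ := pos_of_mem_ball he
  rw [mem_ball] at he
  have hev : ∀ᶠ r : ℝ in 𝓝[>] 0, r < min (ρ / M) ((ρ - dist e e₀) / M) := by
    refine eventually_nhdsWithin_of_eventually_nhds (eventually_lt_nhds ?_)
    exact lt_min (by positivity) (div_pos (by linarith) hM0)
  filter_upwards [hev, self_mem_nhdsWithin] with r hr hr0 z hz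
  have hr0' : 0 < r := hr0
  have h1 : r * M < ρ := by
    have := hr.trans_le (min_le_left _ _)
    rwa [lt_div_iff₀ hM0] at this
  have h2 : r * M < ρ - dist e e₀ := by
    have := hr.trans_le (min_le_right _ _)
    rwa [lt_div_iff₀ hM0] at this
  refine ⟨?_, ?_, ?_⟩
  · rw [ft_bl, mem_ball, dist_eq_norm]
    have e1 : e + r • ft z - e₀ = r • ft z + (e - e₀) := by abel
    rw [e1]
    refine (norm_add_le _ _).trans_lt ?_
    rw [norm_smul, Real.norm_of_nonneg hr0'.le, ← dist_eq_norm]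
    have := mul_le_mul_of_nonneg_left (hfz z hz) hr0'.le
    linarith
  · rw [ht_bl, norm_smul, Real.norm_of_nonneg hr0'.le]
    have := mul_le_mul_of_nonneg_left (hhz z hz) hr0'.le
    linarith
  · rw [ht_bl]
    exact hK r hr0' _ (hBK hz)

/-- the part of `TC.GS` which the window row uses -/
structure GS0 (F q : ℂ → ℂ) (k : ℝ) (al p : ℂ × ℂ → ℂ) (e : ℝ × ℝ) (x : ℂ) (r : ℕ → ℝ) (N : ℕ → ℤ)
    (al₀ p₀ : ℂ × ℂ → ℂ) : Prop where
  r0 : ∀ n, 0 < r n
  rt : Tendsto r atTop (𝓝 0)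
  dal : DifferentiableOn ℂ al₀ (Tc (K2 k))
  dp : DifferentiableOn ℂ p₀ (Tc (K2 k))
  cal : TendstoLocallyUniformlyOn (fun n z => al (bl e (r n) z) - 2 * Real.pi * N n) al₀ atTop
    (Tc (K2 k))
  cp : TendstoLocallyUniformlyOn (fun n z => p (bl e (r n) z)) p₀ atTop (Tc (K2 k))
  pen : ∀ z ∈ Tc (K2 k), Mi F q (al₀ z) (p₀ z) x = 0

theorem wnd0 {Λ b : ℝ} {F q : ℂ → ℂ} {e₀ : ℝ × ℝ} {ρ k : ℝ} {al p th : ℂ × ℂ → ℂ}
    (L : LW Λ b F q e₀ ρ k al p th) {k' : ℝ} (hk0 : 0 < k') (hkk : k' < k) {e : ℝ × ℝ} {x : ℂ}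
    (heb : e ∈ ball e₀ ρ) (hx : x ∈ Sb b) (hNT : NT th k e x) {r : ℕ → ℝ} {N : ℕ → ℤ}
    {al₀ p₀ : ℂ × ℂ → ℂ} (G : GS0 F q k' al p e x r N al₀ p₀) {W : Set (ℂ × ℂ)}
    (hWc : IsCompact W) (hWv : Convex ℝ W) (hWs : W ⊆ Tc (K2 k')) (hWn : (W ∩ Tc (K1 k')).Nonempty)
    {s : ℝ} {x' : ℝ × ℝ} (hs : 0 < s)
    (hne : ∀ z ∈ W, Complex.sin (al₀ (bl x' s z) - F x) ≠ 0) :
    ∀ᶠ n in atTop, RegW b F q al p th (TB e₀ ρ (K1 k)) (e + r n • x') (s * r n) W := by
  have hk := L.k0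
  have C := L.cv
  have hΛ : (Λ : ℂ) ≠ 0 := by exact_mod_cast C.Λ0.ne'
  -- the window
  set Wt : Set (ℂ × ℂ) := bl x' s '' W with hWt
  have hWtc : IsCompact Wt := hWc.image (continuous_bl x' s)
  have hWtv : Convex ℝ Wt := bl_convex x' s hWv
  have hWts : Wt ⊆ Tc (K2 k') := by
    rintro _ ⟨z, hz, rfl⟩
    show ht _ ∈ K2 k'
    rw [ht_bl]
    exact K2_smul hs (hWs hz)
  obtain ⟨zs, hzs1, hzs2⟩ : (Wt ∩ Tc (K1 k')).Nonempty := by
    obtain ⟨z, hz1, hz2⟩ := hWn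
    refine ⟨bl x' s z, ⟨z, hz1, rfl⟩, ?_⟩
    show ht _ ∈ K1 k'
    rw [ht_bl]
    exact K1_smul hs hz2
  have hΩ : IsOpen (Tc (K2 k')) := isOpen_Tc2 k'
  have hcal₀ : ContinuousOn (fun z => (al₀ z, p₀ z)) (Tc (K2 k')) :=
    G.dal.continuousOn.prodMk G.dp.continuousOn
  -- the implicit function
  obtain ⟨rr, hrr, hrs⟩ := Metric.isOpen_iff.mp (isOpen_Sb b) x hx
  obtain ⟨N', hN'o, hKN, ρ₁, hρ₁, hρr, ξ, hξd, hξ⟩ := impl_compact (G := GG F q) (x₀ := x)
    (K := (fun z => (al₀ z, p₀ z)) '' Wt) (hWtc.image_of_continuousOn (hcal₀.mono hWts))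
    (fun κ _ => an_GG C hx κ)
    (by
      rintro _ ⟨z, hz, rfl⟩
      exact G.pen z (hWts hz))
    (by
      rintro _ ⟨z, hz, rfl⟩ hcon
      have h1 := Mi_deriv C hx (G.pen z (hWts hz))
      have h2 : deriv (Mi F q (al₀ z) (p₀ z)) x = 0 := hcon
      rw [h2, mul_zero] at h1
      obtain ⟨z', hz', rfl⟩ := hz
      rcases mul_eq_zero.mp h1.symm with h3 | h3
      · exact pow_ne_zero 3 hΛ h3
      · exact hne z' hz' h3) hrr
  have hbs : ball x ρ₁ ⊆ Sb b := (ball_subset_ball hρr).trans hrs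
  -- a thickening of the window
  have hO : IsOpen (Tc (K2 k') ∩ (fun z => (al₀ z, p₀ z)) ⁻¹' N') :=
    hcal₀.isOpen_inter_preimage hΩ hN'o
  obtain ⟨δ, hδ, hδO⟩ := hWtc.exists_cthickening_subset_open hO
    (fun z hz => ⟨hWts hz, hKN ⟨z, hz, rfl⟩⟩)
  set V₁ := cthickening δ Wt with hV₁
  set V₀ := thickening δ Wt with hV₀
  have hV₁c : IsCompact V₁ := hWtc.cthickening
  have hV₀₁ : V₀ ⊆ V₁ := thickening_subset_cthickening _ _
  have hV₀o : IsOpen V₀ := isOpen_thickening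
  have hV₀v : Convex ℝ V₀ := hWtv.thickening δ
  have hWV₀ : Wt ⊆ V₀ := self_subset_thickening hδ Wt
  have hV₁K : V₁ ⊆ Tc (K2 k') := fun z hz => (hδO hz).1
  -- uniform convergence
  have hrt : Tendsto r atTop (𝓝[>] 0) :=
    tendsto_nhdsWithin_iff.2 ⟨G.rt, Eventually.of_forall G.r0⟩
  have hev1 : ∀ᶠ n in atTop, ∀ z ∈ V₁,
      (al (bl e (r n) z) - 2 * Real.pi * N n, p (bl e (r n) z)) ∈ N' := by
    have hK₁ : IsCompact ((fun z => (al₀ z, p₀ z)) '' V₁) :=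
      hV₁c.image_of_continuousOn (hcal₀.mono hV₁K)
    have hK₁N : (fun z => (al₀ z, p₀ z)) '' V₁ ⊆ N' := by
      rintro _ ⟨z, hz, rfl⟩
      exact (hδO hz).2
    obtain ⟨ε, hε, hεN⟩ := hK₁.exists_thickening_subset_open hN'o hK₁N
    have u1 := (tendstoLocallyUniformlyOn_iff_forall_isCompact hΩ).1 G.cal V₁ hV₁K hV₁c
    have u2 := (tendstoLocallyUniformlyOn_iff_forall_isCompact hΩ).1 G.cp V₁ hV₁K hV₁c
    filter_upwards [Metric.tendstoUniformlyOn_iff.1 u1 ε hε,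
      Metric.tendstoUniformlyOn_iff.1 u2 ε hε] with n h1 h2 z hz
    apply hεN
    rw [mem_thickening_iff]
    refine ⟨(al₀ z, p₀ z), ⟨z, hz, rfl⟩, ?_⟩
    rw [Prod.dist_eq]
    have a1 := h1 z hz
    have a2 := h2 z hz
    rw [dist_comm] at a1 a2
    exact max_lt a1 a2
  have hK2k : ∀ z ∈ V₁, z ∈ Tc (K2 k) := fun z hz =>
    K2_mono hk0 hkk.le L.k1 (hV₁K hz)
  have hev2 : ∀ᶠ n in atTop, ∀ z ∈ V₁, bl e (r n) z ∈ TB e₀ ρ (K2 k) :=
    hrt.eventually (bl_TB heb (fun _ hr _ hy => K2_smul hr hy) hV₁c.isBounded hK2k)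
  have hzsk : zs ∈ Tc (K1 k) := K1_mono hk0 hkk.le hzs2
  have hev3 : ∀ᶠ n in atTop, bl e (r n) zs ∈ TB e₀ ρ (K1 k) := by
    have := hrt.eventually (bl_TB (K := K1 k) heb (fun _ hr _ hy => K1_smul hr hy)
      (B := {zs}) Bornology.isBounded_singleton (by simpa using hzsk))
    filter_upwards [this] with n hn
    exact hn zs rfl
  -- the non-tangential limit
  have hnt := (hNT zs hzsk).eventually (ball_mem_nhds x hρ₁)
  obtain ⟨P1, hP1, P2, hP2, hP⟩ := Filter.eventually_prod_iff.mp hnt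
  have hev4 : ∀ᶠ n in atTop, P1 (r n) := hrt.eventually hP1
  filter_upwards [hev1, hev2, hev3, hev4] with n h1 h2 h3 h4
  have hrn := G.r0 n
  set T := TB e₀ ρ (K1 k) with hT
  have hTo : IsOpen T := isOpen_TB e₀ ρ (isOpen_K1 k)
  have hTv : Convex ℝ T := convex_TB e₀ ρ (convex_K1 k)
  set V := ib e (r n) ⁻¹' V₀ with hV
  have hVo : IsOpen V := hV₀o.preimage (continuous_ib e (r n))
  have hVv : Convex ℝ V := ib_convex e (r n) hV₀v
  set Ψ : ℂ × ℂ → ℂ := fun w => ξ (al w - 2 * Real.pi * N n, p w) with hΨ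
  have hVN : ∀ w ∈ V, (al w - 2 * Real.pi * N n, p w) ∈ N' := by
    intro w hw
    have := h1 (ib e (r n) w) (hV₀₁ hw)
    rwa [bl_ib e hrn.ne'] at this
  have hVT : ∀ w ∈ V, w ∈ TB e₀ ρ (K2 k) := by
    intro w hw
    have := h2 (ib e (r n) w) (hV₀₁ hw)
    rwa [bl_ib e hrn.ne'] at this
  have hTB2 : IsOpen (TB e₀ ρ (K2 k)) := isOpen_TB e₀ ρ (isOpen_K2 k)
  have hΨd : DifferentiableOn ℂ Ψ V := by
    intro w hw
    have hn := hTB2.mem_nhds (hVT w hw)
    have d1 : DifferentiableAt ℂ (fun w => (al w - 2 * Real.pi * N n, p w)) w :=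
      ((L.dal.differentiableAt hn).sub_const _).prodMk (L.dp.differentiableAt hn)
    have d2 : DifferentiableAt ℂ ξ (al w - 2 * Real.pi * N n, p w) :=
      hξd.differentiableAt (hN'o.mem_nhds (hVN w hw))
    exact (DifferentiableAt.comp w (g := ξ)
      (f := fun w => (al w - 2 * Real.pi * N n, p w)) d2 d1).differentiableWithinAt
  -- agreement
  have hagree : ∀ w ∈ T ∩ V, th w = Ψ w := by
    have han : AnalyticOnNhd ℂ (fun w => th w - Ψ w) (T ∩ V) :=
      Vale.Agent.P097.Hol.analyticOnNhd_of_differentiableOn (hTo.inter hVo)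
        ((L.dth.mono inter_subset_left).sub (hΨd.mono inter_subset_right))
    have hws : bl e (r n) zs ∈ T ∩ V := ⟨h3, by
      show ib e (r n) _ ∈ V₀
      rw [ib_bl e hrn.ne']
      exact hWV₀ hzs1⟩
    have hzero : (fun w => th w - Ψ w) =ᶠ[𝓝 (bl e (r n) zs)] 0 := by
      have c1 : ∀ᶠ w in 𝓝 (bl e (r n) zs), P2 (ib e (r n) w) := by
        have : Tendsto (ib e (r n)) (𝓝 (bl e (r n) zs)) (𝓝 zs) := by
          have := (continuous_ib e (r n)).tendsto (bl e (r n) zs)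
          rwa [ib_bl e hrn.ne'] at this
        exact this.eventually hP2
      filter_upwards [c1, (hTo.inter hVo).mem_nhds hws] with w hw1 hw2
      have hb := hP h4 hw1
      simp only [bl_ib e hrn.ne'] at hb
      have h5 := L.inc w hw2.1
      have h6 : GG F q (th w, (al w - 2 * Real.pi * N n, p w)) = 0 := by
        show Mi F q (al w - 2 * Real.pi * N n) (p w) (th w) = 0
        rw [Mi_per]
        exact h5
      have h7 := (hξ _ (hVN w hw2.2)).2.2.2 (th w) hb h6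
      show th w - Ψ w = 0
      rw [h7, sub_self]
    intro w hw
    have := han.eqOn_zero_of_preconnected_of_eventuallyEq_zero
      (hTv.inter hVv).isPreconnected hws hzero hw
    exact sub_eq_zero.mp this
  classical
  refine ⟨V, fun w => if w ∈ T then th w else Ψ w, hVo, ?_, ?_, ?_, ?_⟩
  · rintro _ ⟨z, hz, rfl⟩
    show ib e (r n) _ ∈ V₀
    apply hWV₀
    refine ⟨z, hz, ?_⟩
    have hr' : (r n : ℂ) ≠ 0 := by exact_mod_cast hrn.ne'
    unfold ib bl
    apply Prod.ext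
    · simp only [Prod.fst_add, Prod.smul_fst, smul_eq_mul]
      push_cast
      field_simp
      ring
    · simp only [Prod.snd_add, Prod.smul_snd, smul_eq_mul]
      push_cast
      field_simp
      ring
  · intro w hw
    by_cases hwT : w ∈ T
    · have h5 : (fun w => if w ∈ T then th w else Ψ w) =ᶠ[𝓝 w] th := by
        filter_upwards [hTo.mem_nhds hwT] with y hy
        simp only [if_pos hy]
      exact ((L.dth.differentiableAt (hTo.mem_nhds hwT)).congr_of_eventuallyEq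
        h5).differentiableWithinAt
    · have hwV : w ∈ V := hw.resolve_left hwT
      have h5 : (fun w => if w ∈ T then th w else Ψ w) =ᶠ[𝓝 w] Ψ := by
        filter_upwards [hVo.mem_nhds hwV] with y hy
        by_cases hyT : y ∈ T
        · simp only [if_pos hyT]; exact hagree y ⟨hyT, hy⟩
        · simp only [if_neg hyT]
      exact ((hΨd.differentiableAt (hVo.mem_nhds hwV)).congr_of_eventuallyEq
        h5).differentiableWithinAt
  · intro w hw
    simp only [if_pos hw]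
  · intro w hw
    have h5 : (if w ∈ T then th w else Ψ w) = Ψ w := by
      by_cases hwT : w ∈ T
      · simp only [if_pos hwT]; exact hagree w ⟨hwT, hw⟩
      · simp only [if_neg hwT]
    simp only [h5]
    obtain ⟨a1, a2, a3, -⟩ := hξ _ (hVN w hw)
    have h6 : Mi F q (al w - 2 * Real.pi * N n) (p w) = Mi F q (al w) (p w) := by
      funext y
      exact Mi_per _ _ _ _
    refine ⟨hbs a1, ?_, ?_⟩
    · have : Mi F q (al w - 2 * Real.pi * N n) (p w) (Ψ w) = 0 := a2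
      rwa [h6] at this
    · have : deriv (Mi F q (al w - 2 * Real.pi * N n) (p w)) (Ψ w) ≠ 0 := a3
      rwa [h6] at this

/-- **row A4.6 (WINDOW)** -/
theorem wnd : Wnd := by
  intro Λ b F q e₀ ρ k al p th L k' hk0 hkk e x heb hx hF hNT r N al₀ p₀ G W hWc hWv hWs hWn s x' hs
    hx' hne
  exact wnd0 L hk0 hkk heb hx hNT ⟨G.r0, G.rt, G.dal, G.dp, G.cal, G.cp, G.pen⟩ hWc hWv hWs hWn hs
    hne

end Vale.Agent.P097.H264
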