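import Vale.Agent.P097.H264.Core3
import Vale.Agent.P097.H264.Wnd

/-!
The core of GQ, part 4: the bound of the support number and the theorem `core`.
-/

open Complex Metric Filter Topology Set Finset
open Vale.Agent.P097.TC

namespace Vale.Agent.P097.H264

section
variable {F : ℂ → ℂ} {al p th : ℂ × ℂ → ℂ} {A : Set (ℝ × ℝ)} {e : ℝ × ℝ}
  {kap C1 C7 b1 s h h₀ ρd : ℝ} {c1 : ℕ} {M : ℝ}

theorem im_al (z : ℂ × ℂ) : (al z).im = (F (th z)).im - (2 * I * (al z - F (th z))).re / 2 := by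
  rw [re_g]
  ring

/-- **bound of the support number at the targets** -/
theorem p_bd (X : Ctx A e (fun z => 2 * I * (al z - F (th z))) kap C1 C7 b1 s h h₀ ρd c1)
    {O : Set (ℂ × ℂ)} (hO : IsOpen O) (hal : DifferentiableOn ℂ al O)
    (hp : DifferentiableOn ℂ p O) {k R δ : ℝ} (hT2 : H226.T2 k R e ⊆ O) (hM1 : 1 ≤ M)
    (hM : ∀ z ∈ Sw kap (2 * C1 + 3) h A, ‖F (th z)‖ ≤ M ∧ ‖p z‖ ≤ M * Real.exp |(al z).im|)
    {Ma : ℝ} (hMa1 : 1 ≤ Ma)
    (hMa : ∀ z ∈ H226.T2c k (R / 2) δ e, ‖al z‖ ≤ Ma ∧ ‖p z‖ ≤ Ma) {K' : ℝ} (hK' : 0 ≤ K')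
    {σ : ℝ} (hσ : σ = 1 ∨ σ = -1) {MA : ℝ} :
    ∃ M' : ℝ, ∀ n : ℕ, c1 ≤ n → h₀ / 2 ^ n ≤ ρd → |Vx F al th e h₀ n| ≤ K' →
      Sg (Vx F al th e h₀) σ n ≤ K' →
      ∀ (z : ℂ × ℂ) (μ : ℂ → ℂ), H226.DiscT A e k R δ ρd C1 C7 b1 s (h₀ / 2 ^ n) z μ →
        ‖al z - al (pt e (h₀ / 2 ^ n))‖ ≤ MA → ‖p z‖ ≤ M' := by
  have hBB := X.BB0
  have hC7 := X.C71
  have ht := tht_pos
  have hb := bet_pos
  set BBc := BB kap C1 b1 c1 with hBBc
  set A0 : ℝ := M + Ma + BBc * (1 + K' / tht ^ c1) with hA0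
  have hA00 : 0 ≤ A0 := by positivity
  have hlM : 0 ≤ Real.log M := Real.log_nonneg hM1
  have hlMa : 0 ≤ Real.log Ma := Real.log_nonneg hMa1
  refine ⟨Real.exp (Real.log M + Real.log Ma + (MA + (M + K' / 2)) +
    2 * (A0 + 2 * C7 * (BBc * (3 + K' / tht ^ c1)))), ?_⟩
  intro n hcn hn hVn hSg z μ D hz
  set r := h₀ / 2 ^ n with hr
  have hr0 : 0 < r := by have := X.h0; positivity
  have hc11 : (1 : ℝ) ≤ 2 ^ c1 := one_le_pow₀ (by norm_num)
  have hrh : r < h := by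
    have h1 := X.ρh
    have h2 := X.ρd0
    nlinarith
  set V := Vx F al th e h₀ with hV
  set a : ℕ → ℝ := fun i => if i = 0 then A0 else
    BBc * bet ^ (i - 1) * (1 + max (σ * V (n - (i - 1 + c1))) 0) with ha
  have ha0 : a 0 = A0 := by simp [ha]
  have ha1 : ∀ j : ℕ, a (j + 1) = BBc * bet ^ j * (1 + max (σ * V (n - (j + c1))) 0) := by
    intro j
    simp [ha]
  have han : ∀ i, 0 ≤ a i := by
    intro i
    rcases Nat.eq_zero_or_pos i with rfl | hi
    · rw [ha0]; exact hA00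
    · obtain ⟨j, rfl⟩ : ∃ j, i = j + 1 := ⟨i - 1, by omega⟩
      rw [ha1]
      positivity
  set N := n + 1 - c1 with hN
  have hHD : H226.HD ρd ⊆ {ζ | 0 ≤ ζ.im} := fun z hz => hz.2.le
  have hcl : ∀ ζ ∈ frontier (H226.HD ρd), 0 ≤ ζ.im := fun ζ hζ => (H226.HD_frontier hζ).2.1
  have hmd := comp_dc hO hp D.dc (c := (e.2 : ℂ)) (fun w h1 h2 => hT2 (D.ins w h1 h2))
  have hald := comp_dc hO hal D.dc (c := (e.2 : ℂ)) (fun w h1 h2 => hT2 (D.ins w h1 h2))
  have hGd : DiffContOnCl ℂ (fun w : ℂ => ((σ : ℂ) * (-I)) * al (μ w, (e.2 : ℂ) + w))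
      (H226.HD ρd) := hald.const_smul ((σ : ℂ) * (-I))
  have hReG : ∀ y : ℂ, (((σ : ℂ) * (-I)) * y).re = σ * y.im := by
    intro y
    simp
  have habs : ∀ y : ℂ, |(((σ : ℂ) * (-I)) * y).re| = |y.im| := by
    intro y
    rw [hReG, abs_mul]
    rcases hσ with rfl | rfl <;> simp
  have hσ1 : ∀ y : ℝ, -|y| ≤ σ * y := by
    intro y
    rcases hσ with rfl | rfl
    · rw [one_mul]; exact neg_abs_le y
    · rw [neg_one_mul]
      have := le_abs_self y
      linarith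
  obtain ⟨w, hw, hwr, hwz⟩ := D.tg
  have hmain := H226.incidence (m := fun w => p (μ w, (e.2 : ℂ) + w))
    (G := fun w : ℂ => ((σ : ℂ) * (-I)) * al (μ w, (e.2 : ℂ) + w)) (h := H226.mj r a N)
    (c := Real.log M + Real.log Ma) H226.HD_bdd hmd hGd (H226.mj_dc hr0 hHD)
    (fun ζ hζ => (han 0).trans (H226.mj_lower0 hr0 han (hcl ζ hζ))) ?_ ?_ (subset_closure hw)
  · simp only [hwz] at hmain
    refine hmain.trans (Real.exp_le_exp.mpr ?_)
    rw [hReG]
    have h1 : σ * (al z).im ≤ MA + (M + K' / 2) := by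
      have h2 : σ * (al z).im ≤ |(al z).im| := by
        rcases hσ with rfl | rfl
        · rw [one_mul]; exact le_abs_self _
        · rw [neg_one_mul]; exact neg_le_abs _
      have h3 : |(al z).im| ≤ |(al z - al (pt e r)).im| + |(al (pt e r)).im| := by
        rw [Complex.sub_im]
        have := abs_sub_abs_le_abs_sub (al z).im (al (pt e r)).im
        linarith
      have h4 : |(al z - al (pt e r)).im| ≤ MA := (Complex.abs_im_le_norm _).trans hz
      have h5 : |(al (pt e r)).im| ≤ M + K' / 2 := by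
        rw [im_al (F := F) (al := al) (th := th)]
        refine (abs_sub _ _).trans ?_
        have h6 : |(F (th (pt e r))).im| ≤ M :=
          (Complex.abs_im_le_norm _).trans (hM _ (X.ax hr0 hrh)).1
        have h7 : |(2 * I * (al (pt e r) - F (th (pt e r)))).re / 2| ≤ K' / 2 := by
          rw [abs_div, abs_of_pos (by norm_num : (0 : ℝ) < 2)]
          have : |(2 * I * (al (pt e r) - F (th (pt e r)))).re| ≤ K' := hVn
          linarith
        linarith
      linarith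
    have h2 : (H226.mj r a N w).re ≤ A0 + 2 * C7 * (BBc * (3 + K' / tht ^ c1)) := by
      refine (H226.mj_upper hr0 han hw.2.le).trans ?_
      rw [ha0]
      have h3 : ∑ k ∈ range N, a (k + 1) * (1 / 2) ^ k ≤ BBc * (3 + K' / tht ^ c1) := by
        simp_rw [ha1]
        exact sg_sum hcn hSg hBB
      have h4 : ‖w‖ / r ≤ C7 := by rw [div_le_iff₀ hr0]; exact hwr
      have h5 : 0 ≤ ∑ k ∈ range N, a (k + 1) * (1 / 2) ^ k :=
        Finset.sum_nonneg fun k _ => mul_nonneg (han _) (by positivity)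
      have h6 : 2 * (‖w‖ / r) * ∑ k ∈ range N, a (k + 1) * (1 / 2) ^ k ≤
          2 * C7 * (BBc * (3 + K' / tht ^ c1)) := by gcongr
      linarith
    linarith
  · -- lower bound of G
    intro ζ hζ
    rw [hReG]
    have hζ0 := hcl ζ hζ
    rcases frontier_cases hζ with ⟨x, hx, rfl⟩ | ⟨h1, h2⟩
    · obtain ⟨l, hl, hln, hSw, hpos, -⟩ := X.bd rfl D hn hx
      have h3 := hpos σ hσ
      have hmz := (hM _ hSw).1
      have h4 : -(max (σ * (2 * I * (al (μ x, (e.2 : ℂ) + x) - F (th (μ x, (e.2 : ℂ) + x)))).re) 0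
          + M) ≤ σ * (al (μ x, (e.2 : ℂ) + x)).im := by
        rw [im_al (F := F) (al := al) (th := th)]
        have h5 := hσ1 (F (th (μ x, (e.2 : ℂ) + x))).im
        have h6 : |(F (th (μ x, (e.2 : ℂ) + x))).im| ≤ M := (Complex.abs_im_le_norm _).trans hmz
        have h7 := le_max_left
          (σ * (2 * I * (al (μ x, (e.2 : ℂ) + x) - F (th (μ x, (e.2 : ℂ) + x)))).re) 0
        have h8 := le_max_right
          (σ * (2 * I * (al (μ x, (e.2 : ℂ) + x) - F (th (μ x, (e.2 : ℂ) + x)))).re) 0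
        have e1 : σ * ((F (th (μ x, (e.2 : ℂ) + x))).im -
            (2 * I * (al (μ x, (e.2 : ℂ) + x) - F (th (μ x, (e.2 : ℂ) + x)))).re / 2) =
            σ * (F (th (μ x, (e.2 : ℂ) + x))).im -
            (σ * (2 * I * (al (μ x, (e.2 : ℂ) + x) - F (th (μ x, (e.2 : ℂ) + x)))).re) / 2 := by
          ring
        rw [e1]
        linarith
      refine le_trans (neg_le_neg ?_) h4
      have h9 : max (σ * (2 * I * (al (μ x, (e.2 : ℂ) + x) - F (th (μ x, (e.2 : ℂ) + x)))).re) 0 ≤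
          BBc * bet ^ l * (1 + max (σ * V (n - (l + c1))) 0) := by
        have h10 : 1 + max (σ * (2 * I * (al (μ x, (e.2 : ℂ) + x) -
          F (th (μ x, (e.2 : ℂ) + x)))).re) 0 ≤
          BBc * bet ^ l * (1 + max (σ * V (n - (l + c1))) 0) := h3
        linarith
      rcases hl with hl0 | hl0
      · subst hl0
        refine le_trans ?_ (H226.mj_lower0 hr0 han hζ0)
        rw [ha0]
        rw [pow_zero, mul_one, zero_add] at h9
        have h11 := sg_term (V := V) (σ := σ) hcn hSg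
        have h12 : BBc * (1 + max (σ * V (n - c1)) 0) ≤ BBc * (1 + K' / tht ^ c1) := by gcongr
        rw [hA0]
        linarith
      · refine le_trans ?_ (H226.mj_lower hr0 han hζ0 (k := l) (by omega)
          (by rw [Complex.norm_real, Real.norm_eq_abs]; exact hl0))
        rw [ha0, ha1]
        have h13 : 0 ≤ BBc * (1 + K' / tht ^ c1) := by positivity
        linarith
    · have hca := (hMa _ (D.arc ζ h1 h2)).1
      refine le_trans (neg_le_neg (H226.mj_lower0 hr0 han hζ0)) ?_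
      rw [ha0]
      have h3 := hσ1 (al (μ ζ, (e.2 : ℂ) + ζ)).im
      have h4 := Complex.abs_im_le_norm (al (μ ζ, (e.2 : ℂ) + ζ))
      have h13 : 0 ≤ BBc * (1 + K' / tht ^ c1) := by positivity
      rw [hA0]
      linarith
  · -- bound of p
    intro ζ hζ
    rw [habs]
    rcases frontier_cases hζ with ⟨x, hx, rfl⟩ | ⟨h1, h2⟩
    · obtain ⟨l, -, -, hSw, -, -⟩ := X.bd rfl D hn hx
      refine (hM _ hSw).2.trans ?_
      have e1 : M = Real.exp (Real.log M) := (Real.exp_log (by linarith)).symm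
      calc M * Real.exp |(al (μ x, (e.2 : ℂ) + x)).im|
          = Real.exp (Real.log M + |(al (μ x, (e.2 : ℂ) + x)).im|) := by
            rw [Real.exp_add, Real.exp_log (by linarith)]
        _ ≤ _ := Real.exp_le_exp.mpr (by linarith)
    · refine (hMa _ (D.arc ζ h1 h2)).2.trans ?_
      calc Ma = Real.exp (Real.log Ma) := (Real.exp_log (by linarith)).symm
        _ ≤ _ := Real.exp_le_exp.mpr (by
          have := abs_nonneg (al (μ ζ, (e.2 : ℂ) + ζ)).im
          linarith)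

end

/-- **the core of GQ** -/
theorem core : Core := by
  intro Λ b F q e₀ ρ k al p th L A kap M D e heA heb hB
  refine ⟨1, one_pos, fun h₀ hh₀ _ K' W hWc hWs => ?_⟩
  rcases lt_or_ge K' 0 with hK | hK
  · exact ⟨0, 0, fun n _ hn => (not_le.mpr hK ((abs_nonneg _).trans hn)).elim⟩
  obtain ⟨C, q0, hC1, hq0, hq1, hW⟩ := cpt_Qd hWc hWs
  -- exponents
  set o := min (1 / 2 : ℝ) (kap / (1 + kap)) with ho
  have hkap := D.kap0
  have ho0 : 0 < o := lt_min (by norm_num) (by positivity)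
  set p0 := pS o with hp0
  have hp00 : 0 ≤ p0 := pS_nonneg ho0
  set s : ℝ := 1 - 1 / (9 * (p0 + 1)) with hs
  have hs1 : s < 1 := by
    rw [hs]
    have : 0 < 1 / (9 * (p0 + 1)) := by positivity
    linarith
  have hs0 : 0 ≤ s := by
    rw [hs]
    have : 1 / (9 * (p0 + 1)) ≤ 1 := by
      rw [div_le_one (by positivity)]
      linarith
    linarith
  have hsp : (1 - s) * p0 ≤ 1 / 9 := by
    rw [hs, sub_sub_cancel, div_mul_eq_mul_div, div_le_div_iff₀ (by positivity) (by norm_num)]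
    linarith
  -- the Bishop disc
  have hC5 : 0 < H226.C5 C q0 := H226.C5_pos (by linarith) hq0
  obtain ⟨c, p', H, B⟩ := hB (min 1 (q0 / (4 * H226.C5 C q0))) (lt_min one_pos (by positivity))
  have hεC : H226.C5 C q0 * min 1 (q0 / (4 * H226.C5 C q0)) ≤ q0 / 4 := by
    calc H226.C5 C q0 * min 1 (q0 / (4 * H226.C5 C q0))
        ≤ H226.C5 C q0 * (q0 / (4 * H226.C5 C q0)) := by
          gcongr
          exact min_le_right _ _
      _ = q0 / 4 := by field_simp
  obtain ⟨C1, C7, b1, hC10, hC71, hb10, hb11, hdisc⟩ := disc_exists' heA L.k0 L.k1.le hC1 hq0 hq1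
    hs0 hs1 (lt_min one_pos (by positivity)) (min_le_left _ _) hεC B
  obtain ⟨h, hh, hsub, hbd, hLog⟩ := D.saw (2 * C1 + 3) (by positivity)
  obtain ⟨c1, hc1⟩ := pow_unbounded_of_one_lt (4 * C7) (one_lt_two (α := ℝ))
  have hρe : 0 < ρ - dist e e₀ := by
    rw [mem_ball] at heb
    linarith
  set R := min (ρ - dist e e₀) (min (h / (2 * 2 ^ c1)) (h₀ / 2 ^ c1)) with hR
  have hR0 : 0 < R := lt_min hρe (lt_min (by positivity) (by positivity))
  obtain ⟨ρd, δ, r0, hρd0, hρdR, hδ, hr0, hd⟩ := hdisc R hR0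
  have X : Ctx A e (fun z => 2 * I * (al z - F (th z))) kap C1 C7 b1 s h h₀ ρd c1 :=
    { he := heA, kap0 := hkap, C10 := hC10, C71 := hC71, b10 := hb10, s0 := hs0, s1 := hs1,
      sp := by
        unfold pw
        rw [opn_eq hC10]
        exact hsp
      hc1 := hc1.le, h0 := hh₀, ρd0 := hρd0
      ρh := by
        have h1 : ρd ≤ h / (2 * 2 ^ c1) :=
          hρdR.trans ((min_le_right _ _).trans (min_le_left _ _))
        rw [le_div_iff₀ (by positivity)] at h1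
        linarith
      ρh₀ := by
        have h1 : ρd ≤ h₀ / 2 ^ c1 := hρdR.trans ((min_le_right _ _).trans (min_le_right _ _))
        rw [le_div_iff₀ (by positivity)] at h1
        linarith
      log := hLog }
  have hT2 : H226.T2 k R e ⊆ TB e₀ ρ (K2 k) := by
    rintro z ⟨h1, h2, h3, h4, h5, h6⟩
    have hRρ : R ≤ ρ - dist e e₀ := min_le_left _ _
    refine ⟨?_, ?_, h5, h6⟩
    · rw [mem_ball]
      have h7 : dist (ft z) e < R := by
        rw [Prod.dist_eq]
        exact max_lt (by rw [Real.dist_eq]; exact h1) (by rw [Real.dist_eq]; exact h2)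
      have := dist_triangle (ft z) e e₀
      linarith
    · have h7 : ‖ht z‖ < R := by
        rw [Prod.norm_def]
        exact max_lt h3 h4
      have := dist_nonneg (x := e) (y := e₀)
      linarith
  have hO : IsOpen (TB e₀ ρ (K2 k)) := isOpen_TB e₀ ρ (isOpen_K2 k)
  -- the compact arc
  have hKcomp : IsCompact (H226.T2c k (R / 2) δ e) := H226.T2c_compact _ _ _ _
  have hKsub : H226.T2c k (R / 2) δ e ⊆ TB e₀ ρ (K2 k) :=
    (H226.T2c_sub (by linarith) hδ).trans hT2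
  obtain ⟨Ma1, hMa1⟩ := hKcomp.exists_bound_of_continuousOn (L.dal.continuousOn.mono hKsub)
  obtain ⟨Ma2, hMa2⟩ := hKcomp.exists_bound_of_continuousOn (L.dp.continuousOn.mono hKsub)
  set Ma := max 1 (max Ma1 Ma2) with hMa
  have hMa' : ∀ z ∈ H226.T2c k (R / 2) δ e, ‖al z‖ ≤ Ma ∧ ‖p z‖ ≤ Ma := fun z hz =>
    ⟨(hMa1 z hz).trans ((le_max_left _ _).trans (le_max_right _ _)),
      (hMa2 z hz).trans ((le_max_right _ _).trans (le_max_right _ _))⟩
  set M₁ := max M 1 with hM₁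
  have hM₁' : ∀ z ∈ Sw kap (2 * C1 + 3) h A, ‖F (th z)‖ ≤ M₁ ∧ ‖p z‖ ≤ M₁ * Real.exp |(al z).im| := by
    intro z hz
    obtain ⟨h1, h2⟩ := hbd z hz
    refine ⟨h1.trans (le_max_left _ _), h2.trans ?_⟩
    gcongr
    exact le_max_left _ _
  obtain ⟨MA, hMA0, hMA⟩ := al_bd X hO L.dal hT2 (fun z hz => (hM₁' z hz).1)
    (fun z hz => (hMa' z hz).1) hK
  obtain ⟨MP, hMP⟩ := p_bd X hO L.dal L.dp hT2 (le_max_right _ _) hM₁' (le_max_left _ _) hMa' hK
    (σ := 1) (Or.inl rfl) (MA := MA)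
  obtain ⟨MQ, hMQ⟩ := p_bd X hO L.dal L.dp hT2 (le_max_right _ _) hM₁' (le_max_left _ _) hMa' hK
    (σ := -1) (Or.inr rfl) (MA := MA)
  -- late scales
  have hlate : ∀ᶠ n : ℕ in atTop, h₀ / 2 ^ n < min r0 ρd := by
    have h1 : Tendsto (fun n : ℕ => h₀ / 2 ^ n) atTop (𝓝 0) := by
      have := tendsto_pow_atTop_nhds_zero_of_lt_one (r := (1 / 2 : ℝ)) (by norm_num) (by norm_num)
      have h2 := this.const_mul h₀
      rw [mul_zero] at h2
      refine h2.congr fun n => ?_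
      rw [one_div, inv_pow]
      rfl
    exact h1.eventually_lt_const (lt_min hr0 hρd0)
  obtain ⟨n₀, hn₀⟩ := (hlate.and (eventually_ge_atTop c1)).exists_forall_of_atTop
  refine ⟨max MA (max MP MQ), n₀, fun n hn hVn hSg z hz => ?_⟩
  obtain ⟨h1, h2⟩ := hn₀ n hn
  have hr : 0 < h₀ / 2 ^ n := by positivity
  obtain ⟨w1, w2, w3, w4⟩ := hW z hz
  obtain ⟨μ, hμ⟩ := hd (h₀ / 2 ^ n) hr (h1.trans_le (min_le_left _ _)) z w1 w2 w3 w4
  have hbl : bl e (h₀ / 2 ^ n) z =
      ((e.1 : ℂ) + ((h₀ / 2 ^ n : ℝ) : ℂ) * z.1, (e.2 : ℂ) + ((h₀ / 2 ^ n : ℝ) : ℂ) * z.2) := rfl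
  rw [← hbl] at hμ
  have hρ' : h₀ / 2 ^ n ≤ ρd := (h1.trans_le (min_le_right _ _)).le
  have h3 := hMA n hρ' hVn _ μ hμ
  refine ⟨h3.trans (le_max_left _ _), ?_⟩
  rcases hSg with h4 | h4
  · exact (hMP n h2 hρ' hVn h4 _ μ hμ h3).trans ((le_max_left _ _).trans (le_max_right _ _))
  · exact (hMQ n h2 hρ' hVn h4 _ μ hμ h3).trans ((le_max_right _ _).trans (le_max_right _ _))

end Vale.Agent.P097.H264
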