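import Vale.Agent.P097.H264.Thick2
import Vale.Agent.P097.H264.Saw2
import Vale.Agent.P097.H877.Bd.Fat3

/-!
The dichotomy: at almost every foot either `g` is bounded (and has a limit) at the vertical end, or
`|Re g|` is unbounded there but has infinitely many thick scales.
-/

open Complex Metric Filter Topology Set MeasureTheory

namespace Vale.Agent.P097.H264

open Vale.Agent.P097.H877.Bd Vale.Agent.P097.H699

/-- a real function with integer values on a preconnected set is constant -/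
theorem int_const {X : Type*} [TopologicalSpace X] {s : Set X} (hs : IsPreconnected s) {f : X → ℝ}
    (hf : ContinuousOn f s) (hi : ∀ x ∈ s, ∃ n : ℤ, f x = n) {x y : X} (hx : x ∈ s) (hy : y ∈ s) :
    f x = f y := by
  have key : ∀ x ∈ s, ∀ y ∈ s, ¬ f x < f y := by
    intro x hx y hy hlt
    obtain ⟨n, hn⟩ := hi x hx
    obtain ⟨m, hm⟩ := hi y hy
    have hnm : n < m := by
      rw [hn, hm] at hlt; exact_mod_cast hlt
    have hnm' : (n : ℝ) + 1 ≤ m := by exact_mod_cast hnm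
    obtain ⟨z, hz, hfz⟩ := hs.intermediate_value hx hy hf
      (show f x + 1 / 2 ∈ Icc (f x) (f y) from ⟨by linarith, by rw [hn, hm]; linarith⟩)
    obtain ⟨k, hk⟩ := hi z hz
    rw [hk, hn] at hfz
    have h1 : (k : ℝ) - n = 1 / 2 := by linarith
    have h2 : ((2 * (k - n) : ℤ) : ℝ) = ((1 : ℤ) : ℝ) := by push_cast; linarith
    have h3 : 2 * (k - n) = 1 := by exact_mod_cast h2
    omega
  exact le_antisymm (not_lt.mp (key y hy x hx)) (not_lt.mp (key x hx y hy))

/-- a continuous logarithm of a convergent function converges -/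
theorem log_lim {C : Set ℂ} (hC : Convex ℝ C) {x ℓ : ℂ} (hℓ : ℓ ≠ 0) {g : ℂ → ℂ}
    (hg : ContinuousOn g C) (hlim : Tendsto (fun z => Complex.exp (g z)) (𝓝[C] x) (𝓝 ℓ)) :
    ∃ L : ℂ, Tendsto g (𝓝[C] x) (𝓝 L) := by
  have hlim' : Tendsto (fun z => Complex.exp (g z) / ℓ) (𝓝[C] x) (𝓝 1) := by
    have := hlim.div_const ℓ
    rwa [div_self hℓ] at this
  have hball : ball (1 : ℂ) 1 ∈ 𝓝 (1 : ℂ) := ball_mem_nhds _ one_pos
  have hev := hlim'.eventually hball
  rw [eventually_nhdsWithin_iff] at hev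
  obtain ⟨δ, hδ, hd⟩ := Metric.eventually_nhds_iff_ball.mp hev
  set s := C ∩ ball x δ with hs
  have hsC : Convex ℝ s := hC.inter (convex_ball x δ)
  have hslit : ∀ z ∈ s, Complex.exp (g z) / ℓ ∈ Complex.slitPlane := by
    intro z hz
    exact ball_one_subset_slitPlane (hd z hz.2 hz.1)
  set φ : ℂ → ℂ := fun z => Complex.log (Complex.exp (g z) / ℓ) with hφ
  have hgs : ContinuousOn g s := hg.mono inter_subset_left
  have hφc : ContinuousOn φ s := ((hgs.cexp).div_const ℓ).clog hslit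
  have hnz : (2 * Real.pi * I : ℂ) ≠ 0 := Complex.two_pi_I_ne_zero
  set N : ℂ → ℝ := fun z => ((g z - φ z - Complex.log ℓ) / (2 * Real.pi * I)).re with hN
  have hval : ∀ z ∈ s, ∃ n : ℤ, g z - φ z - Complex.log ℓ = n * (2 * Real.pi * I) := by
    intro z hz
    have h1 : Complex.exp (g z - φ z - Complex.log ℓ) = 1 := by
      rw [Complex.exp_sub, Complex.exp_sub, Complex.exp_log hℓ, hφ]
      simp only
      have h2 : Complex.exp (g z) / ℓ ≠ 0 := div_ne_zero (Complex.exp_ne_zero _) hℓ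
      rw [Complex.exp_log h2]
      have h3 := Complex.exp_ne_zero (g z)
      field_simp
    exact Complex.exp_eq_one_iff.mp h1
  have hNc : ContinuousOn N s := by
    have : ContinuousOn (fun z => (g z - φ z - Complex.log ℓ) / (2 * Real.pi * I)) s :=
      ((hgs.sub hφc).sub continuousOn_const).div_const _
    exact Complex.continuous_re.comp_continuousOn this
  have hNint : ∀ z ∈ s, ∃ n : ℤ, N z = n := by
    intro z hz
    obtain ⟨n, hn⟩ := hval z hz
    refine ⟨n, ?_⟩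
    simp only [hN]
    rw [hn, mul_div_assoc, div_self hnz, mul_one]
    simp
  have hmemw : s ∈ 𝓝[C] x := by
    rw [hs]
    exact inter_mem_nhdsWithin _ (ball_mem_nhds _ hδ)
  rcases s.eq_empty_or_nonempty with he | ⟨z₀, hz₀⟩
  · refine ⟨0, ?_⟩
    have hbot : 𝓝[C] x = ⊥ := by
      rw [← Filter.empty_mem_iff_bot, ← he]
      exact hmemw
    rw [hbot]
    exact tendsto_bot
  · obtain ⟨n, hn⟩ := hval z₀ hz₀
    have hconst : ∀ z ∈ s, g z - φ z - Complex.log ℓ = n * (2 * Real.pi * I) := by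
      intro z hz
      obtain ⟨m, hm⟩ := hval z hz
      have h1 : N z = m := by
        simp only [hN]; rw [hm, mul_div_assoc, div_self hnz, mul_one]; simp
      have h2 : N z₀ = n := by
        simp only [hN]; rw [hn, mul_div_assoc, div_self hnz, mul_one]; simp
      have h3 := int_const hsC.isPreconnected hNc hNint hz hz₀
      rw [h1, h2] at h3
      have h4 : m = n := by exact_mod_cast h3
      rw [hm, h4]
    have hφ0 : Tendsto φ (𝓝[C] x) (𝓝 0) := by
      have h1 : ContinuousAt Complex.log 1 := continuousAt_clog (by simp)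
      have h2 := h1.tendsto.comp hlim'
      rwa [Complex.log_one] at h2
    refine ⟨n * (2 * Real.pi * I) + Complex.log ℓ, ?_⟩
    have h5 : Tendsto (fun z => φ z + (n * (2 * Real.pi * I) + Complex.log ℓ)) (𝓝[C] x)
        (𝓝 (0 + (n * (2 * Real.pi * I) + Complex.log ℓ))) := hφ0.add_const _
    rw [zero_add] at h5
    refine h5.congr' ?_
    filter_upwards [hmemw] with z hz
    rw [← hconst z hz]
    ring

/-- bounds on the axis propagate to smaller cones (one variable) -/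
theorem cone_bound {g : ℂ → ℂ} {k k' h δ x V : ℝ} (hk' : 0 < k') (hkk : k' < k) (hδ : 0 < δ)
    (hδh : 2 * δ ≤ h) (hg : LogOm (cone k h x) g)
    (hV : ∀ r ∈ Ioo 0 δ, |(g (x + r * I)).re| ≤ V) :
    ∃ M : ℝ, ∀ z ∈ cone k' δ x, |(g z).re| ≤ M := by
  have hk : 0 < k := hk'.trans hkk
  set c := min (1 / 2) ((k - k') / (1 + k)) with hc
  have hc0 : 0 < c := by
    have : 0 < (k - k') / (1 + k) := div_pos (by linarith) (by linarith)
    positivity
  have hc1 : c ≤ 1 / 2 := min_le_left _ _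
  have hc2 : c * (1 + k) ≤ k - k' := by
    have : c ≤ (k - k') / (1 + k) := min_le_right _ _
    rwa [le_div_iff₀ (by linarith)] at this
  refine ⟨KS ^ (8 * k' / c + 1) * (1 + V), fun z hz => ?_⟩
  have ht : 0 < z.im := cone_im_pos hk' hz
  set t := z.im with htd
  have hzδ : t < δ := hz.2
  have hzx : |z.re - x| < k' * t := hz.1
  have hdiff : z - ((x : ℂ) + t * I) = ((z.re - x : ℝ) : ℂ) := by
    apply Complex.ext <;> simp [htd]
  have hseg := path_seg (U := cone k h x) (z := (x : ℂ) + t * I) (w := z) (R := c * t)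
    (by positivity) (by
      intro s hs w hw
      rw [hdiff, mem_ball, dist_eq_norm] at hw
      have e1 : w - ((x : ℂ) + t * I + (s : ℂ) • ((z.re - x : ℝ) : ℂ)) =
          (w - ((x + s * (z.re - x) : ℝ) : ℂ)) - t * I := by
        push_cast
        rw [smul_eq_mul]
        ring
      have h1 := (Complex.abs_re_le_norm _).trans_lt hw
      have h2 := (Complex.abs_im_le_norm _).trans_lt hw
      rw [e1] at h1 h2
      simp only [sub_re, sub_im, ofReal_re, ofReal_im, mul_re, mul_im, I_re, I_im, mul_zero,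
        mul_one, sub_zero, add_zero] at h1 h2
      rw [abs_lt] at h1 h2
      have hs1 : |s * (z.re - x)| ≤ |z.re - x| := by
        rw [abs_mul, abs_of_nonneg hs.1]
        exact mul_le_of_le_one_left (abs_nonneg _) hs.2
      have hs2 := abs_le.mp (hs1.trans hzx.le)
      refine ⟨?_, ?_⟩
      · rw [abs_lt]
        constructor
        · nlinarith
        · nlinarith
      · nlinarith)
  have h3 := (hseg g hg).1
  have hax := hV t ⟨ht, hzδ⟩
  have hexp : 8 * ‖z - ((x : ℂ) + t * I)‖ / (c * t) + 1 ≤ 8 * k' / c + 1 := by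
    rw [hdiff, Complex.norm_real, Real.norm_eq_abs]
    have : 8 * |z.re - x| / (c * t) ≤ 8 * k' / c := by
      rw [div_le_div_iff₀ (by positivity) hc0]
      nlinarith
    linarith
  have h4 : KS ^ (8 * ‖z - ((x : ℂ) + t * I)‖ / (c * t) + 1) ≤ KS ^ (8 * k' / c + 1) :=
    Real.rpow_le_rpow_of_exponent_le KS_one hexp
  have h5 : 0 < KS ^ (8 * k' / c + 1) := by
    have := KS_one
    positivity
  calc |(g z).re| ≤ 1 + |(g z).re| := by linarith
    _ ≤ KS ^ (8 * ‖z - ((x : ℂ) + t * I)‖ / (c * t) + 1) * (1 + |(g ((x : ℂ) + t * I)).re|) := h3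
    _ ≤ KS ^ (8 * k' / c + 1) * (1 + V) := by gcongr

/-- **Type I.**  Almost every foot with `|Re g|` bounded on the axis has a limit of `g` in every
cone. -/
theorem typeI_ae {D : Set ℂ} {g : ℂ → ℂ} (hg : LogOm D g) {S : Set ℝ}
    (hS : ∀ x ∈ S, ∃ k > 0, ∃ h > 0, cone k h x ⊆ D) :
    ∀ᵐ x : ℝ, x ∈ S → (∃ V : ℝ, ∀ᶠ r : ℝ in 𝓝[>] 0, |(g (x + r * I)).re| ≤ V) →
      ∃ L : ℂ, ∀ k' > 0, ∃ h' > 0, cone k' h' x ⊆ D ∧
        Tendsto g (𝓝[cone k' h' x] (x : ℂ)) (𝓝 L) := by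
  set S' : Set ℝ := {x | x ∈ S ∧ ∃ V : ℝ, ∀ᶠ r : ℝ in 𝓝[>] 0, |(g (x + r * I)).re| ≤ V} with hS'
  have hbd : ∀ x ∈ S', ∃ k > 0, ∃ h > 0, ∃ M : ℝ, cone k h x ⊆ D ∧
      ∀ z ∈ cone k h x, |(g z).re| ≤ M := by
    rintro x ⟨hx, V, hV⟩
    obtain ⟨k, hk, h, hh, hsub⟩ := hS x hx
    obtain ⟨δ, hδ, hd⟩ := mem_nhdsGT_iff_exists_Ioo_subset.mp hV
    have hδ0 : (0 : ℝ) < δ := hδ
    set d := min δ (h / 2) with hdd
    have hd0 : 0 < d := lt_min hδ0 (by positivity)
    obtain ⟨M, hM⟩ := cone_bound (g := g) (k := k) (k' := k / 2) (h := h) (δ := d) (x := x) (V := V)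
      (by positivity) (by linarith) hd0 (by linarith [min_le_right δ (h / 2)]) (hg.mono hsub)
      (fun r hr => hd ⟨hr.1, hr.2.trans_le (min_le_left _ _)⟩)
    refine ⟨k / 2, by positivity, d, hd0, M, (cone_mono (by positivity) (by linarith)
      (by linarith [min_le_right δ (h / 2)])).trans hsub, hM⟩
  have hfat := fatloc (f := fun z => Complex.exp (g z)) hg.hol.cexp (E := S') (by
    intro x hx
    obtain ⟨k, hk, h, hh, M, hsub, hM⟩ := hbd x hx
    refine ⟨k, hk, h, hh, Real.exp M, hsub, fun z hz => ?_⟩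
    rw [Complex.norm_exp]
    exact Real.exp_le_exp.mpr ((le_abs_self _).trans (hM z hz)))
  filter_upwards [hfat] with x hx hxS hV
  obtain ⟨ℓ, hℓ⟩ := hx ⟨hxS, hV⟩
  -- the limit is not zero
  obtain ⟨V, hV⟩ := hV
  have haxis : ∀ k' > 0, ∀ h' > 0, Tendsto (fun r : ℝ => (x : ℂ) + r * I) (𝓝[>] 0)
      (𝓝[cone k' h' x] (x : ℂ)) := by
    intro k' hk' h' hh'
    refine tendsto_nhdsWithin_iff.mpr ⟨?_, ?_⟩
    · have : Tendsto (fun r : ℝ => (x : ℂ) + r * I) (𝓝 0) (𝓝 ((x : ℂ) + (0 : ℝ) * I)) :=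
        (Continuous.tendsto (by fun_prop) 0)
      simp only [ofReal_zero, zero_mul, add_zero] at this
      exact this.mono_left nhdsWithin_le_nhds
    · filter_upwards [Ioo_mem_nhdsGT hh'] with r hr
      exact ax_mem hk' hr.1 hr.2
  have hℓ0 : ℓ ≠ 0 := by
    obtain ⟨h', hh', -, hlim⟩ := hℓ 1 one_pos
    have h1 := (hlim.comp (haxis 1 one_pos h' hh')).norm
    have h2 : Real.exp (-V) ≤ ‖ℓ‖ := by
      refine ge_of_tendsto h1 ?_
      filter_upwards [hV] with r hr
      simp only [Function.comp]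
      rw [Complex.norm_exp]
      exact Real.exp_le_exp.mpr (neg_le_of_abs_le hr)
    have h3 := Real.exp_pos (-V)
    rw [← norm_pos_iff]
    linarith
  -- a limit in every cone
  have hall : ∀ k' > 0, ∃ L : ℂ, ∃ h' > 0, cone k' h' x ⊆ D ∧
      Tendsto g (𝓝[cone k' h' x] (x : ℂ)) (𝓝 L) := by
    intro k' hk'
    obtain ⟨h', hh', hsub, hlim⟩ := hℓ k' hk'
    obtain ⟨L, hL⟩ := log_lim (convex_cone k' h' x) hℓ0 (hg.hol.continuousOn.mono hsub) hlim
    exact ⟨L, h', hh', hsub, hL⟩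
  -- the limits agree (they agree on the axis)
  obtain ⟨L, h₁, hh₁, -, hL⟩ := hall 1 one_pos
  refine ⟨L, fun k' hk' => ?_⟩
  obtain ⟨L', h', hh', hsub, hL'⟩ := hall k' hk'
  have h4 := hL.comp (haxis 1 one_pos h₁ hh₁)
  have h5 := hL'.comp (haxis k' hk' h' hh')
  have : L' = L := tendsto_nhds_unique h5 h4
  exact ⟨h', hh', hsub, this ▸ hL'⟩

/-- **The dichotomy, one variable.** -/
theorem dich_ae {D : Set ℂ} {g : ℂ → ℂ} (hg : LogOm D g) {S : Set ℝ}
    (hS : ∀ x ∈ S, ∃ k > 0, ∃ h > 0, cone k h x ⊆ D) :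
    ∀ᵐ x : ℝ, x ∈ S →
      (∃ L : ℂ, ∀ k' > 0, ∃ h' > 0, cone k' h' x ⊆ D ∧
        Tendsto g (𝓝[cone k' h' x] (x : ℂ)) (𝓝 L)) ∨
      ((∃ V₀ : ℝ, ∃ᶠ r : ℝ in 𝓝[>] 0, |(g (x + r * I)).re| ≤ V₀) ∧
        ∀ V : ℝ, ∃ᶠ r : ℝ in 𝓝[>] 0, V < |(g (x + r * I)).re|) := by
  have hOm : Om D fun z => Complex.exp (g z) :=
    ⟨hg.hol.cexp, fun z hz => ⟨Complex.exp_ne_zero _, hg.ne z hz⟩⟩
  filter_upwards [thick_ae hOm hS, typeI_ae hg hS] with x h1 h2 hx
  by_cases hV : ∃ V : ℝ, ∀ᶠ r : ℝ in 𝓝[>] 0, |(g (x + r * I)).re| ≤ V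
  · exact Or.inl (h2 hx hV)
  · right
    constructor
    · obtain ⟨V₀, h3⟩ := h1 hx
      refine ⟨V₀, h3.mono fun r hr => ?_⟩
      simpa [Complex.norm_exp, Real.log_exp] using hr
    · intro V
      by_contra hcon
      exact hV ⟨V, (Filter.not_frequently.mp hcon).mono fun r hr => not_lt.mp hr⟩

end Vale.Agent.P097.H264
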