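import Vale.Agent.P097.H264.Dich

/-!
The dichotomy in two variables.
-/

open Complex Metric Filter Topology Set MeasureTheory

namespace Vale.Agent.P097.H264

open Vale.Agent.P097.H877.Bd Vale.Agent.P097.H699

/-- every foot is the vertex of a cone of its own real slice -/
def SliceCones (D : Set (ℂ × ℂ)) (S : Set (ℝ × ℝ)) : Prop :=
  ∀ e ∈ S, ∃ k > 0, ∃ h > 0, ∀ z ∈ cone k h e.1, (z, (e.2 : ℂ)) ∈ D

/-- the feet with a bounded vertical end form a measurable set (relative to `S`) -/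
theorem meas_bdd {D : Set (ℂ × ℂ)} (hD : IsOpen D) {u : ℂ × ℂ → ℝ} (hu : ContinuousOn u D)
    {S : Set (ℝ × ℝ)} (hS : SliceCones D S) :
    ∃ T : Set (ℝ × ℝ), MeasurableSet T ∧ ∀ e ∈ S,
      ((∃ V : ℝ, ∀ᶠ r : ℝ in 𝓝[>] 0, u (pt e r) ≤ V) ↔ e ∈ T) := by
  set Op : ℕ → ℕ → Set (ℝ × ℝ) := fun V n => {e | ∃ r : ℝ, 0 < r ∧ r < 1 / ((n : ℝ) + 1) ∧
    pt e r ∈ D ∧ (V : ℝ) < u (pt e r)} with hOp
  have hOpo : ∀ V n, IsOpen (Op V n) := by
    intro V n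
    rw [isOpen_iff_mem_nhds]
    rintro e ⟨r, hr0, hr1, hrD, hru⟩
    have hcont : Continuous fun e : ℝ × ℝ => pt e r := by
      unfold pt
      fun_prop
    have hDn : D ∈ 𝓝 (pt e r) := hD.mem_nhds hrD
    have h1 : ∀ᶠ e' : ℝ × ℝ in 𝓝 e, pt e' r ∈ D := hcont.continuousAt.eventually hDn
    have h2 : ContinuousAt (fun e : ℝ × ℝ => u (pt e r)) e :=
      ContinuousAt.comp (f := fun e : ℝ × ℝ => pt e r) (hu.continuousAt hDn) hcont.continuousAt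
    filter_upwards [h1, h2.eventually_const_lt hru] with e' h4 h5
    exact ⟨r, hr0, hr1, h4, h5⟩
  refine ⟨⋃ V : ℕ, ⋃ n : ℕ, (Op V n)ᶜ, MeasurableSet.iUnion fun V => MeasurableSet.iUnion fun n =>
    (hOpo V n).measurableSet.compl, fun e he => ?_⟩
  obtain ⟨k, hk, h, hh, hcone⟩ := hS e he
  simp only [mem_iUnion, mem_compl_iff]
  constructor
  · rintro ⟨V₀, hV⟩
    obtain ⟨V, hV2⟩ := exists_nat_gt V₀
    obtain ⟨δ, hδ, hδs⟩ := mem_nhdsGT_iff_exists_Ioo_subset.mp hV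
    obtain ⟨n, hn⟩ := exists_nat_one_div_lt (show (0 : ℝ) < δ from hδ)
    refine ⟨V, n, ?_⟩
    rintro ⟨r, hr0, hr1, -, hru⟩
    have h1 : u (pt e r) ≤ V₀ := hδs (show r ∈ Ioo 0 δ from ⟨hr0, hr1.trans hn⟩)
    linarith
  · rintro ⟨V, n, hn⟩
    refine ⟨V, ?_⟩
    have hm : Ioo (0 : ℝ) (min h (1 / ((n : ℝ) + 1))) ∈ 𝓝[>] (0 : ℝ) :=
      Ioo_mem_nhdsGT (lt_min hh (by positivity))
    filter_upwards [hm] with r hr
    by_contra hcon
    push Not at hcon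
    exact hn ⟨r, hr.1, hr.2.trans_le (min_le_right _ _),
      hcone _ (ax_mem hk hr.1 (hr.2.trans_le (min_le_left _ _))), hcon⟩

/-- Fubini in the slices with real second coordinate -/
theorem slice_null {B : Set (ℝ × ℝ)} (hB : MeasurableSet B)
    (h : ∀ ξ : ℝ, volume {x : ℝ | (x, ξ) ∈ B} = 0) : (volume : Measure (ℝ × ℝ)) B = 0 := by
  have h1 : (volume : Measure (ℝ × ℝ)) (Prod.swap ⁻¹' B) = volume B :=
    (Measure.measurePreserving_swap (μ := (volume : Measure ℝ)) (ν := (volume : Measure ℝ))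
      ).measure_preimage hB.nullMeasurableSet
  rw [← h1, Measure.volume_eq_prod, Measure.measure_prod_null (measurable_swap hB)]
  exact Filter.Eventually.of_forall fun ξ => h ξ

/-- **The dichotomy, two variables.**  `g` holomorphic on the open set `D ⊆ ℂ × ℂ`, `exp g ≠ 1`.
At almost every foot either `g` is bounded on the vertical end, or `|Re g|` is unbounded there but
has infinitely many thick scales. -/
theorem dich_ae2 {D : Set (ℂ × ℂ)} (hD : IsOpen D) {g : ℂ × ℂ → ℂ} (hg : LogOm D g)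
    {S : Set (ℝ × ℝ)} (hSm : MeasurableSet S) (hS : SliceCones D S) :
    ∀ᵐ e : ℝ × ℝ, e ∈ S →
      (∃ M : ℝ, ∀ᶠ r : ℝ in 𝓝[>] 0, ‖g (pt e r)‖ ≤ M) ∨
      ((∃ V₀ : ℝ, ∃ᶠ r : ℝ in 𝓝[>] 0, |(g (pt e r)).re| ≤ V₀) ∧
        ∀ V : ℝ, ∃ᶠ r : ℝ in 𝓝[>] 0, V < |(g (pt e r)).re|) := by
  have hth := thick_ae2 hD hg.hol.cexp (fun z hz => ⟨Complex.exp_ne_zero _, hg.ne z hz⟩) hSm hS
  obtain ⟨T₁, hT₁, h₁⟩ := meas_bdd hD (u := fun z => |(g z).re|)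
    (Complex.continuous_re.comp_continuousOn hg.hol.continuousOn).abs hS
  obtain ⟨T₂, hT₂, h₂⟩ := meas_bdd hD (u := fun z => ‖g z‖) hg.hol.continuousOn.norm hS
  have hnull : (volume : Measure (ℝ × ℝ)) ((S ∩ T₁) \ T₂) = 0 := by
    refine slice_null ((hSm.inter hT₁).diff hT₂) fun ξ => ?_
    have hDs : MapsTo (fun z : ℂ => (z, (ξ : ℂ))) {z : ℂ | (z, (ξ : ℂ)) ∈ D} D := fun z hz => hz
    have hsl := typeI_ae (D := {z : ℂ | (z, (ξ : ℂ)) ∈ D}) (g := fun z => g (z, (ξ : ℂ)))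
      ⟨hg.hol.comp (by fun_prop) hDs, fun z hz => hg.ne _ hz⟩ (S := {x : ℝ | (x, ξ) ∈ S})
      (fun x hx => by
        obtain ⟨k, hk, h, hh, hc⟩ := hS (x, ξ) hx
        exact ⟨k, hk, h, hh, fun z hz => hc z hz⟩)
    rw [ae_iff] at hsl
    refine measure_mono_null (fun x hx => ?_) hsl
    obtain ⟨⟨hxS, hx1⟩, hx2⟩ := hx
    simp only [Set.mem_ofPred_eq, Classical.not_imp]
    refine ⟨hxS, (h₁ (x, ξ) hxS).mpr hx1, ?_⟩
    rintro ⟨L, hL⟩
    refine hx2 ((h₂ (x, ξ) hxS).mp ?_)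
    obtain ⟨h', hh', -, hlim⟩ := hL 1 one_pos
    refine ⟨‖L‖ + 1, ?_⟩
    have haxis : Tendsto (fun r : ℝ => (x : ℂ) + r * I) (𝓝[>] 0) (𝓝[cone 1 h' x] (x : ℂ)) := by
      refine tendsto_nhdsWithin_iff.mpr ⟨?_, ?_⟩
      · have : Tendsto (fun r : ℝ => (x : ℂ) + r * I) (𝓝 0) (𝓝 ((x : ℂ) + (0 : ℝ) * I)) :=
          (Continuous.tendsto (by fun_prop) 0)
        simp only [ofReal_zero, zero_mul, add_zero] at this
        exact this.mono_left nhdsWithin_le_nhds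
      · filter_upwards [Ioo_mem_nhdsGT hh'] with r hr
        exact ax_mem one_pos hr.1 hr.2
    have h3 := (hlim.comp haxis).norm.eventually_le_const (lt_add_one ‖L‖)
    filter_upwards [h3] with r hr
    exact hr
  have hnull' : ∀ᵐ e : ℝ × ℝ, e ∉ (S ∩ T₁) \ T₂ := by
    exact measure_eq_zero_iff_ae_notMem.mp hnull
  filter_upwards [hth, hnull'] with e h3 h4 he
  by_cases hV : ∃ V : ℝ, ∀ᶠ r : ℝ in 𝓝[>] 0, |(g (pt e r)).re| ≤ V
  · left
    have h5 : e ∈ T₂ := by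
      by_contra hcon
      exact h4 ⟨⟨he, (h₁ e he).mp hV⟩, hcon⟩
    exact (h₂ e he).mpr h5
  · right
    constructor
    · obtain ⟨V₀, h6⟩ := h3 he
      refine ⟨V₀, h6.mono fun r hr => ?_⟩
      simpa [Complex.norm_exp, Real.log_exp, pt] using hr
    · intro V
      by_contra hcon
      exact hV ⟨V, (Filter.not_frequently.mp hcon).mono fun r hr => not_lt.mp hr⟩

/-- **Type I in the two dimensional cones**: a bound on the vertical end gives a bound in the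
two dimensional cone of every smaller opening -/
theorem typeI_cone {κ κ₁ C C₁ h : ℝ} (h0 : 0 ≤ κ₁) (h1 : κ₁ < κ) (h2 : 0 ≤ C₁)
    (h3 : 1 + C₁ < C) {g : ℂ × ℂ → ℂ} {e : ℝ × ℝ} (hg : LogOm (Sw κ C h {e}) g) {M δ : ℝ}
    (hM : ∀ r ∈ Ioo 0 δ, ‖g (pt e r)‖ ≤ M) :
    ∃ M', ∀ w : ℂ × ℂ, Pt κ₁ C₁ {e} w → w.1.im < δ → 2 * max 1 C₁ * w.1.im ≤ h → ‖g w‖ ≤ M' := by
  refine ⟨Kw κ κ₁ C C₁ * (max 1 C₁) ^ pw κ κ₁ C C₁ * (max 1 C₁) ^ pw κ κ₁ C C₁ * (1 + M) + M,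
    fun w hw hwδ hwh => ?_⟩
  set t := w.1.im with ht
  have ht0 : 0 < t := hw.1
  set m := max 1 C₁ with hm
  have hm1 : 1 ≤ m := le_max_left _ _
  have hmC : C₁ ≤ m := le_max_right _ _
  have hz : Pt κ₁ C₁ {e} (pt e t) := pt_Pt h0 ht0 ⟨e, rfl, by rw [dist_self]; positivity⟩
  have hd : dist ((pt e t).1.re, (pt e t).2.re) (w.1.re, w.2.re) ≤ m * t := by
    obtain ⟨e', he', hde⟩ := hw.2.2
    rw [mem_singleton_iff] at he'
    subst he'
    simp only [pt_1re, pt_2re]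
    rw [dist_comm]
    refine hde.trans ?_
    gcongr
  have key := (saw_chain h0 h1 h2 h3 hg hz hw (ρ := m * t) (by linarith)
    (by rw [pt_1im]; nlinarith) (by nlinarith) hd).1
  have hb := hM t ⟨ht0, hwδ⟩
  have hre : |(g (pt e t)).re| ≤ M := (Complex.abs_re_le_norm _).trans hb
  have h5 : ‖g w‖ ≤ ‖g w - g (pt e t)‖ + ‖g (pt e t)‖ := by
    have := norm_add_le (g w - g (pt e t)) (g (pt e t))
    rwa [sub_add_cancel] at this
  rw [pt_1im, mul_div_assoc, div_self ht0.ne', mul_one] at key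
  have hKS := KS_one
  have hK : 0 < Kw κ κ₁ C C₁ := by
    unfold Kw
    positivity
  have h6 : Kw κ κ₁ C C₁ * m ^ pw κ κ₁ C C₁ * m ^ pw κ κ₁ C C₁ * (1 + |(g (pt e t)).re|) ≤
      Kw κ κ₁ C C₁ * m ^ pw κ κ₁ C C₁ * m ^ pw κ κ₁ C C₁ * (1 + M) := by
    gcongr
  linarith

end Vale.Agent.P097.H264
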