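import Vale.Agent.P097.H226.GDefs
import Vale.Agent.P097.H226.Targ2
import Vale.Agent.P097.H226.Harn

/-!
Interface of the row GQ of `H226/GDefs`: `Core` (discs, octave bounds at one scale).
-/

open Complex Metric Filter Topology Set MeasureTheory Finset
open Vale.Agent.P097.TC

namespace Vale.Agent.P097.H264

/-- the value on the axis over `e` at the octave `m` below the height `h₀` -/
noncomputable def Vx (F : ℂ → ℂ) (al th : ℂ × ℂ → ℂ) (e : ℝ × ℝ) (h₀ : ℝ) (m : ℕ) : ℝ :=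
  (2 * I * (al (pt e (h₀ / 2 ^ m)) - F (th (pt e (h₀ / 2 ^ m))))).re

/-- weighted sum of the values of one sign -/
noncomputable def Sg (V : ℕ → ℝ) (σ : ℝ) (n : ℕ) : ℝ :=
  ∑ m ∈ range (n + 1), (H226.Dc⁻¹ ^ (3 * 2)) ^ (n - m) * max (σ * V m) 0

/-- the sawtooth data at one foot -/
structure SawD (F : ℂ → ℂ) (e₀ : ℝ × ℝ) (ρ k : ℝ) (al p th : ℂ × ℂ → ℂ) (A : Set (ℝ × ℝ))
    (kap M : ℝ) : Prop where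
  kap0 : 0 < kap
  kapk : kap < k
  saw : ∀ C > 0, ∃ h > 0, Sw kap C h A ⊆ TB e₀ ρ (K2 k) ∧
    (∀ z ∈ Sw kap C h A, ‖F (th z)‖ ≤ M ∧ ‖p z‖ ≤ M * Real.exp |(al z).im|) ∧
    LogOm (Sw kap C h A) (fun z => 2 * I * (al z - F (th z)))

/-- **the core of GQ** -/
def Core : Prop := ∀ {Λ b : ℝ} {F q : ℂ → ℂ} {e₀ : ℝ × ℝ} {ρ k : ℝ} {al p th : ℂ × ℂ → ℂ},
  LW Λ b F q e₀ ρ k al p th → ∀ {A : Set (ℝ × ℝ)} {kap M : ℝ},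
  SawD F e₀ ρ k al p th A kap M → ∀ {e : ℝ × ℝ}, e ∈ A → e ∈ ball e₀ ρ →
  (∀ ε > 0, ∃ c p' H, H226.Bish A e ε c p' H) →
  ∃ h₁ > 0, ∀ h₀, 0 < h₀ → h₀ ≤ h₁ → ∀ K' : ℝ, ∀ W : Set (ℂ × ℂ), IsCompact W →
    W ⊆ Tc H226.Qd → ∃ (M' : ℝ) (n₀ : ℕ), ∀ n ≥ n₀, |Vx F al th e h₀ n| ≤ K' →
    (Sg (Vx F al th e h₀) 1 n ≤ K' ∨ Sg (Vx F al th e h₀) (-1) n ≤ K') → ∀ z ∈ W,
      ‖al (bl e (h₀ / 2 ^ n) z) - al (pt e (h₀ / 2 ^ n))‖ ≤ M' ∧ ‖p (bl e (h₀ / 2 ^ n) z)‖ ≤ M'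

end Vale.Agent.P097.H264
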