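import Vale.Agent.P097.H264.Saw2

/-!
Polynomial bounds, in terms of the distance to the boundary of the tube, for holomorphic functions
on the tube `|Im ζ| < κ Im μ` whose exponential omits `1`; holomorphic logarithms on convex sets.
-/

open Complex Metric Filter Topology Set

namespace Vale.Agent.P097.H264

open Vale.Agent.P097.H699

section hlog

variable {E : Type*} [NormedAddCommGroup E] [NormedSpace ℂ E]

/-- a continuous logarithm of a holomorphic function is holomorphic -/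
theorem hol_of_exp {U : Set E} (hU : IsOpen U) {f g : E → ℂ} (hf : DifferentiableOn ℂ f U)
    (hg : ContinuousOn g U) (h : ∀ z ∈ U, Complex.exp (g z) = f z) : DifferentiableOn ℂ g U := by
  intro z hz
  have hn := hU.mem_nhds hz
  have hfz : f z ≠ 0 := by rw [← h z hz]; exact Complex.exp_ne_zero _
  have hgz : ContinuousAt g z := hg.continuousAt hn
  have h1 : ∀ᶠ w in 𝓝 z, |(g w - g z).im| < Real.pi := by
    have : ContinuousAt (fun w => |(g w - g z).im|) z :=
      (Complex.continuous_im.continuousAt.comp (hgz.sub continuousAt_const)).abs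
    have h0 : |(g z - g z).im| < Real.pi := by simpa using Real.pi_pos
    exact this.eventually_lt_const h0
  have h2 : g =ᶠ[𝓝 z] fun w => g z + Complex.log (f w / f z) := by
    filter_upwards [h1, hn] with w hw hwU
    have h3 : f w / f z = Complex.exp (g w - g z) := by rw [Complex.exp_sub, h w hwU, h z hz]
    rw [h3, Complex.log_exp (by linarith [(abs_lt.mp hw).1]) (by linarith [(abs_lt.mp hw).2])]
    ring
  have h4 : DifferentiableAt ℂ (fun w => g z + Complex.log (f w / f z)) z := by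
    have h5 : DifferentiableAt ℂ (fun w => f w / f z) z := by
      simp only [div_eq_mul_inv]
      exact (hf.differentiableAt hn).mul_const _
    refine DifferentiableAt.const_add _ (h5.clog ?_)
    rw [div_self hfz]
    exact Complex.one_mem_slitPlane
  exact (h4.congr_of_eventuallyEq h2).differentiableWithinAt

/-- holomorphic logarithm of a zero free function on a convex open set -/
theorem exists_hlog {U : Set E} (hU : IsOpen U) (hc : Convex ℝ U) {f : E → ℂ}
    (hf : DifferentiableOn ℂ f U) (h0 : ∀ z ∈ U, f z ≠ 0) :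
    ∃ g : E → ℂ, DifferentiableOn ℂ g U ∧ ∀ z ∈ U, Complex.exp (g z) = f z := by
  rcases U.eq_empty_or_nonempty with he | hne
  · subst he
    exact ⟨0, differentiableOn_empty, by simp⟩
  have hcs : ContractibleSpace U := hc.contractibleSpace hne
  have hsc : IsSimplyConnected U := SimplyConnectedSpace.ofContractible _
  obtain ⟨L, hL, hLe⟩ := Complex.exists_continuousOn_eqOn_exp_comp hsc hU hf.continuousOn
    (by rintro ⟨z, hz, h1⟩; exact h0 z hz h1)
  exact ⟨L, hol_of_exp hU hf hL (fun z hz => hLe hz), fun z hz => hLe hz⟩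

/-- growth relation for functions which omit `0` and `1` on a convex set -/
theorem J.om {U : Set E} (hU : IsOpen U) (hc : Convex ℝ U) {a : ℝ} {z w : E} (h : J U a z w)
    (hz : z ∈ U) (hw : w ∈ U) {f : E → ℂ} (hf : DifferentiableOn ℂ f U)
    (h01 : ∀ z ∈ U, f z ≠ 0 ∧ f z ≠ 1) :
    1 + |Real.log ‖f w‖| ≤ a * (1 + |Real.log ‖f z‖|) := by
  obtain ⟨g, hg, hgf⟩ := exists_hlog hU hc hf (fun z hz => (h01 z hz).1)
  have h1 := (h g ⟨hg, fun y hy => by rw [hgf y hy]; exact (h01 y hy).2⟩).1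
  have hre : ∀ y ∈ U, (g y).re = Real.log ‖f y‖ := by
    intro y hy
    rw [← hgf y hy, Complex.norm_exp, Real.log_exp]
  rwa [hre z hz, hre w hw] at h1

end hlog

/-- the tube over the cone `|y₂| < κ y₁` -/
def T1 (κ : ℝ) : Set (ℂ × ℂ) := {z | |z.2.im| < κ * z.1.im}

theorem isOpen_T1 (κ : ℝ) : IsOpen (T1 κ) := isOpen_lt (by fun_prop) (by fun_prop)

theorem convex_T1 (κ : ℝ) : Convex ℝ (T1 κ) := by
  intro z hz w hw a b ha hb hab
  have hz' : |z.2.im| < κ * z.1.im := hz
  have hw' : |w.2.im| < κ * w.1.im := hw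
  show |(a • z + b • w).2.im| < κ * (a • z + b • w).1.im
  have e1 : (a • z + b • w).2.im = a * z.2.im + b * w.2.im := by simp
  have e2 : (a • z + b • w).1.im = a * z.1.im + b * w.1.im := by simp
  rw [e1, e2]
  have h1 : |a * z.2.im + b * w.2.im| ≤ a * |z.2.im| + b * |w.2.im| := by
    refine (abs_add_le _ _).trans ?_
    rw [abs_mul, abs_mul, abs_of_nonneg ha, abs_of_nonneg hb]
  rcases eq_or_lt_of_le ha with ha0 | ha0
  · have hb1 : b = 1 := by linarith
    subst hb1
    rw [← ha0] at h1 ⊢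
    linarith
  · have h2 : a * |z.2.im| < a * (κ * z.1.im) := by gcongr
    have h3 : b * |w.2.im| ≤ b * (κ * w.1.im) := by gcongr
    linarith

/-- distance to the boundary of the tube -/
def dT (κ : ℝ) (z : ℂ × ℂ) : ℝ := κ * z.1.im - |z.2.im|

theorem dT_pos {κ : ℝ} {z : ℂ × ℂ} (hz : z ∈ T1 κ) : 0 < dT κ z := by
  have : |z.2.im| < κ * z.1.im := hz
  unfold dT
  linarith

theorem T1_ball {κ : ℝ} (hκ : 0 < κ) (z : ℂ × ℂ) {r : ℝ} (hr : (1 + κ) * r ≤ dT κ z) :
    ball z r ⊆ T1 κ := by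
  intro w hw
  rw [mem_ball, dist_eq_norm] at hw
  have h1 := (im_lip1 z w).trans_lt hw
  have h2 := (im_lip2 z w).trans_lt hw
  rw [abs_lt] at h1
  have h3 : |w.2.im| ≤ |w.2.im - z.2.im| + |z.2.im| := by
    have := abs_add_le (w.2.im - z.2.im) z.2.im
    rwa [sub_add_cancel] at this
  show |w.2.im| < κ * w.1.im
  unfold dT at hr
  have h4 : κ * (z.1.im - r) ≤ κ * w.1.im := by
    have : z.1.im - r ≤ w.1.im := by linarith [h1.1]
    gcongr
  nlinarith

/-- all points of norm `≤ R` are joined to a base point with polynomial growth -/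
theorem T1_base {κ : ℝ} (hκ : 0 < κ) {R : ℝ} (hR : 0 ≤ R) :
    ∃ z₀ ∈ T1 κ, ∃ C : ℝ, 1 ≤ C ∧ ∃ m : ℕ, ∀ z ∈ T1 κ, ‖z‖ ≤ R →
      J (T1 κ) (C / dT κ z ^ m) z₀ z ∧ 1 ≤ C / dT κ z ^ m := by
  set T : ℝ := R + 2 * R / κ + 1 with hT
  have hT0 : 0 < T := by positivity
  have hTR : R ≤ T := by
    have : 0 ≤ 2 * R / κ := by positivity
    linarith
  have hκT : 2 * R + κ ≤ κ * T := by
    rw [hT]
    have : κ * (2 * R / κ) = 2 * R := by field_simp
    nlinarith [mul_nonneg hκ.le hR]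
  set z₀ : ℂ × ℂ := (T * I, 0) with hz₀
  have hz₀T : z₀ ∈ T1 κ := by
    show |z₀.2.im| < κ * z₀.1.im
    simp only [hz₀, zero_im, abs_zero, mul_im, ofReal_re, I_im, mul_one, ofReal_im, I_re, mul_zero,
      add_zero]
    positivity
  set c : ℝ := κ / (1 + κ) with hc
  have hc0 : 0 < c := by positivity
  set m := ⌈pS c⌉₊ with hm
  set A : ℝ := KS ^ (8 * T / (κ / (2 * (1 + κ))) + 1) with hA
  have hA1 : 1 ≤ A := Real.one_le_rpow KS_one (by positivity)
  have hKS := KS_one
  refine ⟨z₀, hz₀T, A * (KS * (max 1 (κ * T)) ^ m), ?_, m, ?_⟩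
  · refine one_le_mul_of_one_le_of_one_le hA1 (one_le_mul_of_one_le_of_one_le hKS ?_)
    exact one_le_pow₀ (le_max_left _ _)
  intro z hz hzR
  have hd0 := dT_pos hz
  set d := dT κ z with hd
  have him1 : |z.1.im| ≤ R := (Complex.abs_im_le_norm _).trans ((norm_fst_le z).trans hzR)
  have him2 : |z.2.im| ≤ R := (Complex.abs_im_le_norm _).trans ((norm_snd_le z).trans hzR)
  have hre1 : ‖z.1‖ ≤ R := (norm_fst_le z).trans hzR
  have hre2 : ‖z.2‖ ≤ R := (norm_snd_le z).trans hzR
  have hz1 : z.1.im ≤ R := (le_abs_self _).trans him1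
  have hdk : d / κ ≤ z.1.im := by
    rw [div_le_iff₀ hκ, hd]
    unfold dT
    linarith [abs_nonneg z.2.im]
  set a : ℝ := d / κ with ha
  have ha0 : 0 < a := by positivity
  set b : ℝ := a + (T - z.1.im) with hb
  have hab : a ≤ b := by rw [hb]; linarith
  have hbT : b ≤ T := by rw [hb]; linarith
  set γ : ℝ → ℂ × ℂ := fun s => (z.1 + (s - a : ℝ) * I, z.2) with hγ
  have hγd : ∀ s, dT κ (γ s) = κ * s := by
    intro s
    simp only [hγ, dT]
    have : (z.1 + ((s - a : ℝ) : ℂ) * I).im = z.1.im + (s - a) := by simp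
    rw [this, mul_add, mul_sub]
    have : κ * a = d := by rw [ha]; field_simp
    rw [this, hd]
    unfold dT
    ring
  have hγa : γ a = z := by
    simp only [hγ, sub_self, ofReal_zero, zero_mul, add_zero]
  -- the vertical path
  have hdown : J (T1 κ) (KS * (b / a) ^ pS c) (γ b) (γ a) := by
    refine path_down ha0 hab hc0 ?_ ?_
    · intro s _ t _
      have : γ t - γ s = (((t - s : ℝ) : ℂ) * I, 0) := by
        simp only [hγ]
        ext
        · simp
          ring_nf
        · simp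
      rw [this, Prod.norm_def]
      simp only [norm_mul, Complex.norm_real, Complex.norm_I, mul_one, norm_zero, Real.norm_eq_abs]
      exact (max_eq_left (abs_nonneg _)).le
    · intro s _
      refine T1_ball hκ _ ?_
      rw [hγd, hc]
      exact le_of_eq (by field_simp)
  -- the horizontal path
  have hbT' : (γ b).1 = (z.1.re : ℂ) + T * I := by
    simp only [hγ, hb]
    apply Complex.ext <;> simp
  have hseg : J (T1 κ) A z₀ (γ b) := by
    have hn : ‖γ b - z₀‖ ≤ T := by
      rw [Prod.norm_def]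
      refine max_le ?_ ?_
      · simp only [Prod.fst_sub, hbT', hz₀, add_sub_cancel_right]
        rw [Complex.norm_real, Real.norm_eq_abs]
        exact (Complex.abs_re_le_norm _).trans (hre1.trans hTR)
      · simp only [Prod.snd_sub, hz₀, sub_zero]
        exact hre2.trans hTR
    have hrad : 0 < κ / (2 * (1 + κ)) := by positivity
    refine (path_seg (U := T1 κ) (z := z₀) (w := γ b) (R := κ / (2 * (1 + κ))) hrad
      ?_).mono (Real.rpow_le_rpow_of_exponent_le hKS ?_)
    · intro s hs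
      refine T1_ball hκ _ ?_
      have e1 : (z₀ + (s : ℂ) • (γ b - z₀)).1.im = T := by
        simp only [Prod.fst_add, Prod.smul_fst, Prod.fst_sub, hbT']
        simp [hz₀]
      have e2 : (z₀ + (s : ℂ) • (γ b - z₀)).2.im = s * z.2.im := by
        simp [hz₀, hγ]
      unfold dT
      rw [e1, e2, abs_mul, abs_of_nonneg hs.1]
      have h1 : s * |z.2.im| ≤ 1 * R := by
        have := hs.1
        have := hs.2
        gcongr
      have h2 : (1 + κ) * (κ / (2 * (1 + κ))) = κ / 2 := by field_simp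
      rw [h2]
      linarith
    · gcongr
  have hJ := hseg.trans hdown (one_le_mul_of_one_le_of_one_le hKS
    (Real.one_le_rpow (by rw [le_div_iff₀ ha0]; linarith) (pS_nonneg hc0)))
  rw [hγa] at hJ
  -- comparison of the constants
  have hba : b / a ≤ κ * T / d := by
    have h1 : b / a ≤ T / a := by gcongr
    have h2 : T / a = κ * T / d := by rw [ha]; field_simp
    linarith
  have hba1 : 1 ≤ b / a := by rw [le_div_iff₀ ha0]; linarith
  have hp1 : (b / a) ^ pS c ≤ (max 1 (κ * T)) ^ m / d ^ m := by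
    calc (b / a) ^ pS c ≤ (κ * T / d) ^ pS c :=
          Real.rpow_le_rpow (by linarith) hba (pS_nonneg hc0)
      _ ≤ (κ * T / d) ^ (m : ℝ) :=
          Real.rpow_le_rpow_of_exponent_le (by linarith) (Nat.le_ceil _)
      _ = (κ * T) ^ m / d ^ m := by rw [Real.rpow_natCast, div_pow]
      _ ≤ (max 1 (κ * T)) ^ m / d ^ m := by
          have : κ * T ≤ max 1 (κ * T) := le_max_right _ _
          gcongr
  have hle : A * (KS * (b / a) ^ pS c) ≤ A * (KS * (max 1 (κ * T)) ^ m) / d ^ m := by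
    have : A * (KS * (max 1 (κ * T)) ^ m) / d ^ m = A * (KS * ((max 1 (κ * T)) ^ m / d ^ m)) := by
      ring
    rw [this]
    gcongr
  refine ⟨hJ.mono hle, le_trans ?_ hle⟩
  exact one_le_mul_of_one_le_of_one_le hA1 (one_le_mul_of_one_le_of_one_le hKS
    (Real.one_le_rpow hba1 (pS_nonneg hc0)))

/-- **hypothesis (hB) of the T-lemma.** -/
theorem hb {κ : ℝ} (hκ : 0 < κ) {g : ℂ × ℂ → ℂ} (hg : LogOm (T1 κ) g) {R : ℝ} (hR : 0 ≤ R) :
    ∃ (C : ℝ) (m : ℕ), 0 ≤ C ∧ ∀ z ∈ T1 κ, ‖z‖ ≤ R →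
      ‖g z‖ ≤ C / dT κ z ^ m ∧ 1 + |(g z).re| ≤ C / dT κ z ^ m ∧
      |Real.log ‖1 - Complex.exp (g z)‖| ≤ C / dT κ z ^ m := by
  obtain ⟨z₀, hz₀, C, hC, m, h⟩ := T1_base hκ hR
  set a := 1 + |(g z₀).re| with ha
  set b := 1 + |Real.log ‖1 - Complex.exp (g z₀)‖| with hb
  have ha0 : 1 ≤ a := by rw [ha]; linarith [abs_nonneg (g z₀).re]
  have hb0 : 1 ≤ b := by rw [hb]; linarith [abs_nonneg (Real.log ‖1 - Complex.exp (g z₀)‖)]
  have hn0 := norm_nonneg (g z₀)
  refine ⟨C * (a + ‖g z₀‖ + b), m, by positivity, fun z hz hzR => ?_⟩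
  obtain ⟨hJ, h1⟩ := h z hz hzR
  obtain ⟨h2, h3⟩ := hJ g hg
  set q := C / dT κ z ^ m with hq
  have hq0 : 0 < q := by linarith
  have e1 : C * (a + ‖g z₀‖ + b) / dT κ z ^ m = q * (a + ‖g z₀‖ + b) := by rw [hq]; ring
  rw [e1]
  refine ⟨?_, ?_, ?_⟩
  · have h4 : ‖g z‖ ≤ ‖g z - g z₀‖ + ‖g z₀‖ := by
      have := norm_add_le (g z - g z₀) (g z₀)
      rwa [sub_add_cancel] at this
    nlinarith
  · nlinarith
  · have hom := hJ.om (isOpen_T1 κ) (convex_T1 κ) hz₀ hz (f := fun w => 1 - Complex.exp (g w))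
      (hg.hol.cexp.const_sub 1) (fun w hw => by
        refine ⟨fun h0 => hg.ne w hw (sub_eq_zero.mp h0).symm, fun h0 => ?_⟩
        have : Complex.exp (g w) = 0 := by linear_combination -h0
        exact Complex.exp_ne_zero _ this)
    nlinarith

theorem log_norm_sin {δ : ℂ} (h : Complex.exp (2 * I * δ) ≠ 1) :
    Real.log ‖Complex.sin δ‖ = δ.im + Real.log ‖1 - Complex.exp (2 * I * δ)‖ - Real.log 2 := by
  have h1 : Complex.sin δ = Complex.exp (-(I * δ)) * (1 - Complex.exp (2 * I * δ)) * (I / 2) := by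
    rw [Complex.sin, mul_sub, mul_one, ← Complex.exp_add]
    have e1 : -(I * δ) + 2 * I * δ = δ * I := by ring
    have e2 : -(I * δ) = -δ * I := by ring
    rw [e1, e2]
    ring
  have h2 : ‖1 - Complex.exp (2 * I * δ)‖ ≠ 0 := by
    rw [norm_ne_zero_iff]
    exact fun h0 => h (sub_eq_zero.mp h0).symm
  have h3 : ‖I / 2‖ = 1 / 2 := by simp
  have h4 : ‖Complex.exp (-(I * δ))‖ = Real.exp δ.im := by
    rw [Complex.norm_exp]
    congr 1
    simp
  rw [h1, norm_mul, norm_mul, h3, h4, Real.log_mul (mul_ne_zero (Real.exp_ne_zero _) h2)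
    (by norm_num), Real.log_mul (Real.exp_ne_zero _) h2, Real.log_exp, one_div, Real.log_inv]
  ring

/-- the same for `sin δ`, where `exp (2 i δ)` omits `1` -/
theorem hb_sin {κ : ℝ} (hκ : 0 < κ) {δ : ℂ × ℂ → ℂ} (hδ : DifferentiableOn ℂ δ (T1 κ))
    (hne : ∀ z ∈ T1 κ, Complex.sin (δ z) ≠ 0) {R : ℝ} (hR : 0 ≤ R) :
    ∃ (C : ℝ) (m : ℕ), 0 ≤ C ∧ ∀ z ∈ T1 κ, ‖z‖ ≤ R →
      |Real.log ‖Complex.sin (δ z)‖| ≤ C / dT κ z ^ m := by
  have hexp : ∀ z ∈ T1 κ, Complex.exp (2 * I * δ z) ≠ 1 := by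
    intro z hz h
    apply hne z hz
    rw [Complex.exp_eq_one_iff] at h
    obtain ⟨n, hn⟩ := h
    have : δ z = n * Real.pi := by
      have h2 : (2 * I : ℂ) ≠ 0 := by simp
      apply mul_left_cancel₀ h2
      rw [hn]; ring
    rw [this, Complex.sin_int_mul_pi]
  obtain ⟨C, m, hC, h⟩ := hb hκ (g := fun z => 2 * I * δ z) ⟨hδ.const_mul _, hexp⟩ hR
  refine ⟨3 * C, m, by positivity, fun z hz hzR => ?_⟩
  obtain ⟨-, h2, h3⟩ := h z hz hzR
  rw [log_norm_sin (hexp z hz)]
  have e1 : |(2 * I * δ z).re| = 2 * |(δ z).im| := by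
    have : (2 * I * δ z).re = -(2 * (δ z).im) := by simp
    rw [this, abs_neg, abs_mul, abs_of_pos (by norm_num : (0 : ℝ) < 2)]
  rw [e1] at h2
  have h4 : Real.log 2 ≤ 1 := by
    have := Real.log_le_sub_one_of_pos (by norm_num : (0 : ℝ) < 2)
    linarith
  have h5 : 0 ≤ Real.log 2 := Real.log_nonneg (by norm_num)
  have h6 := abs_nonneg (δ z).im
  have h7 : |(δ z).im + Real.log ‖1 - Complex.exp (2 * I * δ z)‖ - Real.log 2| ≤
      |(δ z).im| + |Real.log ‖1 - Complex.exp (2 * I * δ z)‖| + Real.log 2 := by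
    have := abs_sub ((δ z).im + Real.log ‖1 - Complex.exp (2 * I * δ z)‖) (Real.log 2)
    have h8 := abs_add_le (δ z).im (Real.log ‖1 - Complex.exp (2 * I * δ z)‖)
    rw [abs_of_nonneg h5] at this
    linarith
  have e2 : 3 * C / dT κ z ^ m = 3 * (C / dT κ z ^ m) := by ring
  rw [e2]
  linarith

end Vale.Agent.P097.H264
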