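import Vale.Agent.P299.H720.Montel
import Vale.Agent.P097.H264.Wnd
import Vale.Agent.P097.H264.Hb

/-!
The limit passage of (A4): bounds at good scales give, along a subsequence, limits of the rescaled
lines on the whole tube over `K2`, the pencil, and no zeros of the sine on the tube over `K1`.
-/

open Complex Metric Filter Topology Set

namespace Vale.Agent.P097.H264

open Vale.Agent.P097.TC Vale.Agent.P299.H720

/-! ### extraction of a subsequence -/

theorem isClosed_inner {E : Type*} [PseudoMetricSpace E] (U : Set E) (r : ℝ) :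
    IsClosed {z : E | ball z r ⊆ U} := by
  rw [← isOpen_compl_iff, Metric.isOpen_iff]
  intro z hz
  have hz' : ¬ ball z r ⊆ U := hz
  obtain ⟨w, hw, hwU⟩ := Set.not_subset.mp hz'
  rw [mem_ball] at hw
  refine ⟨r - dist w z, by linarith, fun y hy hcon => hwU (hcon ?_)⟩
  rw [mem_ball] at hy ⊢
  have := dist_triangle w z y
  rw [dist_comm z y] at this
  linarith

/-- from convergence along an ultrafilter to a subsequence -/
theorem extract {E F : Type*} [NormedAddCommGroup E] [ProperSpace E] [NormedAddCommGroup F]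
    {𝒰 : Ultrafilter ℕ} (h𝒰 : (𝒰 : Filter ℕ) ≤ atTop) {U : Set E} (hU : IsOpen U) {f : ℕ → E → F}
    {g : E → F} (h : TendstoLocallyUniformlyOn f g (𝒰 : Filter ℕ) U) :
    ∃ φ : ℕ → ℕ, StrictMono φ ∧ TendstoLocallyUniformlyOn (fun n => f (φ n)) g atTop U := by
  set K : ℕ → Set E := fun m => closedBall 0 m ∩ {z | ball z (1 / ((m : ℝ) + 1)) ⊆ U} with hK
  have hKc : ∀ m, IsCompact (K m) := fun m =>
    (isCompact_closedBall _ _).inter_right (isClosed_inner _ _)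
  have hKU : ∀ m, K m ⊆ U := fun m z hz => hz.2 (mem_ball_self (by positivity))
  have hKm : Monotone K := by
    intro m n hmn z hz
    have hmn' : (m : ℝ) ≤ n := by exact_mod_cast hmn
    refine ⟨closedBall_subset_closedBall hmn' hz.1, ?_⟩
    refine (ball_subset_ball ?_).trans hz.2
    exact one_div_le_one_div_of_le (by positivity) (by linarith)
  have hKex : ∀ C ⊆ U, IsCompact C → ∃ m, C ⊆ K m := by
    intro C hCU hC
    obtain ⟨δ, hδ, hδU⟩ := hC.exists_thickening_subset_open hU hCU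
    obtain ⟨M, hM⟩ := hC.isBounded.exists_norm_le
    obtain ⟨m₁, hm₁⟩ := exists_nat_ge M
    obtain ⟨m₂, hm₂⟩ := exists_nat_one_div_lt hδ
    refine ⟨max m₁ m₂, fun z hz => ⟨?_, ?_⟩⟩
    · rw [mem_closedBall_zero_iff]
      have : (m₁ : ℝ) ≤ (max m₁ m₂ : ℕ) := by exact_mod_cast le_max_left _ _
      exact (hM z hz).trans (hm₁.trans this)
    · intro w hw
      apply hδU
      rw [mem_thickening_iff]
      refine ⟨z, hz, (mem_ball.mp hw).trans_le ?_⟩
      have h1 : (m₂ : ℝ) ≤ (max m₁ m₂ : ℕ) := by exact_mod_cast le_max_right _ _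
      refine le_trans ?_ hm₂.le
      exact one_div_le_one_div_of_le (by positivity) (by linarith)
  have hfreq : ∀ m : ℕ, ∃ᶠ n in atTop, ∀ z ∈ K m, dist (g z) (f n z) < 1 / ((m : ℝ) + 1) := by
    intro m
    have h1 := (tendstoLocallyUniformlyOn_iff_forall_isCompact hU).1 h (K m) (hKU m) (hKc m)
    have h2 := Metric.tendstoUniformlyOn_iff.1 h1 (1 / ((m : ℝ) + 1)) (by positivity)
    exact h2.frequently.filter_mono h𝒰
  obtain ⟨φ, hφ, hφ2⟩ := Filter.extraction_forall_of_frequently hfreq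
  refine ⟨φ, hφ, ?_⟩
  rw [tendstoLocallyUniformlyOn_iff_forall_isCompact hU]
  intro C hCU hC
  obtain ⟨m₀, hm₀⟩ := hKex C hCU hC
  rw [Metric.tendstoUniformlyOn_iff]
  intro ε hε
  obtain ⟨m₁, hm₁⟩ := exists_nat_one_div_lt hε
  filter_upwards [eventually_ge_atTop (max m₀ m₁)] with n hn z hz
  have h1 := hφ2 n z (hKm ((le_max_left _ _).trans hn) (hm₀ hz))
  have h2 : (m₁ : ℝ) ≤ n := by exact_mod_cast (le_max_right _ _).trans hn
  have h3 : 1 / ((n : ℝ) + 1) ≤ 1 / ((m₁ : ℝ) + 1) :=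
    one_div_le_one_div_of_le (by positivity) (by linarith)
  linarith

/-! ### Hurwitz along an ultrafilter, several variables, continuous convergence -/

theorem uni_of_cc {𝒰 : Ultrafilter ℕ} {E : Type*} [TopologicalSpace E] {h : ℕ → E → ℂ} {h₀ : E → ℂ}
    {K : Set E} (hK : IsCompact K) (hc : ContinuousOn h₀ K)
    (hcc : ∀ (u : ℕ → E) (z : E), z ∈ K → Tendsto u 𝒰 (𝓝 z) →
      Tendsto (fun n => h n (u n)) 𝒰 (𝓝 (h₀ z))) {ε : ℝ} (hε : 0 < ε) :
    ∀ᶠ n in (𝒰 : Filter ℕ), ∀ z ∈ K, ‖h n z - h₀ z‖ < ε := by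
  by_contra hcon
  rw [← Ultrafilter.frequently_iff_eventually, Filter.not_frequently] at hcon
  have hcon' : ∀ᶠ n in (𝒰 : Filter ℕ), ∃ z ∈ K, ε ≤ ‖h n z - h₀ z‖ := by
    filter_upwards [hcon] with n hn
    push Not at hn
    exact hn
  have hne : K.Nonempty := by
    obtain ⟨n, z, hz, -⟩ := hcon'.exists
    exact ⟨z, hz⟩
  obtain ⟨zd, hzd⟩ := hne
  classical
  set u : ℕ → E := fun n => if hn : ∃ z ∈ K, ε ≤ ‖h n z - h₀ z‖ then hn.choose else zd with hu
  have huK : ∀ n, u n ∈ K := by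
    intro n
    simp only [hu]
    split_ifs with hn
    · exact hn.choose_spec.1
    · exact hzd
  have hue : ∀ᶠ n in (𝒰 : Filter ℕ), ε ≤ ‖h n (u n) - h₀ (u n)‖ := by
    filter_upwards [hcon'] with n hn
    simp only [hu, dif_pos hn]
    exact hn.choose_spec.2
  obtain ⟨z, hz, hlim⟩ := hK.ultrafilter_le_nhds (𝒰.map u) (by
    rw [le_principal_iff]
    exact (Filter.Eventually.of_forall huK : ∀ᶠ n in (𝒰 : Filter ℕ), u n ∈ K))
  have hlim' : Tendsto u 𝒰 (𝓝 z) := hlim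
  have h1 := hcc u z hz hlim'
  have h2 : Tendsto (fun n => h₀ (u n)) 𝒰 (𝓝 (h₀ z)) :=
    (hc z hz).tendsto.comp (tendsto_nhdsWithin_iff.mpr ⟨hlim', Filter.Eventually.of_forall huK⟩)
  have h3 : Tendsto (fun n => ‖h n (u n) - h₀ (u n)‖) 𝒰 (𝓝 0) := by
    have := (h1.sub h2).norm
    simpa using this
  obtain ⟨n, hn1, hn2⟩ := ((h3.eventually_lt_const hε).and hue).exists
  linarith

/-- **Hurwitz**: along an ultrafilter, continuous convergence on a convex open set of `ℂ × ℂ` -/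
theorem hurwitz_cc {𝒰 : Ultrafilter ℕ} {T : Set (ℂ × ℂ)} (hT : IsOpen T) (hTc : Convex ℝ T)
    {h : ℕ → ℂ × ℂ → ℂ} {h₀ : ℂ × ℂ → ℂ} (hd₀ : DifferentiableOn ℂ h₀ T)
    (hd : ∀ K ⊆ T, IsCompact K → ∀ᶠ n in (𝒰 : Filter ℕ), ∀ z ∈ K,
      DifferentiableAt ℂ (h n) z ∧ h n z ≠ 0)
    (hcc : ∀ (u : ℕ → ℂ × ℂ) (z : ℂ × ℂ), z ∈ T → Tendsto u 𝒰 (𝓝 z) →
      Tendsto (fun n => h n (u n)) 𝒰 (𝓝 (h₀ z))) {z₁ : ℂ × ℂ} (hz₁ : z₁ ∈ T) (h1 : h₀ z₁ ≠ 0) :
    ∀ z ∈ T, h₀ z ≠ 0 := by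
  intro z hz h0
  set l : ℂ → ℂ × ℂ := fun t => z + t • (z₁ - z) with hl
  have hlc : Continuous l := by fun_prop
  have hld : Differentiable ℂ l := by fun_prop
  set O : Set ℂ := l ⁻¹' T with hO
  have hOo : IsOpen O := hT.preimage hlc
  have hOc : Convex ℝ O := by
    intro s hs t ht a b ha hb hab
    have hab' : (a : ℂ) + b = 1 := by exact_mod_cast hab
    have e1 : l (a • s + b • t) = a • l s + b • l t := by
      simp only [hl]
      ext
      · simp only [Prod.fst_add, Prod.smul_fst, smul_eq_mul, Complex.real_smul, Prod.fst_sub]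
        linear_combination -z.1 * hab'
      · simp only [Prod.snd_add, Prod.smul_snd, smul_eq_mul, Complex.real_smul, Prod.snd_sub]
        linear_combination -z.2 * hab'
    show l (a • s + b • t) ∈ T
    rw [e1]
    exact hTc hs ht ha hb hab
  have h0O : (0 : ℂ) ∈ O := by show l 0 ∈ T; simpa [hl] using hz
  have h1O : (1 : ℂ) ∈ O := by show l 1 ∈ T; simpa [hl] using hz₁
  set H : ℂ → ℂ := fun t => h₀ (l t) with hH
  have hHd : DifferentiableOn ℂ H O := hd₀.comp hld.differentiableOn (fun t ht => ht)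
  have hHan : AnalyticOnNhd ℂ H O := hHd.analyticOnNhd hOo
  have hH0 : H 0 = 0 := by simpa [hH, hl] using h0
  have hH1 : H 1 ≠ 0 := by simpa [hH, hl] using h1
  -- isolated zero
  have hiso : ∀ᶠ t in 𝓝[≠] (0 : ℂ), H t ≠ 0 := by
    rcases (hHan 0 h0O).eventually_eq_zero_or_eventually_ne_zero with h2 | h2
    · exact absurd (hHan.eqOn_zero_of_preconnected_of_eventuallyEq_zero hOc.isPreconnected h0O h2
        h1O) hH1
    · exact h2
  rw [eventually_nhdsWithin_iff] at hiso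
  obtain ⟨ε, hε, hball⟩ := Metric.eventually_nhds_iff_ball.mp (hiso.and (hOo.mem_nhds h0O))
  have hε2 : 0 < ε / 2 := by positivity
  have hcb : closedBall (0 : ℂ) (ε / 2) ⊆ ball 0 ε := closedBall_subset_ball (by linarith)
  have hcbO : closedBall (0 : ℂ) (ε / 2) ⊆ O := fun t ht => (hball t (hcb ht)).2
  -- minimum on the circle
  have hsc : IsCompact (sphere (0 : ℂ) (ε / 2)) := isCompact_sphere _ _
  have hsne : (sphere (0 : ℂ) (ε / 2)).Nonempty := NormedSpace.sphere_nonempty.mpr hε2.le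
  obtain ⟨t₀, ht₀, hmin⟩ := hsc.exists_isMinOn hsne
    ((hHd.continuousOn.mono (sphere_subset_closedBall.trans hcbO)).norm)
  set m := ‖H t₀‖ with hm
  have hm0 : 0 < m := by
    rw [hm, norm_pos_iff]
    apply (hball t₀ (hcb (sphere_subset_closedBall ht₀))).1
    intro h2
    have h2' : t₀ = 0 := h2
    rw [h2', mem_sphere, dist_self] at ht₀
    linarith
  -- uniform approximation
  have hKc : IsCompact (closedBall (0 : ℂ) (ε / 2)) := isCompact_closedBall _ _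
  have hcc' : ∀ (u : ℕ → ℂ) (t : ℂ), t ∈ closedBall (0 : ℂ) (ε / 2) → Tendsto u 𝒰 (𝓝 t) →
      Tendsto (fun n => h n (l (u n))) 𝒰 (𝓝 (H t)) := by
    intro u t ht hu
    exact hcc (fun n => l (u n)) (l t) (hcbO ht) ((hlc.tendsto t).comp hu)
  have happ := uni_of_cc (𝒰 := 𝒰) (h := fun n t => h n (l t)) hKc (hHd.continuousOn.mono hcbO)
    hcc' (half_pos hm0)
  have hKT : l '' closedBall (0 : ℂ) (ε / 2) ⊆ T := by
    rintro _ ⟨t, ht, rfl⟩
    exact hcbO ht
  obtain ⟨n, hn1, hn2⟩ := (happ.and (hd _ hKT (hKc.image hlc))).exists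
  have hdn : DiffContOnCl ℂ (fun t => (h n (l t))⁻¹) (ball (0 : ℂ) (ε / 2)) := by
    refine DifferentiableOn.diffContOnCl ?_
    rw [closure_ball _ hε2.ne']
    intro t ht
    obtain ⟨a1, a2⟩ := hn2 (l t) ⟨t, ht, rfl⟩
    exact ((DifferentiableAt.comp t (g := h n) (f := l) a1 (hld t)).inv
      a2).differentiableWithinAt
  have h6 := Complex.norm_le_of_forall_mem_frontier_norm_le Metric.isBounded_ball hdn
    (C := 2 / m) (z := 0) (fun t ht => ?_) (subset_closure (Metric.mem_ball_self hε2))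
  · have h7 := (hn2 (l 0) ⟨0, by simp [hε2.le], rfl⟩).2
    have h8 : 0 < ‖h n (l 0)‖ := norm_pos_iff.2 h7
    rw [norm_inv, inv_le_comm₀ h8 (by positivity), inv_div] at h6
    have h9 := hn1 0 (by simp [hε2.le])
    rw [hH0, sub_zero] at h9
    linarith
  · rw [frontier_ball _ hε2.ne'] at ht
    have h9 := hn1 t (sphere_subset_closedBall ht)
    have h10 : m ≤ ‖H t‖ := hmin ht
    have h11 : ‖H t‖ ≤ ‖h n (l t)‖ + ‖h n (l t) - H t‖ := by
      have := norm_sub_le (h n (l t)) (h n (l t) - H t)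
      rwa [sub_sub_cancel] at this
    have h12 : m / 2 ≤ ‖h n (l t)‖ := by linarith
    rw [norm_inv, inv_le_comm₀ (by linarith) (by positivity), inv_div]
    exact h12

/-! ### from bounds to limits -/

theorem norm_cos_le (z : ℂ) : ‖Complex.cos z‖ ≤ Real.exp ‖z‖ := Vale.Agent.P097.H699.norm_cos_le_exp z

theorem norm_sin_le (z : ℂ) : ‖Complex.sin z‖ ≤ Real.exp (‖z‖ + 2) := by
  rw [← Complex.cos_sub_pi_div_two]
  refine (norm_cos_le _).trans (Real.exp_le_exp.mpr ?_)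
  refine (norm_sub_le _ _).trans ?_
  have : ‖(Real.pi / 2 : ℂ)‖ = Real.pi / 2 := by
    rw [← Complex.ofReal_ofNat, ← Complex.ofReal_div, Complex.norm_real,
      Real.norm_of_nonneg (by positivity)]
  rw [this]
  linarith [Real.pi_le_four]

/-- the support number is controlled by the direction and the incidence -/
theorem p_bound {F q : ℂ → ℂ} {x a p : ℂ} (hF : deriv F x ≠ 0) {M : ℝ}
    (ha : ‖a‖ ≤ M) (hm : ‖Mi F q a p x‖ ≤ M) :
    ‖p‖ ≤ ‖q x‖ * Real.exp (M + ‖F x‖) +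
      (‖deriv q x‖ * Real.exp (M + ‖F x‖ + 2) + M) / ‖deriv F x‖ := by
  have hF' : 0 < ‖deriv F x‖ := norm_pos_iff.mpr hF
  have e1 : p = q x * Complex.cos (a - F x) +
      (deriv q x * Complex.sin (a - F x) - Mi F q a p x) / deriv F x := by
    unfold Mi
    field_simp
    ring
  have h0 : ‖a - F x‖ ≤ M + ‖F x‖ := (norm_sub_le _ _).trans (by linarith)
  have h1 : ‖Complex.cos (a - F x)‖ ≤ Real.exp (M + ‖F x‖) :=
    (norm_cos_le _).trans (Real.exp_le_exp.mpr h0)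
  have h2 : ‖Complex.sin (a - F x)‖ ≤ Real.exp (M + ‖F x‖ + 2) :=
    (norm_sin_le _).trans (Real.exp_le_exp.mpr (by linarith))
  calc ‖p‖ = ‖q x * Complex.cos (a - F x) +
      (deriv q x * Complex.sin (a - F x) - Mi F q a p x) / deriv F x‖ := by rw [← e1]
    _ ≤ ‖q x‖ * ‖Complex.cos (a - F x)‖ +
      (‖deriv q x‖ * ‖Complex.sin (a - F x)‖ + ‖Mi F q a p x‖) / ‖deriv F x‖ := by
        refine (norm_add_le _ _).trans ?_
        rw [norm_mul, norm_div]
        gcongr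
        refine (norm_sub_le _ _).trans ?_
        rw [norm_mul]
    _ ≤ _ := by gcongr

/-- the bounds at good scales over a point -/
structure GB (F q : ℂ → ℂ) (k₁ : ℝ) (al p th : ℂ × ℂ → ℂ) (e : ℝ × ℝ) (x : ℂ) (r : ℕ → ℝ)
    (N : ℕ → ℤ) : Prop where
  r0 : ∀ n, 0 < r n
  rt : Tendsto r atTop (𝓝 0)
  bd : ∀ W : Set (ℂ × ℂ), IsCompact W → W ⊆ Tc (K2 k₁) → ∃ M : ℝ, ∀ᶠ n in atTop, ∀ z ∈ W,
    ‖al (bl e (r n) z) - 2 * Real.pi * N n‖ ≤ M ∧
      ‖Mi F q (al (bl e (r n) z)) (p (bl e (r n) z)) x‖ ≤ M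
  nd : ∃ z₁ ∈ Tc (K1 k₁), ∃ c > 0, ∀ᶠ n in atTop,
    c ≤ ‖Complex.sin (al (bl e (r n) z₁) - F (th (bl e (r n) z₁)))‖

/-- **from bounds to limits** -/
theorem gs_core {Λ b : ℝ} {F q : ℂ → ℂ} {e₀ : ℝ × ℝ} {ρ k : ℝ} {al p th : ℂ × ℂ → ℂ}
    (L : LW Λ b F q e₀ ρ k al p th) {k' : ℝ} (hk0 : 0 < k') (hkk : k' < k) {e : ℝ × ℝ} {x : ℂ}
    (heb : e ∈ ball e₀ ρ) (hx : x ∈ Sb b) (hF : deriv F x ≠ 0) (hNT : NT th k e x) {r : ℕ → ℝ}
    {N : ℕ → ℤ} (B : GB F q k' al p th e x r N) :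
    ∃ (φ : ℕ → ℕ) (al₀ p₀ : ℂ × ℂ → ℂ), StrictMono φ ∧
      GS0 F q k' al p e x (fun n => r (φ n)) (fun n => N (φ n)) al₀ p₀ ∧
      ∀ z ∈ Tc (K1 k'), Complex.sin (al₀ z - F x) ≠ 0 := by
  have C := L.cv
  have hk1 := L.k1
  have hΛ : (Λ : ℂ) ≠ 0 := by exact_mod_cast C.Λ0.ne'
  set 𝒰 : Ultrafilter ℕ := Filter.hyperfilter ℕ with h𝒰d
  have h𝒰 : (𝒰 : Filter ℕ) ≤ atTop := Nat.hyperfilter_le_atTop
  set U : Set (ℂ × ℂ) := Tc (K2 k') with hU
  have hUo : IsOpen U := isOpen_Tc2 k'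
  have hUc : Convex ℝ U := convex_Tc (convex_K2 k')
  set T : Set (ℂ × ℂ) := Tc (K1 k') with hT
  have hTo : IsOpen T := (isOpen_K1 k').preimage continuous_ht
  have hTc : Convex ℝ T := convex_Tc (convex_K1 k')
  have hk'1 : k' < 1 := hkk.trans hk1
  have hTU : T ⊆ U := by
    intro z hz
    have h1 : |(ht z).2| < k' * (ht z).1 := hz
    have h2 : 0 < (ht z).1 := by
      by_contra hn
      push Not at hn
      nlinarith [abs_nonneg (ht z).2]
    have h3 := abs_lt.mp h1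
    refine ⟨?_, ?_⟩
    · nlinarith
    · nlinarith
  have hrt : Tendsto r atTop (𝓝[>] 0) :=
    tendsto_nhdsWithin_iff.2 ⟨B.rt, Eventually.of_forall B.r0⟩
  have hrtU : Tendsto r 𝒰 (𝓝[>] 0) := hrt.mono_left h𝒰
  set f : ℕ → ℂ × ℂ → ℂ × ℂ := fun n z =>
    (al (bl e (r n) z) - 2 * Real.pi * N n, p (bl e (r n) z)) with hf
  -- the blown up windows are in the domain
  have hdom2 : ∀ K ⊆ U, IsCompact K → ∀ᶠ n in atTop, ∀ z ∈ K, bl e (r n) z ∈ TB e₀ ρ (K2 k) := by
    intro K hK hKc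
    exact hrt.eventually (bl_TB heb (fun _ hr _ hy => K2_smul hr hy) hKc.isBounded
      (fun z hz => K2_mono hk0 hkk.le hk1 (hK hz)))
  have hdom1 : ∀ K ⊆ T, IsCompact K → ∀ᶠ n in atTop, ∀ z ∈ K, bl e (r n) z ∈ TB e₀ ρ (K1 k) := by
    intro K hK hKc
    exact hrt.eventually (bl_TB heb (fun _ hr _ hy => K1_smul hr hy) hKc.isBounded
      (fun z hz => K1_mono hk0 hkk.le (hK hz)))
  have hbld : ∀ n, Differentiable ℂ (bl e (r n)) := by
    intro n
    unfold bl
    fun_prop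
  have hfd : ∀ n, ∀ z, bl e (r n) z ∈ TB e₀ ρ (K2 k) → DifferentiableAt ℂ (f n) z := by
    intro n z hz
    have hn := (isOpen_TB e₀ ρ (isOpen_K2 k)).mem_nhds hz
    have d1 : DifferentiableAt ℂ (fun z => al (bl e (r n) z)) z :=
      DifferentiableAt.comp z (g := al) (f := bl e (r n)) (L.dal.differentiableAt hn) (hbld n z)
    have d2 : DifferentiableAt ℂ (fun z => p (bl e (r n) z)) z :=
      DifferentiableAt.comp z (g := p) (f := bl e (r n)) (L.dp.differentiableAt hn) (hbld n z)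
    exact (d1.sub_const _).prodMk d2
  -- local bounds
  have hloc : LocBdd (𝒰 : Filter ℕ) f U := by
    intro z hz
    obtain ⟨ε, hε, hεU⟩ := Metric.isOpen_iff.mp hUo z hz
    have hcb : closedBall z (ε / 2) ⊆ U := (closedBall_subset_ball (by linarith)).trans hεU
    obtain ⟨M, hM⟩ := B.bd _ (isCompact_closedBall z (ε / 2)) hcb
    refine ⟨ε / 2, by positivity, M + (‖q x‖ * Real.exp (M + ‖F x‖) +
      (‖deriv q x‖ * Real.exp (M + ‖F x‖ + 2) + M) / ‖deriv F x‖), ?_⟩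
    filter_upwards [h𝒰 hM, h𝒰 (hdom2 _ hcb (isCompact_closedBall z (ε / 2)))] with n h1 h2
    refine ⟨fun y hy => (hfd n y (h2 y (ball_subset_closedBall hy))).differentiableWithinAt,
      fun y hy => ?_⟩
    obtain ⟨h3, h4⟩ := h1 y (ball_subset_closedBall hy)
    rw [← Mi_per _ _ _ (N n)] at h4
    have h5 := p_bound hF h3 h4
    have hM0 : 0 ≤ M := (norm_nonneg _).trans h3
    have h6 : 0 ≤ ‖q x‖ * Real.exp (M + ‖F x‖) +
      (‖deriv q x‖ * Real.exp (M + ‖F x‖ + 2) + M) / ‖deriv F x‖ := by positivity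
    rw [Prod.norm_def]
    exact max_le (by linarith) (by linarith)
  obtain ⟨g, hgd, hgl, hgc⟩ := montel_full 𝒰 hUo hloc
  obtain ⟨φ, hφ, hφl⟩ := extract h𝒰 hUo hgl
  have hgd1 : DifferentiableOn ℂ (fun z => (g z).1) U := hgd.fst
  have hgd2 : DifferentiableOn ℂ (fun z => (g z).2) U := hgd.snd
  -- limits of the position
  have hthc : ∀ (u : ℕ → ℂ × ℂ) (z : ℂ × ℂ), z ∈ T → Tendsto u 𝒰 (𝓝 z) →
      Tendsto (fun n => th (bl e (r n) (u n))) 𝒰 (𝓝 x) := by
    intro u z hz hu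
    exact (hNT z (K1_mono hk0 hkk.le hz)).comp (hrtU.prodMk hu)
  have hFc : ContinuousAt F x := (C.dF.differentiableAt ((isOpen_Sb b).mem_nhds hx)).continuousAt
  have hal0c : ∀ (u : ℕ → ℂ × ℂ) (z : ℂ × ℂ), z ∈ U → Tendsto u 𝒰 (𝓝 z) →
      Tendsto (fun n => al (bl e (r n) (u n)) - 2 * Real.pi * N n) 𝒰 (𝓝 (g z).1) := by
    intro u z hz hu
    exact (continuous_fst.tendsto (g z)).comp (hgc z hz u hu)
  -- the pencil
  have hpen0 : ∀ z ∈ T, GG F q (x, g z) = 0 := by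
    intro z hz
    have h1 : Tendsto (fun n => GG F q (th (bl e (r n) z), f n z)) 𝒰 (𝓝 (GG F q (x, g z))) := by
      have h2 := (an_GG C hx (g z)).continuousAt.tendsto
      exact h2.comp ((hthc (fun _ => z) z hz tendsto_const_nhds).prodMk_nhds
        (hgc z (hTU hz) (fun _ => z) tendsto_const_nhds))
    have h3 : ∀ᶠ n in (𝒰 : Filter ℕ), GG F q (th (bl e (r n) z), f n z) = 0 := by
      filter_upwards [h𝒰 (hdom1 {z} (by simpa using hz) isCompact_singleton)] with n hn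
      show Mi F q (al (bl e (r n) z) - 2 * Real.pi * N n) (p (bl e (r n) z)) (th (bl e (r n) z)) = 0
      rw [Mi_per]
      exact L.inc _ (hn z rfl)
    have h4 : Tendsto (fun n => GG F q (th (bl e (r n) z), f n z)) 𝒰 (𝓝 0) :=
      tendsto_const_nhds.congr' (h3.mono fun n hn => hn.symm)
    exact tendsto_nhds_unique h1 h4
  have hDd : DifferentiableOn ℂ (fun z => GG F q (x, g z)) U := by
    intro z hz
    have h1 : DifferentiableAt ℂ (GG F q) (x, g z) := (an_GG C hx (g z)).differentiableAt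
    have h2 : DifferentiableAt ℂ (fun z => (x, g z)) z :=
      (differentiableAt_const x).prodMk (hgd.differentiableAt (hUo.mem_nhds hz))
    exact (DifferentiableAt.comp z (g := GG F q) (f := fun z => (x, g z)) h1
      h2).differentiableWithinAt
  obtain ⟨z₁, hz₁, c, hc0, hc⟩ := B.nd
  have hpen : ∀ z ∈ U, GG F q (x, g z) = 0 := by
    have han := Vale.Agent.P097.Hol.analyticOnNhd_of_differentiableOn hUo hDd
    have h1 : (fun z => GG F q (x, g z)) =ᶠ[𝓝 z₁] 0 := by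
      filter_upwards [hTo.mem_nhds hz₁] with z hz
      exact hpen0 z hz
    intro z hz
    exact han.eqOn_zero_of_preconnected_of_eventuallyEq_zero hUc.isPreconnected (hTU hz₁) h1 hz
  -- no zeros
  set h : ℕ → ℂ × ℂ → ℂ := fun n z => Complex.sin (al (bl e (r n) z) - 2 * Real.pi * N n -
    F (th (bl e (r n) z))) with hh
  set h₀ : ℂ × ℂ → ℂ := fun z => Complex.sin ((g z).1 - F x) with hh₀
  have hh₀d : DifferentiableOn ℂ h₀ T := ((hgd1.mono hTU).sub_const _).csin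
  have hcc : ∀ (u : ℕ → ℂ × ℂ) (z : ℂ × ℂ), z ∈ T → Tendsto u 𝒰 (𝓝 z) →
      Tendsto (fun n => h n (u n)) 𝒰 (𝓝 (h₀ z)) := by
    intro u z hz hu
    have h1 := hal0c u z (hTU hz) hu
    have h2 := hFc.tendsto.comp (hthc u z hz hu)
    exact (Complex.continuous_sin.tendsto _).comp (h1.sub h2)
  have hsp' : ∀ n z, h n z = Complex.sin (al (bl e (r n) z) - F (th (bl e (r n) z))) := by
    intro n z
    simp only [hh]
    have e1 : al (bl e (r n) z) - 2 * Real.pi * N n - F (th (bl e (r n) z)) =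
        (al (bl e (r n) z) - F (th (bl e (r n) z))) - N n * (2 * Real.pi) := by ring
    rw [e1, Complex.sin_sub_int_mul_two_pi]
  have hdF : DifferentiableOn ℂ (deriv F) (Sb b) := C.dF.deriv (isOpen_Sb b)
  have hF'c : ContinuousAt (deriv F) x :=
    (hdF.differentiableAt ((isOpen_Sb b).mem_nhds hx)).continuousAt
  have hFne : ∀ᶠ y in 𝓝 x, deriv F y ≠ 0 := hF'c.eventually_ne hF
  have hhd : ∀ K ⊆ T, IsCompact K → ∀ᶠ n in (𝒰 : Filter ℕ), ∀ z ∈ K,
      DifferentiableAt ℂ (h n) z ∧ h n z ≠ 0 := by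
    intro K hK hKc
    have hnear : ∀ᶠ n in (𝒰 : Filter ℕ), ∀ z ∈ K, deriv F (th (bl e (r n) z)) ≠ 0 := by
      obtain ⟨δ, hδ, hball⟩ := Metric.eventually_nhds_iff_ball.mp hFne
      have := uni_of_cc (𝒰 := 𝒰) (h := fun n z => th (bl e (r n) z)) (h₀ := fun _ => x) hKc
        continuousOn_const (fun u z hz hu => hthc u z (hK hz) hu) hδ
      filter_upwards [this] with n hn z hz
      exact hball _ (by rw [mem_ball, dist_eq_norm]; exact hn z hz)
    filter_upwards [hnear, h𝒰 (hdom1 K hK hKc), h𝒰 (hdom2 K (hK.trans hTU) hKc)] with n h1 h2 h3 z hz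
    have hz1 := h2 z hz
    have hz2 := h3 z hz
    have hn1 := (isOpen_TB e₀ ρ (isOpen_K1 k)).mem_nhds hz1
    have hn2 := (isOpen_TB e₀ ρ (isOpen_K2 k)).mem_nhds hz2
    have d1 : DifferentiableAt ℂ (fun z => al (bl e (r n) z)) z :=
      DifferentiableAt.comp z (g := al) (f := bl e (r n)) (L.dal.differentiableAt hn2) (hbld n z)
    have d2 : DifferentiableAt ℂ (fun z => th (bl e (r n) z)) z :=
      DifferentiableAt.comp z (g := th) (f := bl e (r n)) (L.dth.differentiableAt hn1) (hbld n z)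
    have d3 : DifferentiableAt ℂ F (th (bl e (r n) z)) :=
      C.dF.differentiableAt ((isOpen_Sb b).mem_nhds (L.mem _ hz1))
    have d4 : DifferentiableAt ℂ (fun z => F (th (bl e (r n) z))) z :=
      DifferentiableAt.comp z (g := F) (f := fun z => th (bl e (r n) z)) d3 d2
    refine ⟨((d1.sub_const _).sub d4).csin, ?_⟩
    rw [hsp']
    intro h0
    have h4 := Mi_deriv C (L.mem _ hz1) (L.inc _ hz1)
    rw [h0, mul_zero] at h4
    rcases mul_eq_zero.mp h4 with h5 | h5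
    · exact h1 z hz h5
    · exact L.smp _ hz1 h5
  have hnz1 : h₀ z₁ ≠ 0 := by
    have h1 := (hcc (fun _ => z₁) z₁ hz₁ tendsto_const_nhds).norm
    have h2 : c ≤ ‖h₀ z₁‖ := by
      refine ge_of_tendsto h1 ?_
      filter_upwards [h𝒰 hc] with n hn
      rw [hsp']
      exact hn
    rw [← norm_pos_iff]
    linarith
  refine ⟨φ, fun z => (g z).1, fun z => (g z).2, hφ, ⟨fun n => B.r0 _, ?_, hgd1, hgd2, ?_, ?_, hpen⟩,
    hurwitz_cc hTo hTc hh₀d hhd hcc hz₁ hnz1⟩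
  · exact B.rt.comp hφ.tendsto_atTop
  · rw [tendstoLocallyUniformlyOn_iff_forall_isCompact hUo] at hφl ⊢
    intro K hK hKc
    have h1 := Metric.tendstoUniformlyOn_iff.1 (hφl K hK hKc)
    rw [Metric.tendstoUniformlyOn_iff]
    intro ε hε
    filter_upwards [h1 ε hε] with n hn z hz
    have h2 := hn z hz
    rw [Prod.dist_eq] at h2
    exact (le_max_left _ _).trans_lt h2
  · rw [tendstoLocallyUniformlyOn_iff_forall_isCompact hUo] at hφl ⊢
    intro K hK hKc
    have h1 := Metric.tendstoUniformlyOn_iff.1 (hφl K hK hKc)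
    rw [Metric.tendstoUniformlyOn_iff]
    intro ε hε
    filter_upwards [h1 ε hε] with n hn z hz
    have h2 := hn z hz
    rw [Prod.dist_eq] at h2
    exact (le_max_right _ _).trans_lt h2

end Vale.Agent.P097.H264
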