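import Vale.Agent.P097.H877.Bd.Priv
import Vale.Agent.P097.H699.Normal

/-!
Thick scales: a holomorphic function which omits `0` and `1` has, over almost every foot of its
cones, infinitely many heights on the axis where `|log |f||` is bounded.
-/

open Complex Metric Filter Topology Set MeasureTheory

namespace Vale.Agent.P097.H264

open Vale.Agent.P097.H877.Bd Vale.Agent.P097.H699

theorem ax_re (x r : ℝ) : ((x : ℂ) + r * I).re = x := by simp
theorem ax_im (x r : ℝ) : ((x : ℂ) + r * I).im = r := by simp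

theorem ax_mem {k h x r : ℝ} (hk : 0 < k) (hr : 0 < r) (hrh : r < h) :
    (x : ℂ) + r * I ∈ cone k h x := by
  refine ⟨?_, ?_⟩
  · rw [ax_re, ax_im, sub_self, abs_zero]; positivity
  · rw [ax_im]; exact hrh

/-- rescaling at a foot -/
theorem sc_mem {k h x r : ℝ} (hr : 0 < r) (hrh : 2 * r ≤ h) {z : ℂ} (hz : z ∈ cone k 2 0) :
    (x : ℂ) + r * z ∈ cone k h x := by
  obtain ⟨h1, h2⟩ := hz
  rw [sub_zero] at h1
  have hre : ((x : ℂ) + r * z).re = x + r * z.re := by simp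
  have him : ((x : ℂ) + r * z).im = r * z.im := by simp
  refine ⟨?_, ?_⟩
  · rw [hre, him, add_sub_cancel_left, abs_mul, abs_of_pos hr]
    calc r * |z.re| < r * (k * z.im) := by gcongr
      _ = k * (r * z.im) := by ring
  · rw [him]
    calc r * z.im < r * 2 := by gcongr
      _ ≤ h := by linarith

theorem Om.sc {k h x r : ℝ} {f : ℂ → ℂ} (hf : Om (cone k h x) f) (hr : 0 < r) (hrh : 2 * r ≤ h) :
    Om (cone k 2 0) (fun z => f (x + r * z)) := by
  refine ⟨hf.1.comp (by fun_prop) fun z hz => sc_mem hr hrh hz, fun z hz => ?_⟩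
  exact hf.2 _ (sc_mem hr hrh hz)

theorem isCompact_seg (k : ℝ) : IsCompact {z : ℂ | |z.re| ≤ k ∧ z.im = 1} := by
  have h1 : {z : ℂ | |z.re| ≤ k ∧ z.im = 1} = Icc (-k) k ×ℂ ({1} : Set ℝ) := by
    ext z
    simp [mem_reProdIm, abs_le]
  rw [h1]
  exact isCompact_Icc.reProdIm isCompact_singleton

/-- limit `0` along the axis gives the limit `0` in the smaller cones -/
theorem axis_small {f : ℂ → ℂ} {k k' h x : ℝ} (hk' : 0 < k') (hkk : k' < k) (hh : 0 < h)
    (hf : Om (cone k h x) f)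
    (h0 : Tendsto (fun r : ℝ => f (x + r * I)) (𝓝[>] 0) (𝓝 0)) :
    Tendsto f (𝓝[cone k' h x] (x : ℂ)) (𝓝 0) := by
  have hk : 0 < k := hk'.trans hkk
  rw [Metric.tendsto_nhds]
  intro ε hε
  have hKS : {z : ℂ | |z.re| ≤ k' ∧ z.im = 1} ⊆ cone k 2 0 := by
    rintro z ⟨h1, h2⟩
    refine ⟨?_, ?_⟩
    · rw [sub_zero, h2, mul_one]; exact h1.trans_lt hkk
    · rw [h2]; norm_num
  have hI : I ∈ cone k 2 0 := hKS (by simp [hk'.le])
  obtain ⟨δ, hδ, hd⟩ := Om.small (isOpen_cone k 2 0) (convex_cone k 2 0).isPreconnected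
    subset_rfl (isCompact_seg k') hKS hI (half_pos hε)
  have h1 : ∀ᶠ r : ℝ in 𝓝[>] 0, ‖f (x + r * I)‖ ≤ δ := by
    have := (Metric.tendsto_nhds.mp h0 δ hδ)
    filter_upwards [this] with r hr
    rw [dist_zero_right] at hr
    exact hr.le
  obtain ⟨ρ, hρ, hρ2⟩ := mem_nhdsGT_iff_exists_Ioo_subset.mp h1
  rw [eventually_nhdsWithin_iff]
  have hev : ∀ᶠ z : ℂ in 𝓝 (x : ℂ), z.im < min ρ (h / 2) := by
    have : Tendsto (fun z : ℂ => z.im) (𝓝 (x : ℂ)) (𝓝 0) := by
      have := Complex.continuous_im.tendsto (x : ℂ)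
      simpa using this
    have hpos : (0 : ℝ) < min ρ (h / 2) := lt_min hρ (by positivity)
    exact this.eventually_lt_const hpos
  filter_upwards [hev] with z hz hzc
  have him : 0 < z.im := cone_im_pos hk' hzc
  have hz1 : z.im < ρ := hz.trans_le (min_le_left _ _)
  have hz2 : 2 * z.im ≤ h := by linarith [hz.trans_le (min_le_right ρ (h / 2))]
  have hmem : z.im ∈ Ioo 0 ρ := ⟨him, hz1⟩
  have h2 := hρ2 hmem
  have h3 := hd _ (Om.sc hf him hz2) h2 ((z - x) / z.im) ?_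
  · have h4 : (x : ℂ) + (z.im : ℂ) * ((z - x) / z.im) = z := by
      have : (z.im : ℂ) ≠ 0 := by exact_mod_cast him.ne'
      field_simp
      ring
    rw [dist_zero_right]
    simp only [h4] at h3
    linarith
  · refine ⟨?_, ?_⟩
    · rw [Complex.div_ofReal_re, Complex.sub_re, Complex.ofReal_re, abs_div, abs_of_pos him,
        div_le_iff₀ him]
      exact hzc.1.le
    · rw [Complex.div_ofReal_im, Complex.sub_im, Complex.ofReal_im, sub_zero]
      exact div_self him.ne'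

/-- the axis values cannot tend to `0` on a set of positive measure -/
theorem no_zero {D : Set ℂ} {f : ℂ → ℂ} (hf : Om D f) {S : Set ℝ}
    (hS : ∀ x ∈ S, ∃ k > 0, ∃ h > 0, cone k h x ⊆ D) :
    ∀ᵐ x : ℝ, x ∈ S → ¬ Tendsto (fun r : ℝ => f (x + r * I)) (𝓝[>] 0) (𝓝 0) := by
  have := privalov (f := f) hf.1
    (E := {x | x ∈ S ∧ Tendsto (fun r : ℝ => f (x + r * I)) (𝓝[>] 0) (𝓝 0)}) ?_
  · filter_upwards [this] with x hx hxS hlim
    obtain ⟨k, hk, h, hh, hsub, hz⟩ := hx ⟨hxS, hlim⟩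
    have hm : (x : ℂ) + ((h / 2 : ℝ) : ℂ) * I ∈ cone k h x := ax_mem hk (by linarith) (by linarith)
    exact (hf.2 _ (hsub hm)).1 (hz _ hm)
  · rintro x ⟨hxS, hlim⟩
    obtain ⟨k, hk, h, hh, hsub⟩ := hS x hxS
    have hk2 : k / 2 < k := by linarith
    exact ⟨k / 2, by positivity, h, hh, (cone_mono (by positivity) hk2.le le_rfl).trans hsub,
      axis_small (by positivity) hk2 hh (hf.mono hsub) hlim⟩

theorem abs_large_cases {u : ℝ → ℝ} {h : ℝ} (hh : 0 < h) (hc : ContinuousOn u (Ioo 0 h))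
    (ht : ∀ V : ℝ, ∀ᶠ r in 𝓝[>] (0 : ℝ), V < |u r|) :
    Tendsto u (𝓝[>] 0) atTop ∨ Tendsto u (𝓝[>] 0) atBot := by
  obtain ⟨δ, hδ, hδ2⟩ := mem_nhdsGT_iff_exists_Ioo_subset.mp (ht 0)
  set d := min δ h with hd
  have hd0 : 0 < d := lt_min hδ hh
  have hne : ∀ r ∈ Ioo 0 d, u r ≠ 0 := by
    intro r hr h0
    have : (0 : ℝ) < |u r| := hδ2 ⟨hr.1, hr.2.trans_le (min_le_left _ _)⟩
    rw [h0, abs_zero] at this
    exact lt_irrefl _ this
  have hcd : ContinuousOn u (Ioo 0 d) := hc.mono (Ioo_subset_Ioo_right (min_le_right _ _))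
  have hmem : Ioo 0 d ∈ 𝓝[>] (0 : ℝ) := Ioo_mem_nhdsGT hd0
  have hm : d / 2 ∈ Ioo 0 d := ⟨by positivity, by linarith⟩
  rcases lt_or_gt_of_ne (hne _ hm) with hneg | hpos
  · right
    have hall : ∀ r ∈ Ioo 0 d, u r < 0 := by
      intro r hr
      by_contra hcon
      push Not at hcon
      obtain ⟨s, hs, hs0⟩ := isPreconnected_Ioo.intermediate_value hm hr hcd ⟨hneg.le, hcon⟩
      exact hne s hs hs0
    rw [tendsto_atBot]
    intro b
    filter_upwards [ht (-b), hmem] with r hr hrm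
    rw [abs_of_neg (hall r hrm)] at hr
    linarith
  · left
    have hall : ∀ r ∈ Ioo 0 d, 0 < u r := by
      intro r hr
      by_contra hcon
      push Not at hcon
      obtain ⟨s, hs, hs0⟩ := isPreconnected_Ioo.intermediate_value hr hm hcd ⟨hcon, hpos.le⟩
      exact hne s hs hs0
    rw [Filter.tendsto_atTop]
    intro b
    filter_upwards [ht b, hmem] with r hr hrm
    rw [abs_of_pos (hall r hrm)] at hr
    exact hr.le

theorem log_bot {α : Type*} {L : Filter α} {g : α → ℂ} (h : Tendsto (fun a => Real.log ‖g a‖) L atBot)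
    (hne : ∀ᶠ a in L, g a ≠ 0) : Tendsto g L (𝓝 0) := by
  rw [tendsto_zero_iff_norm_tendsto_zero]
  have h1 : Tendsto (fun a => Real.exp (Real.log ‖g a‖)) L (𝓝 0) := Real.tendsto_exp_atBot.comp h
  refine h1.congr' ?_
  filter_upwards [hne] with a ha
  exact Real.exp_log (norm_pos_iff.mpr ha)

/-- **Thick scales.**  If `f` is holomorphic on `D` and omits `0` and `1`, and every `x ∈ S` is the
vertex of a cone in `D`, then for almost every `x ∈ S` there are infinitely many scales `r → 0`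
with `|log |f (x + i r)|| ≤ V₀`. -/
theorem thick_ae {D : Set ℂ} {f : ℂ → ℂ} (hf : Om D f) {S : Set ℝ}
    (hS : ∀ x ∈ S, ∃ k > 0, ∃ h > 0, cone k h x ⊆ D) :
    ∀ᵐ x : ℝ, x ∈ S → ∃ V₀ : ℝ, ∃ᶠ r : ℝ in 𝓝[>] 0, |Real.log ‖f (x + r * I)‖| ≤ V₀ := by
  filter_upwards [no_zero hf hS, no_zero (Vale.Agent.P097.H699.Om.inv hf) hS] with x h0 hi hx
  by_contra hcon
  have hcon' : ∀ V : ℝ, ∀ᶠ r : ℝ in 𝓝[>] 0, V < |Real.log ‖f (x + r * I)‖| := by
    intro V
    by_contra h
    exact hcon ⟨V, fun h' => h (h'.mono fun r hr => by simpa using hr)⟩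
  obtain ⟨k, hk, h, hh, hsub⟩ := hS x hx
  have hax : ∀ r ∈ Ioo 0 h, (x : ℂ) + r * I ∈ D := fun r hr => hsub (ax_mem hk hr.1 hr.2)
  have hc : ContinuousOn (fun r : ℝ => Real.log ‖f (x + r * I)‖) (Ioo 0 h) := by
    refine ContinuousOn.log (ContinuousOn.norm (hf.1.continuousOn.comp (by fun_prop) hax)) ?_
    intro r hr
    exact norm_ne_zero_iff.mpr (hf.2 _ (hax r hr)).1
  have hne : ∀ᶠ r : ℝ in 𝓝[>] 0, f (x + r * I) ≠ 0 := by
    filter_upwards [Ioo_mem_nhdsGT hh] with r hr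
    exact (hf.2 _ (hax r hr)).1
  rcases abs_large_cases hh hc hcon' with h1 | h1
  · apply hi hx
    apply log_bot
    · have : (fun r : ℝ => Real.log ‖(f (x + r * I))⁻¹‖) = fun r : ℝ => -Real.log ‖f (x + r * I)‖ := by
        funext r
        rw [norm_inv, Real.log_inv]
      rw [this]
      exact tendsto_neg_atTop_atBot.comp h1
    · filter_upwards [hne] with r hr
      exact inv_ne_zero hr
  · exact h0 hx (log_bot h1 hne)

end Vale.Agent.P097.H264
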