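import Vale.Agent.P097.H264.Thick
import Vale.Agent.P097.H264.Chain

/-!
Thick scales in two variables: the slices with real second coordinate, Fubini, and propagation of
bounds from the axis to two dimensional cones.
-/

open Complex Metric Filter Topology Set MeasureTheory

namespace Vale.Agent.P097.H264

open Vale.Agent.P097.H877.Bd Vale.Agent.P097.H699

/-- **Thick scales, two variables.**  `f` is holomorphic and omits `0` and `1` on the open set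
`D ⊆ ℂ × ℂ`; every foot `(x, ξ) ∈ S` is the vertex of a cone of the half plane `ζ = ξ` in `D`.
Then almost every foot has infinitely many scales `r → 0` with `|log |f (x + i r, ξ)|| ≤ V₀`. -/
theorem thick_ae2 {D : Set (ℂ × ℂ)} (hD : IsOpen D) {f : ℂ × ℂ → ℂ} (hf : DifferentiableOn ℂ f D)
    (h01 : ∀ z ∈ D, f z ≠ 0 ∧ f z ≠ 1) {S : Set (ℝ × ℝ)} (hSm : MeasurableSet S)
    (hS : ∀ e ∈ S, ∃ k > 0, ∃ h > 0, ∀ z ∈ cone k h e.1, (z, (e.2 : ℂ)) ∈ D) :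
    ∀ᵐ e : ℝ × ℝ, e ∈ S → ∃ V₀ : ℝ, ∃ᶠ r : ℝ in 𝓝[>] 0,
      |Real.log ‖f ((e.1 : ℂ) + r * I, (e.2 : ℂ))‖| ≤ V₀ := by
  -- the bad set
  set u : ℝ → ℝ × ℝ → ℝ := fun r e => |Real.log ‖f ((e.1 : ℂ) + r * I, (e.2 : ℂ))‖| with hu
  set P : ℝ × ℝ → Prop := fun e => ∃ V₀ : ℝ, ∃ᶠ r : ℝ in 𝓝[>] 0, u r e ≤ V₀ with hP
  set Op : ℕ → ℕ → Set (ℝ × ℝ) := fun V n => {e | ∃ r : ℝ, 0 < r ∧ r < 1 / ((n : ℝ) + 1) ∧
    ((e.1 : ℂ) + r * I, (e.2 : ℂ)) ∈ D ∧ u r e < V} with hOp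
  have hOpo : ∀ V n, IsOpen (Op V n) := by
    intro V n
    rw [isOpen_iff_mem_nhds]
    rintro e ⟨r, hr0, hr1, hrD, hru⟩
    have hcont : Continuous fun e : ℝ × ℝ => (((e.1 : ℂ) + r * I, (e.2 : ℂ)) : ℂ × ℂ) := by
      fun_prop
    have hDn : D ∈ 𝓝 (((e.1 : ℂ) + r * I, (e.2 : ℂ)) : ℂ × ℂ) := hD.mem_nhds hrD
    have h1 : ∀ᶠ e' : ℝ × ℝ in 𝓝 e, (((e'.1 : ℂ) + r * I, (e'.2 : ℂ)) : ℂ × ℂ) ∈ D :=
      hcont.continuousAt.eventually hDn
    have h2 : ContinuousAt (u r) e := by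
      have hfa : ContinuousAt f (((e.1 : ℂ) + r * I, (e.2 : ℂ)) : ℂ × ℂ) :=
        (hf.differentiableAt hDn).continuousAt
      have h3 : ContinuousAt (fun e : ℝ × ℝ => f ((e.1 : ℂ) + r * I, (e.2 : ℂ))) e :=
        ContinuousAt.comp (f := fun e : ℝ × ℝ => (((e.1 : ℂ) + r * I, (e.2 : ℂ)) : ℂ × ℂ)) hfa
          hcont.continuousAt
      exact (h3.norm.log (norm_ne_zero_iff.mpr (h01 _ hrD).1)).abs
    filter_upwards [h1, h2.eventually_lt_const hru] with e' h4 h5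
    exact ⟨r, hr0, hr1, h4, h5⟩
  have hiff : ∀ e ∈ S, (P e ↔ ∃ V : ℕ, ∀ n : ℕ, e ∈ Op V n) := by
    intro e he
    obtain ⟨k, hk, h, hh, hcone⟩ := hS e he
    constructor
    · rintro ⟨V₀, hV⟩
      obtain ⟨V, hV2⟩ := exists_nat_gt V₀
      refine ⟨V, fun n => ?_⟩
      have hm : Ioo (0 : ℝ) (min h (1 / ((n : ℝ) + 1))) ∈ 𝓝[>] (0 : ℝ) :=
        Ioo_mem_nhdsGT (lt_min hh (by positivity))
      obtain ⟨r, hr, hru⟩ := (hV.and_eventually hm).exists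
      exact ⟨r, hru.1, hru.2.trans_le (min_le_right _ _),
        hcone _ (ax_mem hk hru.1 (hru.2.trans_le (min_le_left _ _))), hr.trans_lt hV2⟩
    · rintro ⟨V, hV⟩
      refine ⟨V, ?_⟩
      rw [Filter.frequently_iff]
      intro s hs
      obtain ⟨δ, hδ, hδs⟩ := mem_nhdsGT_iff_exists_Ioo_subset.mp hs
      obtain ⟨n, hn⟩ := exists_nat_one_div_lt (show (0:ℝ) < δ from hδ)
      obtain ⟨r, hr0, hr1, -, hru⟩ := hV n
      exact ⟨r, hδs ⟨hr0, hr1.trans hn⟩, hru.le⟩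
  have hmeas : MeasurableSet (S ∩ {e | ∃ V : ℕ, ∀ n : ℕ, e ∈ Op V n}ᶜ) := by
    refine hSm.inter (MeasurableSet.compl ?_)
    have : {e | ∃ V : ℕ, ∀ n : ℕ, e ∈ Op V n} = ⋃ V : ℕ, ⋂ n : ℕ, Op V n := by
      ext e; simp
    rw [this]
    exact MeasurableSet.iUnion fun V => MeasurableSet.iInter fun n => (hOpo V n).measurableSet
  have hnull : (volume : Measure (ℝ × ℝ)) (S ∩ {e | ∃ V : ℕ, ∀ n : ℕ, e ∈ Op V n}ᶜ) = 0 := by
    set B := S ∩ {e | ∃ V : ℕ, ∀ n : ℕ, e ∈ Op V n}ᶜ with hB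
    have h1 : (volume : Measure (ℝ × ℝ)) (Prod.swap ⁻¹' B) = volume B :=
      (Measure.measurePreserving_swap (μ := (volume : Measure ℝ)) (ν := (volume : Measure ℝ))
        ).measure_preimage hmeas.nullMeasurableSet
    rw [← h1, Measure.volume_eq_prod, Measure.measure_prod_null (measurable_swap hmeas)]
    refine Filter.Eventually.of_forall fun ξ => ?_
    -- the slice
    have hDs : MapsTo (fun z : ℂ => (z, (ξ : ℂ))) {z : ℂ | (z, (ξ : ℂ)) ∈ D} D := fun z hz => hz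
    have hsl := thick_ae (D := {z : ℂ | (z, (ξ : ℂ)) ∈ D}) (f := fun z => f (z, (ξ : ℂ)))
      ⟨hf.comp (by fun_prop) hDs, fun z hz => h01 _ hz⟩ (S := {x : ℝ | (x, ξ) ∈ S})
      (fun x hx => by
        obtain ⟨k, hk, h, hh, hc⟩ := hS (x, ξ) hx
        exact ⟨k, hk, h, hh, fun z hz => hc z hz⟩)
    rw [ae_iff] at hsl
    simp only [Pi.zero_apply]
    refine measure_mono_null (fun x hx => ?_) hsl
    simp only [mem_preimage, Prod.swap_prod_mk, hB, mem_inter_iff, mem_compl_iff] at hx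
    simp only [Set.mem_ofPred_eq, Classical.not_imp]
    refine ⟨hx.1, fun hc => hx.2 ?_⟩
    exact (hiff (x, ξ) hx.1).mp hc
  rw [ae_iff]
  refine measure_mono_null (fun e he => ?_) hnull
  simp only [Set.mem_ofPred_eq, Classical.not_imp] at he
  refine ⟨he.1, fun hc => he.2 ?_⟩
  exact (hiff e he.1).mpr hc

end Vale.Agent.P097.H264
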